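import Vale.Agent.P092.R3.H367.SArith

/-!
Subgroups of `Sp_{2N}(ℚ)` containing a finite index subgroup of `Sp_{2N}(ℤ)`, without `-1`: the
symplectic case of `SArith`.
-/

set_option linter.all false

open Matrix

namespace Vale.Agent.P092.H367.SpArith

open Vale.Agent.P092.H885

variable {N : ℕ}

theorem inc_val (l : symplecticGroup (Fin N) ℤ) :
    ((inc N l : symplecticGroup (Fin N) ℚ) : Matrix (Fin N ⊕ Fin N) (Fin N ⊕ Fin N) ℚ) =
      (l : Matrix (Fin N ⊕ Fin N) (Fin N ⊕ Fin N) ℤ).map (Int.cast : ℤ → ℚ) := rfl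

theorem map_inj {A B : Matrix (Fin N ⊕ Fin N) (Fin N ⊕ Fin N) ℤ}
    (h : A.map (Int.cast : ℤ → ℚ) = B.map (Int.cast : ℤ → ℚ)) : A = B := by
  ext i j
  have := congrFun (congrFun h i) j
  simpa using this

theorem smul_val (a b : symplecticGroup (Fin N) ℚ) :
    ((a * b : symplecticGroup (Fin N) ℚ) : Matrix (Fin N ⊕ Fin N) (Fin N ⊕ Fin N) ℚ) =
      (a : Matrix (Fin N ⊕ Fin N) (Fin N ⊕ Fin N) ℚ) *
      (b : Matrix (Fin N ⊕ Fin N) (Fin N ⊕ Fin N) ℚ) := rfl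

/-- The vector `v` over `ℚ`. -/
def qv (v : Fin N ⊕ Fin N → ℤ) : Fin N ⊕ Fin N → ℚ := fun i => (v i : ℚ)

theorem map_tm (v : Fin N ⊕ Fin N → ℤ) (k : ℤ) :
    (SpT.tm v k).map (Int.cast : ℤ → ℚ) =
      1 + (k : ℚ) • vecMulVec (qv v) (qv v ᵥ* J (Fin N) ℚ) := by
  have hv : ∀ j, ((v ᵥ* J (Fin N) ℤ) j : ℚ) = (qv v ᵥ* J (Fin N) ℚ) j := by
    intro j
    rw [← map_J (Int.castRingHom ℚ)]
    simp [Matrix.vecMul, dotProduct, qv]
  ext i j
  rw [SpT.tm, Matrix.map_apply, Matrix.add_apply, Matrix.smul_apply, Matrix.add_apply,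
    Matrix.smul_apply, vecMulVec_apply, vecMulVec_apply, smul_eq_mul, smul_eq_mul, Int.cast_add,
    Int.cast_mul, Int.cast_mul, hv j]
  congr 1
  by_cases hij : i = j
  · subst hij
    simp
  · simp [Matrix.one_apply_ne hij]

theorem aJ (v : Fin N ⊕ Fin N → ℚ) : (v ᵥ* J (Fin N) ℚ) ᵥ* J (Fin N) ℚ = -v := by
  rw [vecMul_vecMul, Matrix.J_squared, vecMul_neg, vecMul_one]

/-- A matrix commuting with a nontrivial power of the transvection of `v` maps `v` to a multiple. -/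
theorem par_of_comm {A : Matrix (Fin N ⊕ Fin N) (Fin N ⊕ Fin N) ℚ} {v : Fin N ⊕ Fin N → ℚ}
    (hv : v ≠ 0) {k : ℚ} (hk : k ≠ 0)
    (h : A * (1 + k • vecMulVec v (v ᵥ* J (Fin N) ℚ)) =
      (1 + k • vecMulVec v (v ᵥ* J (Fin N) ℚ)) * A) (i i' : Fin N ⊕ Fin N) :
    v i' * (A *ᵥ v) i = v i * (A *ᵥ v) i' := by
  have h1 : k • vecMulVec (A *ᵥ v) (v ᵥ* J (Fin N) ℚ) =
      k • vecMulVec v ((v ᵥ* J (Fin N) ℚ) ᵥ* A) := by
    rw [Matrix.mul_add, Matrix.add_mul, Matrix.mul_one, Matrix.one_mul, Matrix.mul_smul,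
      Matrix.smul_mul, mul_vecMulVec, vecMulVec_mul, add_right_inj] at h
    exact h
  have h2 : vecMulVec (A *ᵥ v) (v ᵥ* J (Fin N) ℚ) = vecMulVec v ((v ᵥ* J (Fin N) ℚ) ᵥ* A) :=
    smul_right_injective _ hk h1
  have ha : v ᵥ* J (Fin N) ℚ ≠ 0 := by
    intro h0
    have := aJ v
    rw [h0, zero_vecMul] at this
    exact hv (neg_eq_zero.mp this.symm)
  obtain ⟨j, hj⟩ := Function.ne_iff.mp ha
  have e1 := congrFun (congrFun h2 i) j
  have e2 := congrFun (congrFun h2 i') j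
  rw [vecMulVec_apply, vecMulVec_apply] at e1 e2
  have hj' : (v ᵥ* J (Fin N) ℚ) j ≠ 0 := hj
  refine mul_right_cancel₀ hj' ?_
  calc v i' * (A *ᵥ v) i * (v ᵥ* J (Fin N) ℚ) j = v i' * ((A *ᵥ v) i * (v ᵥ* J (Fin N) ℚ) j) := by ring
    _ = v i * (v i' * ((v ᵥ* J (Fin N) ℚ) ᵥ* A) j) := by rw [e1]; ring
    _ = v i * (A *ᵥ v) i' * (v ᵥ* J (Fin N) ℚ) j := by rw [← e2]; ring

/-- Orbits under conjugation by finite index subgroups of `Sp_{2N}(ℤ)` are infinite. -/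
theorem orbit_infinite (L : Subgroup (symplecticGroup (Fin N) ℤ)) [L.FiniteIndex]
    {x : symplecticGroup (Fin N) ℚ} (h1 : x ≠ 1)
    (h2 : (x : Matrix (Fin N ⊕ Fin N) (Fin N ⊕ Fin N) ℚ) ≠ -1) :
    {y | ∃ l ∈ L, y = inc N l * x * (inc N l)⁻¹}.Infinite := by
  intro hfin
  set A : Matrix (Fin N ⊕ Fin N) (Fin N ⊕ Fin N) ℚ :=
    (x : Matrix (Fin N ⊕ Fin N) (Fin N ⊕ Fin N) ℚ) with hA
  have hpar : ∀ v : Fin N ⊕ Fin N → ℤ, v ≠ 0 → ∀ i i',
      qv v i' * (A *ᵥ qv v) i = qv v i * (A *ᵥ qv v) i' := by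
    intro v hv i i'
    obtain ⟨d, hd0, -, hd⟩ := Subgroup.exists_pow_mem_of_index_ne_zero
      (Subgroup.FiniteIndex.index_ne_zero (H := L)) (SpT.ts v 1)
    set h : ℕ → symplecticGroup (Fin N) ℤ := fun k => (SpT.ts v 1 ^ d) ^ k with hh
    have hmaps : ∀ k : ℕ, inc N (h k) * x * (inc N (h k))⁻¹ ∈
        {y | ∃ l ∈ L, y = inc N l * x * (inc N l)⁻¹} := fun k => ⟨h k, L.pow_mem hd k, rfl⟩
    obtain ⟨k, -, l, -, hkl, heq⟩ := Set.infinite_univ.exists_ne_map_eq_of_mapsTo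
      (f := fun k : ℕ => inc N (h k) * x * (inc N (h k))⁻¹) (fun k _ => hmaps k) hfin
    wlog hlt : k < l generalizing k l
    · exact this l k hkl.symm heq.symm (lt_of_le_of_ne (not_lt.mp hlt) hkl.symm)
    obtain ⟨m, hm0, rfl⟩ : ∃ m, 0 < m ∧ l = k + m := ⟨l - k, by omega, by omega⟩
    have h1 : x * inc N (h m) = inc N (h m) * x := by
      have h2 : h (k + m) = h k * h m := pow_add _ _ _
      change inc N (h k) * x * (inc N (h k))⁻¹ = inc N (h (k + m)) * x * (inc N (h (k + m)))⁻¹ at heq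
      rw [h2, map_mul] at heq
      have h3 : x = inc N (h m) * x * (inc N (h m))⁻¹ := by
        have h4 : (inc N (h k))⁻¹ * (inc N (h k) * x * (inc N (h k))⁻¹) * inc N (h k) =
            (inc N (h k))⁻¹ * (inc N (h k) * inc N (h m) * x * (inc N (h k) * inc N (h m))⁻¹) *
              inc N (h k) := by rw [heq]
        have h5 : (inc N (h k))⁻¹ * (inc N (h k) * x * (inc N (h k))⁻¹) * inc N (h k) = x := by
          group
        have h6 : (inc N (h k))⁻¹ * (inc N (h k) * inc N (h m) * x *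
            (inc N (h k) * inc N (h m))⁻¹) * inc N (h k) =
            inc N (h m) * x * (inc N (h m))⁻¹ := by group
        rw [h5, h6] at h4
        exact h4
      calc x * inc N (h m) = (inc N (h m) * x * (inc N (h m))⁻¹) * inc N (h m) := by rw [← h3]
        _ = inc N (h m) * x := by group
    have h7 : h m = SpT.ts v ((d * m : ℕ) : ℤ) := by
      rw [← SpT.ts_pow, pow_mul]
    have h8 : ((inc N (h m) : symplecticGroup (Fin N) ℚ) :
        Matrix (Fin N ⊕ Fin N) (Fin N ⊕ Fin N) ℚ) =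
        1 + (((d * m : ℕ) : ℤ) : ℚ) • vecMulVec (qv v) (qv v ᵥ* J (Fin N) ℚ) := by
      rw [← map_tm, h7, inc_val]
      rfl
    have h5 : A * ((inc N (h m) : symplecticGroup (Fin N) ℚ) :
        Matrix (Fin N ⊕ Fin N) (Fin N ⊕ Fin N) ℚ) =
        ((inc N (h m) : symplecticGroup (Fin N) ℚ) :
        Matrix (Fin N ⊕ Fin N) (Fin N ⊕ Fin N) ℚ) * A :=
      congrArg (fun y : symplecticGroup (Fin N) ℚ =>
        (y : Matrix (Fin N ⊕ Fin N) (Fin N ⊕ Fin N) ℚ)) h1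
    rw [h8] at h5
    refine par_of_comm ?_ ?_ h5 i i'
    · intro h0
      apply hv
      ext a
      have := congrFun h0 a
      simpa [qv] using this
    · have : 0 < d * m := Nat.mul_pos hd0 hm0
      positivity
  have hoff : ∀ i m, i ≠ m → A i m = 0 := by
    intro i m him
    have h0 : (Pi.single m 1 : Fin N ⊕ Fin N → ℤ) ≠ 0 := by
      intro h
      have := congrFun h m
      simp at this
    have h3 : qv (Pi.single m 1 : Fin N ⊕ Fin N → ℤ) = Pi.single m 1 := by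
      ext a
      by_cases ha : a = m
      · subst ha; simp [qv]
      · simp [qv, Pi.single_eq_of_ne ha]
    have h1 := hpar _ h0 i m
    rw [h3, mulVec_single_one, Pi.single_eq_same, Pi.single_eq_of_ne him, zero_mul, one_mul] at h1
    exact h1
  have hdiag : ∀ m l, A m m = A l l := by
    intro m l
    by_cases hml : m = l
    · rw [hml]
    have h0 : (Pi.single m 1 + Pi.single l 1 : Fin N ⊕ Fin N → ℤ) ≠ 0 := by
      intro h
      have := congrFun h m
      simp [Pi.single_eq_of_ne hml] at this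
    have h3 : qv (Pi.single m 1 + Pi.single l 1 : Fin N ⊕ Fin N → ℤ) =
        Pi.single m 1 + Pi.single l 1 := by
      ext a
      by_cases ha : a = m
      · subst ha; simp [qv, Pi.single_eq_of_ne hml]
      · by_cases hb : a = l
        · subst hb; simp [qv, Pi.single_eq_of_ne ha]
        · simp [qv, Pi.single_eq_of_ne ha, Pi.single_eq_of_ne hb]
    have h1 := hpar _ h0 m l
    rw [h3, mulVec_add, mulVec_single_one, mulVec_single_one] at h1
    simp only [Pi.add_apply, Pi.single_eq_same, Pi.single_eq_of_ne hml,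
      Pi.single_eq_of_ne (Ne.symm hml), zero_add, add_zero, one_mul, col_apply] at h1
    rw [hoff m l hml, hoff l m (Ne.symm hml)] at h1
    simpa using h1
  rcases N with _ | N
  · apply h1
    apply Subtype.ext
    ext i
    exact (IsEmpty.false i).elim
  have hA0 : A = A (Sum.inl 0) (Sum.inl 0) • (1 : Matrix (Fin (N + 1) ⊕ Fin (N + 1))
      (Fin (N + 1) ⊕ Fin (N + 1)) ℚ) := by
    ext i j
    rw [Matrix.smul_apply, Matrix.one_apply, smul_eq_mul]
    split_ifs with hij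
    · rw [← hij, mul_one]; exact hdiag _ _
    · rw [mul_zero]; exact hoff _ _ hij
  have hsp : A * J (Fin (N + 1)) ℚ * Aᵀ = J (Fin (N + 1)) ℚ := SymplecticGroup.mem_iff.mp x.2
  set c : ℚ := A (Sum.inl 0) (Sum.inl 0) with hc
  have hcc : c * c = 1 := by
    rw [hA0, transpose_smul, transpose_one, Matrix.smul_mul, Matrix.one_mul, Matrix.mul_smul,
      Matrix.mul_one, smul_smul] at hsp
    have h1 := congrFun (congrFun hsp (Sum.inl 0)) (Sum.inr 0)
    rw [Matrix.smul_apply, smul_eq_mul] at h1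
    have h2 : J (Fin (N + 1)) ℚ (Sum.inl 0) (Sum.inr 0) = -1 := by
      rw [Matrix.J, Matrix.fromBlocks_apply₁₂, Matrix.neg_apply, Matrix.one_apply_eq]
    rw [h2] at h1
    linarith
  rcases mul_self_eq_one_iff.mp hcc with h3 | h3
  · apply h1
    apply Subtype.ext
    change A = 1
    rw [hA0, h3, one_smul]
  · apply h2
    change A = -1
    rw [hA0, h3, neg_smul, one_smul]

/-- A common denominator. -/
theorem exists_denom (A : Matrix (Fin N ⊕ Fin N) (Fin N ⊕ Fin N) ℚ) :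
    ∃ d : ℕ, 0 < d ∧ ∃ B : Matrix (Fin N ⊕ Fin N) (Fin N ⊕ Fin N) ℤ,
      B.map (Int.cast : ℤ → ℚ) = (d : ℚ) • A := by
  have hd : ∀ i j : Fin N ⊕ Fin N,
      (A i j).den ∣ ∏ i : Fin N ⊕ Fin N, ∏ j : Fin N ⊕ Fin N, (A i j).den := fun i j =>
    (Finset.dvd_prod_of_mem (fun j => (A i j).den) (Finset.mem_univ j)).trans
      (Finset.dvd_prod_of_mem (fun i => ∏ j : Fin N ⊕ Fin N, (A i j).den) (Finset.mem_univ i))
  refine ⟨∏ i : Fin N ⊕ Fin N, ∏ j : Fin N ⊕ Fin N, (A i j).den,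
    Finset.prod_pos fun i _ => Finset.prod_pos fun j _ => (A i j).den_pos, ?_⟩
  choose c hc using hd
  refine ⟨Matrix.of fun i j => c i j * (A i j).num, ?_⟩
  ext i j
  rw [Matrix.map_apply, Matrix.of_apply, Matrix.smul_apply, smul_eq_mul]
  conv_rhs => rw [hc i j]
  have h1 : ((A i j).den : ℚ) ≠ 0 := by exact_mod_cast (A i j).den_nz
  have h2 : (A i j) * (A i j).den = (A i j).num := Rat.mul_den_eq_num _
  push_cast
  rw [← h2]
  ring

/-- The congruence subgroup of level `n`. -/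
def cong (N n : ℕ) : Subgroup (symplecticGroup (Fin N) ℤ) :=
  (mapSp (N := N) (Int.castRingHom (ZMod n))).ker

instance cong_fi (N n : ℕ) [NeZero n] : (cong N n).FiniteIndex := by
  unfold cong
  haveI : Finite (symplecticGroup (Fin N) (ZMod n)) := Subtype.finite
  haveI : Finite (mapSp (N := N) (Int.castRingHom (ZMod n))).range := Subtype.finite
  exact Subgroup.finiteIndex_ker _

theorem mem_cong {n : ℕ} {l : symplecticGroup (Fin N) ℤ} (h : l ∈ cong N n) :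
    ∃ B : Matrix (Fin N ⊕ Fin N) (Fin N ⊕ Fin N) ℤ,
      (l : Matrix (Fin N ⊕ Fin N) (Fin N ⊕ Fin N) ℤ) = 1 + (n : ℤ) • B := by
  have h1 : mapSp (N := N) (Int.castRingHom (ZMod n)) l = 1 := h
  have h2 : ∀ i j, (n : ℤ) ∣ ((l : Matrix (Fin N ⊕ Fin N) (Fin N ⊕ Fin N) ℤ) - 1) i j := by
    intro i j
    have h3 := congrArg (fun y : symplecticGroup (Fin N) (ZMod n) =>
      (y : Matrix (Fin N ⊕ Fin N) (Fin N ⊕ Fin N) (ZMod n)) i j) h1
    change (((l : Matrix (Fin N ⊕ Fin N) (Fin N ⊕ Fin N) ℤ) i j : ℤ) : ZMod n) =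
      (1 : Matrix (Fin N ⊕ Fin N) (Fin N ⊕ Fin N) (ZMod n)) i j at h3
    rw [← CharP.intCast_eq_zero_iff (ZMod n) n, Matrix.sub_apply, Int.cast_sub, h3]
    by_cases hij : i = j
    · subst hij
      simp
    · simp [Matrix.one_apply_ne hij]
  choose B hB using h2
  refine ⟨Matrix.of B, ?_⟩
  ext i j
  have := hB i j
  rw [Matrix.add_apply, Matrix.smul_apply, Matrix.of_apply, smul_eq_mul, ← this,
    Matrix.sub_apply]
  ring

/-- `g⁻¹ l g` is integral for `l` in a congruence subgroup. -/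
theorem conj_mem (g : symplecticGroup (Fin N) ℚ) : ∃ n : ℕ, 0 < n ∧
    ∀ l ∈ cong N n, g⁻¹ * inc N l * g ∈ (inc N).range := by
  obtain ⟨d, hd, A, hA⟩ := exists_denom (g : Matrix (Fin N ⊕ Fin N) (Fin N ⊕ Fin N) ℚ)
  obtain ⟨e, he, A', hA'⟩ := exists_denom ((g⁻¹ : symplecticGroup (Fin N) ℚ) :
    Matrix (Fin N ⊕ Fin N) (Fin N ⊕ Fin N) ℚ)
  refine ⟨d * e, Nat.mul_pos hd he, fun l hl => ?_⟩
  obtain ⟨B, hB⟩ := mem_cong hl
  have hgg : ((g⁻¹ : symplecticGroup (Fin N) ℚ) : Matrix (Fin N ⊕ Fin N) (Fin N ⊕ Fin N) ℚ) *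
      (g : Matrix (Fin N ⊕ Fin N) (Fin N ⊕ Fin N) ℚ) = 1 := by
    have := congrArg (fun y : symplecticGroup (Fin N) ℚ =>
      (y : Matrix (Fin N ⊕ Fin N) (Fin N ⊕ Fin N) ℚ)) (inv_mul_cancel g)
    exact this
  have key : (1 + A' * B * A).map (Int.cast : ℤ → ℚ) =
      ((g⁻¹ * inc N l * g : symplecticGroup (Fin N) ℚ) :
        Matrix (Fin N ⊕ Fin N) (Fin N ⊕ Fin N) ℚ) := by
    have e1 : ((g⁻¹ * inc N l * g : symplecticGroup (Fin N) ℚ) :
        Matrix (Fin N ⊕ Fin N) (Fin N ⊕ Fin N) ℚ) =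
        ((g⁻¹ : symplecticGroup (Fin N) ℚ) : Matrix (Fin N ⊕ Fin N) (Fin N ⊕ Fin N) ℚ) *
          (l : Matrix (Fin N ⊕ Fin N) (Fin N ⊕ Fin N) ℤ).map (Int.cast : ℤ → ℚ) *
          (g : Matrix (Fin N ⊕ Fin N) (Fin N ⊕ Fin N) ℚ) := rfl
    have e2 : (l : Matrix (Fin N ⊕ Fin N) (Fin N ⊕ Fin N) ℤ).map (Int.cast : ℤ → ℚ) =
        1 + ((d : ℚ) * e) • B.map (Int.cast : ℤ → ℚ) := by
      rw [hB]
      ext i j
      rw [Matrix.map_apply, Matrix.add_apply, Matrix.smul_apply, Matrix.add_apply,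
        Matrix.smul_apply, Matrix.map_apply, smul_eq_mul, smul_eq_mul, Int.cast_add, Int.cast_mul]
      push_cast
      congr 1
      by_cases hij : i = j
      · subst hij
        simp
      · simp [Matrix.one_apply_ne hij]
    have e3 : (1 + A' * B * A).map (Int.cast : ℤ → ℚ) =
        1 + A'.map (Int.cast : ℤ → ℚ) * B.map (Int.cast : ℤ → ℚ) *
          A.map (Int.cast : ℤ → ℚ) := by
      have := (RingHom.mapMatrix (m := Fin N ⊕ Fin N) (Int.castRingHom ℚ)).map_add 1 (A' * B * A)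
      rw [map_one, map_mul, map_mul] at this
      exact this
    rw [e1, e2, e3, hA, hA', Matrix.mul_add, Matrix.add_mul, Matrix.mul_one, hgg]
    congr 1
    simp only [Matrix.smul_mul, Matrix.mul_smul, smul_smul]
  have hsp : 1 + A' * B * A ∈ symplecticGroup (Fin N) ℤ := by
    rw [SymplecticGroup.mem_iff]
    apply map_inj
    have h2 := SymplecticGroup.mem_iff.mp (g⁻¹ * inc N l * g).2
    rw [← key, ← map_J (Int.castRingHom ℚ)] at h2
    have h3 : ((1 + A' * B * A) * J (Fin N) ℤ * (1 + A' * B * A)ᵀ).map (Int.castRingHom ℚ) =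
        (J (Fin N) ℤ).map (Int.castRingHom ℚ) := by
      rw [Matrix.map_mul, Matrix.map_mul, Matrix.transpose_map]
      exact h2
    exact h3
  refine ⟨⟨1 + A' * B * A, hsp⟩, ?_⟩
  apply Subtype.ext
  exact key

variable {Γ : Type} [Group Γ] (j : Γ →* symplecticGroup (Fin N) ℚ)

/-- All orbits on `Γ ∖ {1}` under finite intersections of conjugates of `Γ ∩ Sp_{2N}(ℤ)` are
infinite. -/
theorem rel_icc (hj : Function.Injective j) (hfi : (j.range.comap (inc N)).FiniteIndex)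
    (hΓ : ∀ g, (j g : Matrix (Fin N ⊕ Fin N) (Fin N ⊕ Fin N) ℚ) ≠ -1) (S : Finset Γ) (x : Γ)
    (hx : x ≠ 1) :
    {y : Γ | ∃ k : Γ, (∀ g ∈ S, g⁻¹ * k * g ∈ HZ j) ∧ y = k * x * k⁻¹}.Infinite := by
  have hc : ∀ g : S, ∃ n : ℕ, 0 < n ∧ ∀ l ∈ cong N n,
      (j (g : Γ))⁻¹ * inc N l * j (g : Γ) ∈ (inc N).range := fun g => conj_mem _
  choose n hn hc using hc
  haveI : ∀ g : S, (cong N (n g)).FiniteIndex := fun g => by
    haveI : NeZero (n g) := ⟨(hn g).ne'⟩
    infer_instance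
  haveI : (⨅ g : S, cong N (n g)).FiniteIndex := Subgroup.finiteIndex_iInf fun g => this g
  haveI := hfi
  have h := orbit_infinite (j.range.comap (inc N) ⊓ ⨅ g : S, cong N (n g)) (x := j x)
    (fun h => hx (hj (h.trans (map_one j).symm))) (hΓ x)
  intro hfin
  refine h ((hfin.image j).subset ?_)
  rintro y ⟨l, hl, rfl⟩
  obtain ⟨k, hk⟩ : inc N l ∈ j.range := (Subgroup.mem_inf.mp hl).1
  have hl2 := (Subgroup.mem_inf.mp hl).2
  refine ⟨k * x * k⁻¹, ⟨k, fun g hg => ?_, rfl⟩, ?_⟩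
  · have h1 := hc ⟨g, hg⟩ l (Subgroup.mem_iInf.mp hl2 ⟨g, hg⟩)
    rw [Subgroup.mem_comap, map_mul, map_mul, map_inv, hk]
    exact h1
  · rw [map_mul, map_mul, map_inv, hk]

/-- `Γ` is ICC. -/
theorem icc (hj : Function.Injective j) (hfi : (j.range.comap (inc N)).FiniteIndex)
    (hΓ : ∀ g, (j g : Matrix (Fin N ⊕ Fin N) (Fin N ⊕ Fin N) ℚ) ≠ -1) (x : Γ) (hx : x ≠ 1) :
    {y : Γ | ∃ k, y = k * x * k⁻¹}.Infinite := by
  refine (rel_icc j hj hfi hΓ ∅ x hx).mono ?_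
  rintro y ⟨k, -, h⟩
  exact ⟨k, h⟩

/-- `H = Γ ∩ Sp_{2N}(ℤ)` has property (T). -/
theorem kazhdan (hN : 3 ≤ N) (hj : Function.Injective j)
    (hfi : (j.range.comap (inc N)).FiniteIndex) :
    ∃ (Q : Finset (HZ j)) (ε : ℝ), IsKazhdanPair (HZ j) Q ε := by
  have hex : ∀ l : j.range.comap (inc N), ∃ k : Γ, j k = inc N l := fun l => l.2
  choose k hk using hex
  let f : j.range.comap (inc N) →* HZ j :=
    { toFun := fun l => ⟨k l, ⟨l.1, (hk l).symm⟩⟩
      map_one' := by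
        apply Subtype.ext
        apply hj
        change j (k 1) = j 1
        rw [hk, map_one]
        exact map_one (inc N)
      map_mul' := fun a b => by
        apply Subtype.ext
        apply hj
        change j (k (a * b)) = j (k a * k b)
        rw [map_mul, hk, hk, hk]
        exact map_mul (inc N) _ _ }
  refine kazhdan_quot f ?_ (H423.kazhdan_fi (kazhdan_sp hN) (j.range.comap (inc N)))
  rintro ⟨h, ⟨l, hl⟩⟩
  refine ⟨⟨l, ⟨h, hl.symm⟩⟩, ?_⟩
  apply Subtype.ext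
  apply hj
  change j (k _) = j h
  rw [hk]
  exact hl

end Vale.Agent.P092.H367.SpArith
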