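import Vale.Agent.P092.R3.H381.Sub2
import Vale.Agent.P092.R3.H367.SArithSp

/-!
Admissible subgroups: commensurated relatively ICC subgroups, in particular `Γ` itself, and the
integral points of groups of rational matrices.
-/

set_option linter.all false

open scoped Pointwise

namespace Vale.Agent.P092.H367

open Vale.Agent.P092.H381 Vale.Agent.P092.H381.Sg

variable {Γ : Type} [Group Γ]

/-- Relatively ICC passes to subgroups of finite index. -/
theorem ricc_fi {H K : Subgroup Γ} (hR : RICC H) (hfi : K.relIndex H ≠ 0) : RICC K := by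
  intro g hg hfin
  have hFI : (K.subgroupOf H).FiniteIndex := ⟨hfi⟩
  haveI : Finite (H ⧸ K.subgroupOf H) := Subgroup.finite_quotient_of_finiteIndex
  refine hR g hg ?_
  have hU : (⋃ q : H ⧸ K.subgroupOf H,
      (fun y => ((q.out : H) : Γ) * y * ((q.out : H) : Γ)⁻¹) ''
        {y : Γ | ∃ h ∈ K, y = h * g * h⁻¹}).Finite :=
    Set.finite_iUnion fun q => hfin.image _
  refine hU.subset ?_
  rintro y ⟨h, hh, rfl⟩
  rw [Set.mem_iUnion]
  refine ⟨((⟨h, hh⟩ : H) : H ⧸ K.subgroupOf H), ?_⟩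
  obtain ⟨k, hk⟩ := QuotientGroup.mk_out_eq_mul (K.subgroupOf H) (⟨h, hh⟩ : H)
  have hk2 : ((((⟨h, hh⟩ : H) : H ⧸ K.subgroupOf H).out : H) : Γ) = h * ((k : H) : Γ) := by
    rw [hk]; rfl
  have hkK : (((k : H) : Γ))⁻¹ ∈ K := K.inv_mem (Subgroup.mem_subgroupOf.mp k.2)
  refine ⟨((k : H) : Γ)⁻¹ * g * (((k : H) : Γ)⁻¹)⁻¹, ⟨_, hkK, rfl⟩, ?_⟩
  change ((((⟨h, hh⟩ : H) : H ⧸ K.subgroupOf H).out : H) : Γ) * _ *
    ((((⟨h, hh⟩ : H) : H ⧸ K.subgroupOf H).out : H) : Γ)⁻¹ = _
  rw [hk2]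
  group

/-- Commensurated relatively ICC subgroups are admissible for every `t`. -/
theorem adm_of_comm {H : Subgroup Γ} (hR : RICC H) (hc : ∀ g, (conj g H).relIndex H ≠ 0) (t : ℝ) :
    Adm H t := by
  refine Or.inr fun F _ => ricc_fi hR ?_
  unfold inter
  refine Subgroup.relIndex_inf_ne_zero ?_ ?_
  · rw [Subgroup.relIndex_self]; exact one_ne_zero
  · rw [iInf_subtype']
    exact Subgroup.relIndex_iInf_ne_zero fun g => hc _

/-- `Γ` itself is admissible for every `t`, when it is ICC. -/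
theorem adm_top (hG : Mt.ICC Γ) (t : ℝ) : Adm (⊤ : Subgroup Γ) t := by
  refine adm_of_comm (fun g hg => (hG g hg).mono ?_) (fun g => ?_) t
  · rintro y ⟨h, rfl⟩
    exact ⟨h, Subgroup.mem_top _, rfl⟩
  · have : conj g (⊤ : Subgroup Γ) = ⊤ := by
      unfold conj
      rw [← MonoidHom.range_eq_map]
      exact MonoidHom.range_eq_top.mpr (MulAut.conj g).surjective
    rw [this, Subgroup.relIndex_self]
    exact one_ne_zero

/-- From the orbits under all finite intersections of conjugates. -/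
theorem adm_of_set [DecidableEq Γ] {H : Subgroup Γ} (h : ∀ (S : Finset Γ) (x : Γ), x ≠ 1 →
    {y : Γ | ∃ k : Γ, (∀ g ∈ S, g⁻¹ * k * g ∈ H) ∧ y = k * x * k⁻¹}.Infinite) (t : ℝ) :
    Adm H t := by
  refine Or.inr fun F _ x hx => (h (insert 1 F) x hx).mono ?_
  rintro y ⟨k, hk, rfl⟩
  refine ⟨k, mem_inter.mpr ⟨?_, fun g hg => hk g (Finset.mem_insert_of_mem hg)⟩, rfl⟩
  have := hk 1 (Finset.mem_insert_self _ _)
  simpa using this

/-- The integral points of a group of rational matrices. -/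
theorem adm_SL {N : ℕ} (hN : 2 ≤ N) {j : Γ →* Matrix.SpecialLinearGroup (Fin N) ℚ}
    (hj : Function.Injective j) (hfi : (j.range.comap (SArith.inc N)).FiniteIndex)
    (hΓ : ∀ g, (j g : Matrix (Fin N) (Fin N) ℚ) ≠ -1) (t : ℝ) : Adm (SArith.HZ j) t := by
  classical
  exact adm_of_set (SArith.rel_icc j hN hj hfi hΓ) t

/-- The integral points of a group of rational symplectic matrices. -/
theorem adm_Sp {N : ℕ} {j : Γ →* Matrix.symplecticGroup (Fin N) ℚ}
    (hj : Function.Injective j) (hfi : (j.range.comap (SpArith.inc N)).FiniteIndex)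
    (hΓ : ∀ g, (j g : Matrix (Fin N ⊕ Fin N) (Fin N ⊕ Fin N) ℚ) ≠ -1) (t : ℝ) :
    Adm (SpArith.HZ j) t := by
  classical
  exact adm_of_set (SpArith.rel_icc j hj hfi hΓ) t

end Vale.Agent.P092.H367
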