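import Mathlib

/-!
Change of rings for symplectic groups.
-/

set_option linter.all false

open Matrix

namespace Vale.Agent.P092.H367.SpArith

theorem map_J {N : ℕ} {R S : Type} [CommRing R] [CommRing S] (f : R →+* S) :
    (J (Fin N) R).map f = J (Fin N) S := by
  rw [Matrix.J, Matrix.J, Matrix.fromBlocks_map]
  congr 1
  · ext i j; simp
  · ext i j
    by_cases h : i = j
    · subst h; simp
    · simp [Matrix.one_apply_ne h]
  · ext i j
    by_cases h : i = j
    · subst h; simp
    · simp [Matrix.one_apply_ne h]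
  · ext i j; simp

theorem map_mem {N : ℕ} {R S : Type} [CommRing R] [CommRing S] (f : R →+* S)
    {A : Matrix (Fin N ⊕ Fin N) (Fin N ⊕ Fin N) R} (hA : A ∈ symplecticGroup (Fin N) R) :
    A.map f ∈ symplecticGroup (Fin N) S := by
  have h := congrArg (fun M : Matrix (Fin N ⊕ Fin N) (Fin N ⊕ Fin N) R => M.map f)
    (SymplecticGroup.mem_iff.mp hA)
  simp only [Matrix.map_mul, map_J f, ← Matrix.transpose_map] at h
  exact SymplecticGroup.mem_iff.mpr h

end Vale.Agent.P092.H367.SpArith
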