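import Vale.Agent.P092.H160.Rep

/-!
Operators on `ℓ²(I × Λ)` commuting with the right translations, the trace, equivariant operators.
-/

set_option linter.all false

open scoped InnerProductSpace
open Filter Topology ContinuousLinearMap

namespace Vale.Agent.P092.H367

open Vale.Agent.P092.H160

section base

variable {I Λ : Type} [Group Λ]

/-- Right translation on `I × Λ`: `(R s ξ)(i, h) = ξ(i, h s)`. -/
noncomputable def Rr (I : Type) {Λ : Type} [Group Λ] (s : Λ) :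
    Ell2 (I × Λ) →L[ℂ] Ell2 (I × Λ) :=
  rei (Equiv.prodCongr (Equiv.refl I) (Equiv.mulRight s⁻¹))

theorem Rr_apply (s : Λ) (ξ : Ell2 (I × Λ)) (i : I) (h : Λ) :
    Rr I s ξ (i, h) = ξ (i, h * s) := by
  change ξ (i, h * s⁻¹⁻¹) = _
  rw [inv_inv]

theorem Rr_dl (s : Λ) (i : I) (h : Λ) : Rr I s (dl (i, h)) = dl (i, h * s⁻¹) := by
  rw [Rr, rei_dl]; rfl

theorem Rr_mul (s t : Λ) : Rr I (s * t) = Rr I s * Rr I t := by
  apply op_ext
  rintro ⟨i, h⟩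
  rw [mul_ap, Rr_dl, Rr_dl, Rr_dl, mul_inv_rev, mul_assoc]

theorem Rr_one : Rr I (1 : Λ) = 1 := by
  apply op_ext
  rintro ⟨i, h⟩
  rw [Rr_dl, inv_one, mul_one]; rfl

theorem adjoint_Rr (s : Λ) : adjoint (Rr I s) = Rr I s⁻¹ := by
  rw [Rr, adjoint_rei]
  apply op_ext
  rintro ⟨i, h⟩
  rw [Rr_dl, rei_dl]
  simp

/-- The right translations as a homomorphism. -/
noncomputable def RrH (I Λ : Type) [Group Λ] : Λ →* (Ell2 (I × Λ) →L[ℂ] Ell2 (I × Λ)) where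
  toFun := Rr I
  map_one' := Rr_one
  map_mul' := Rr_mul

@[simp] theorem RrH_apply (s : Λ) : RrH I Λ s = Rr I s := rfl

theorem bar_Rr (s : Λ) : bar (Rr I s) = Rr I s := bar_rei _

/-- The diagonal right translations of `(I × Λ)³`. -/
noncomputable def R3H (I Λ : Type) [Group Λ] :
    Λ →* (Ell2 ((I × Λ) × (I × Λ) × (I × Λ)) →L[ℂ] Ell2 ((I × Λ) × (I × Λ) × (I × Λ))) where
  toFun s := tens (Rr I s) (tens (Rr I s) (Rr I s))
  map_one' := by rw [Rr_one, tens_one, tens_one]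
  map_mul' s t := by rw [Rr_mul, tens_mul, tens_mul]

theorem R3H_apply (s : Λ) : R3H I Λ s = tens (Rr I s) (tens (Rr I s) (Rr I s)) := rfl

theorem adjoint_R3 (s : Λ) : adjoint (R3H I Λ s) = R3H I Λ s⁻¹ := by
  rw [R3H_apply, adjoint_tens, adjoint_tens, adjoint_Rr, R3H_apply]

variable {K : Type} [NormedAddCommGroup K] [InnerProductSpace ℂ K] [CompleteSpace K]

/-- Equivariant operators. -/
def Eqv (σ : Λ →* (K →L[ℂ] K)) (T : Ell2 (I × Λ) →L[ℂ] K) : Prop :=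
  ∀ s v, T (Rr I s v) = σ s (T v)

theorem dl_eq_Rr (i : I) (h : Λ) : (dl (i, h) : Ell2 (I × Λ)) = Rr I h⁻¹ (dl (i, 1)) := by
  rw [Rr_dl, inv_inv, one_mul]

theorem Eqv.apply_dl {σ : Λ →* (K →L[ℂ] K)} {T : Ell2 (I × Λ) →L[ℂ] K} (hT : Eqv σ T) (i : I)
    (h : Λ) : T (dl (i, h)) = σ h⁻¹ (T (dl (i, 1))) := by
  rw [dl_eq_Rr, hT]

theorem Eqv.ext {σ : Λ →* (K →L[ℂ] K)} {S T : Ell2 (I × Λ) →L[ℂ] K} (hS : Eqv σ S)
    (hT : Eqv σ T) (h : ∀ i, S (dl (i, 1)) = T (dl (i, 1))) : S = T := by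
  apply op_ext
  rintro ⟨i, x⟩
  rw [hS.apply_dl, hT.apply_dl, h]

theorem Eqv.add {σ : Λ →* (K →L[ℂ] K)} {S T : Ell2 (I × Λ) →L[ℂ] K} (hS : Eqv σ S)
    (hT : Eqv σ T) : Eqv σ (S + T) := fun s v => by
  rw [add_apply, add_apply, hS, hT, map_add]

theorem Eqv.sub {σ : Λ →* (K →L[ℂ] K)} {S T : Ell2 (I × Λ) →L[ℂ] K} (hS : Eqv σ S)
    (hT : Eqv σ T) : Eqv σ (S - T) := fun s v => by
  rw [sub_apply, sub_apply, hS, hT, map_sub]

theorem Eqv.smul {σ : Λ →* (K →L[ℂ] K)} {S : Ell2 (I × Λ) →L[ℂ] K} (c : ℂ) (hS : Eqv σ S) :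
    Eqv σ (c • S) := fun s v => by
  change c • S (Rr I s v) = σ s (c • S v)
  rw [hS, map_smul]

theorem Eqv.zero {σ : Λ →* (K →L[ℂ] K)} : Eqv σ (0 : Ell2 (I × Λ) →L[ℂ] K) := fun s v => by
  simp

theorem Eqv.sum {σ : Λ →* (K →L[ℂ] K)} {J : Type} (F : Finset J)
    {S : J → (Ell2 (I × Λ) →L[ℂ] K)} (hS : ∀ j ∈ F, Eqv σ (S j)) : Eqv σ (∑ j ∈ F, S j) := by
  classical
  induction F using Finset.induction_on with
  | empty => rw [Finset.sum_empty]; exact Eqv.zero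
  | insert a s ha ih =>
    rw [Finset.sum_insert ha]
    exact (hS a (Finset.mem_insert_self _ _)).add
      (ih fun j hj => hS j (Finset.mem_insert_of_mem hj))

theorem Eqv.one : Eqv (RrH I Λ) (1 : Ell2 (I × Λ) →L[ℂ] Ell2 (I × Λ)) := fun _ _ => rfl

/-- `S* T` commutes with the right translations. -/
theorem Eqv.adj_comp {σ : Λ →* (K →L[ℂ] K)} (hσ : ∀ s, adjoint (σ s) = σ s⁻¹)
    {S T : Ell2 (I × Λ) →L[ℂ] K} (hS : Eqv σ S) (hT : Eqv σ T) :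
    Eqv (RrH I Λ) (adjoint S ∘L T) := by
  intro s v
  refine ext_inner_left ℂ fun u => ?_
  rw [RrH_apply]
  change ⟪u, adjoint S (T (Rr I s v))⟫_ℂ = ⟪u, Rr I s (adjoint S (T v))⟫_ℂ
  have e1 : adjoint (Rr I s⁻¹) = Rr I s := by rw [adjoint_Rr, inv_inv]
  have e2 : adjoint (σ s⁻¹) = σ s := by rw [hσ, inv_inv]
  rw [adjoint_inner_right, hT, ← e1, ← e2, adjoint_inner_right, adjoint_inner_right,
    adjoint_inner_right, hS]

theorem Eqv.adjoint {A : Ell2 (I × Λ) →L[ℂ] Ell2 (I × Λ)} (hA : Eqv (RrH I Λ) A) :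
    Eqv (RrH I Λ) (ContinuousLinearMap.adjoint A) := by
  intro s v
  refine ext_inner_left ℂ fun u => ?_
  rw [RrH_apply]
  have e1 : ContinuousLinearMap.adjoint (Rr I s⁻¹) = Rr I s := by rw [adjoint_Rr, inv_inv]
  rw [adjoint_inner_right, ← e1, adjoint_inner_right, adjoint_inner_right,
    adjoint_inner_right A (Rr I s⁻¹ u) v, hA, RrH_apply]

theorem Eqv.comp {σ : Λ →* (K →L[ℂ] K)} {S : Ell2 (I × Λ) →L[ℂ] K} (hS : Eqv σ S)
    {A : Ell2 (I × Λ) →L[ℂ] Ell2 (I × Λ)} (hA : Eqv (RrH I Λ) A) : Eqv σ (S ∘L A) := by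
  intro s v
  rw [comp_apply, comp_apply, hA, RrH_apply, hS]

theorem Eqv.mul {S A : Ell2 (I × Λ) →L[ℂ] Ell2 (I × Λ)} (hS : Eqv (RrH I Λ) S)
    (hA : Eqv (RrH I Λ) A) : Eqv (RrH I Λ) (S * A) := hS.comp hA

/-- Composition on the left with an operator commuting with `σ`. -/
theorem Eqv.left {σ : Λ →* (K →L[ℂ] K)} {K' : Type} [NormedAddCommGroup K']
    [InnerProductSpace ℂ K'] [CompleteSpace K'] {σ' : Λ →* (K' →L[ℂ] K')}
    {S : Ell2 (I × Λ) →L[ℂ] K} (hS : Eqv σ S)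
    {A : K →L[ℂ] K'} (hA : ∀ s v, A (σ s v) = σ' s (A v)) : Eqv σ' (A ∘L S) := by
  intro s v
  rw [comp_apply, comp_apply, hS, hA]

end base

section trace

variable {I Λ : Type} [Fintype I] [Group Λ]

/-- The trace `∑_i ⟨δ_(i,1), A δ_(i,1)⟩`. -/
noncomputable def Tr (A : Ell2 (I × Λ) →L[ℂ] Ell2 (I × Λ)) : ℂ :=
  ∑ i : I, ⟪(dl (i, 1) : Ell2 (I × Λ)), A (dl (i, 1))⟫_ℂ

theorem adjoint_coord {A : Ell2 (I × Λ) →L[ℂ] Ell2 (I × Λ)} (hA : Eqv (RrH I Λ) A) (i j : I)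
    (h : Λ) : (ContinuousLinearMap.adjoint A (dl (j, 1))) (i, h) =
      (starRingEnd ℂ) ((A (dl (i, 1))) (j, h⁻¹)) := by
  rw [← inner_dl, adjoint_inner_right, inner_dl_right, hA.apply_dl, RrH_apply, Rr_apply, one_mul]

theorem trace_comm {A B : Ell2 (I × Λ) →L[ℂ] Ell2 (I × Λ)} (hA : Eqv (RrH I Λ) A)
    (hB : Eqv (RrH I Λ) B) : Tr (A * B) = Tr (B * A) := by
  have key : ∀ {A B : Ell2 (I × Λ) →L[ℂ] Ell2 (I × Λ)}, Eqv (RrH I Λ) A → Eqv (RrH I Λ) B →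
      HasSum (fun h : Λ => ∑ j : I, ∑ i : I, (B (dl (j, 1))) (i, h) * (A (dl (i, 1))) (j, h⁻¹))
        (Tr (A * B)) := by
    intro A B hA hB
    have h1 : ∀ j : I, HasSum (fun h : Λ => ∑ i : I,
        (B (dl (j, 1))) (i, h) * (A (dl (i, 1))) (j, h⁻¹))
        ⟪(dl (j, 1) : Ell2 (I × Λ)), A (B (dl (j, 1)))⟫_ℂ := by
      intro j
      have h2 := hasSum_inner' (ContinuousLinearMap.adjoint A (dl (j, 1))) (B (dl (j, 1)))
      rw [adjoint_inner_left] at h2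
      have h3 := (Equiv.prodComm Λ I).hasSum_iff.mpr h2
      refine h3.prod_fiberwise fun h => ?_
      have h4 : ∀ i : I, ((fun x : I × Λ => (B (dl (j, 1))) x *
          (starRingEnd ℂ) ((ContinuousLinearMap.adjoint A (dl (j, 1))) x)) ∘
          (Equiv.prodComm Λ I)) (h, i) = (B (dl (j, 1))) (i, h) * (A (dl (i, 1))) (j, h⁻¹) := by
        intro i
        change (B (dl (j, 1))) (i, h) *
          (starRingEnd ℂ) ((ContinuousLinearMap.adjoint A (dl (j, 1))) (i, h)) = _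
        rw [adjoint_coord hA, Complex.conj_conj]
      rw [← Finset.sum_congr rfl fun i _ => h4 i]
      exact hasSum_fintype _
    exact hasSum_sum fun j _ => h1 j
  have h1 := key hA hB
  have h2 := key hB hA
  rw [← (Equiv.inv Λ).hasSum_iff] at h2
  refine h1.unique ?_
  convert h2 using 1
  funext h
  rw [Function.comp_apply, Equiv.inv_apply, inv_inv, Finset.sum_comm]
  refine Finset.sum_congr rfl fun i _ => Finset.sum_congr rfl fun j _ => ?_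
  rw [mul_comm]

variable {K : Type} [NormedAddCommGroup K] [InnerProductSpace ℂ K] [CompleteSpace K]

/-- The Hilbert-Schmidt type inner product `∑_i ⟨S δ_(i,1), T δ_(i,1)⟩`. -/
noncomputable def hs (S T : Ell2 (I × Λ) →L[ℂ] K) : ℂ :=
  ∑ i : I, ⟪S (dl (i, 1)), T (dl (i, 1))⟫_ℂ

theorem hs_eq_Tr (S T : Ell2 (I × Λ) →L[ℂ] K) : hs S T = Tr (ContinuousLinearMap.adjoint S ∘L T) := by
  unfold hs Tr
  refine Finset.sum_congr rfl fun i _ => ?_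
  rw [comp_apply, adjoint_inner_right]

/-- Moving an operator of the algebra through the inner product, on the right. -/
theorem hs_comp {σ : Λ →* (K →L[ℂ] K)} (hσ : ∀ s, ContinuousLinearMap.adjoint (σ s) = σ s⁻¹)
    {S T : Ell2 (I × Λ) →L[ℂ] K} (hS : Eqv σ S) (hT : Eqv σ T)
    {A : Ell2 (I × Λ) →L[ℂ] Ell2 (I × Λ)} (hA : Eqv (RrH I Λ) A) :
    hs (S ∘L A) T = hs S (T ∘L ContinuousLinearMap.adjoint A) := by
  have h1 := trace_comm hA.adjoint (hS.adj_comp hσ hT)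
  rw [hs_eq_Tr, hs_eq_Tr, adjoint_comp]
  exact h1

/-- The Hilbert-Schmidt type norm squared. -/
noncomputable def hsn (T : Ell2 (I × Λ) →L[ℂ] K) : ℝ := ∑ i : I, ‖T (dl (i, 1))‖ ^ 2

theorem hs_self (T : Ell2 (I × Λ) →L[ℂ] K) : hs T T = (hsn T : ℂ) := by
  unfold hs hsn
  rw [Complex.ofReal_sum]
  refine Finset.sum_congr rfl fun i _ => ?_
  rw [inner_self_eq_norm_sq_to_K]
  push_cast
  rfl

theorem hsn_nonneg (T : Ell2 (I × Λ) →L[ℂ] K) : 0 ≤ hsn T :=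
  Finset.sum_nonneg fun _ _ => by positivity

theorem hsn_adjoint {A : Ell2 (I × Λ) →L[ℂ] Ell2 (I × Λ)} (hA : Eqv (RrH I Λ) A) :
    hsn (ContinuousLinearMap.adjoint A) = hsn A := by
  have h1 : hs (ContinuousLinearMap.adjoint A) (ContinuousLinearMap.adjoint A) = hs A A := by
    rw [hs_eq_Tr, hs_eq_Tr, adjoint_adjoint]
    exact trace_comm hA hA.adjoint
  rw [hs_self, hs_self] at h1
  exact_mod_cast h1

theorem hsn_eq_zero {σ : Λ →* (K →L[ℂ] K)} {T : Ell2 (I × Λ) →L[ℂ] K} (hT : Eqv σ T)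
    (h : hsn T = 0) : T = 0 := by
  refine hT.ext Eqv.zero fun i => ?_
  have h1 := (Finset.sum_eq_zero_iff_of_nonneg (fun _ _ => by positivity)).mp h i
    (Finset.mem_univ i)
  rw [zero_apply]
  exact norm_eq_zero.mp (pow_eq_zero_iff two_ne_zero |>.mp h1)

end trace

/-! ### Amplified frames -/

section frame

variable {I Λ Γ : Type} [Fintype I] [Group Λ] [Group Γ]

/-- An amplified frame: the unitaries `α(g) = θ(u_g)` of the corner `p (M_I ⊗ L(Λ)) p`, for a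
`*`-isomorphism `θ` from `L(Γ)` onto this corner. -/
structure AFrame (p : Ell2 (I × Λ) →L[ℂ] Ell2 (I × Λ))
    (α : Γ → (Ell2 (I × Λ) →L[ℂ] Ell2 (I × Λ))) : Prop where
  p_adj : adjoint p = p
  p_idem : p * p = p
  p_ne : p ≠ 0
  one : α 1 = p
  mul : ∀ g h, α (g * h) = α g * α h
  adj : ∀ g, adjoint (α g) = α g⁻¹
  eqv : ∀ g, Eqv (RrH I Λ) (α g)
  orth : ∀ g, g ≠ 1 → Tr (α g) = 0
  tot : ∀ A : Ell2 (I × Λ) →L[ℂ] Ell2 (I × Λ), Eqv (RrH I Λ) A → p * A = A → A * p = A →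
    ∀ ε > (0 : ℝ), ∃ (F : Finset Γ) (c : Γ → ℂ), hsn (A - ∑ g ∈ F, c g • α g) ≤ ε

/-- `α(y₁) ⊗ conj α(y₂) ⊗ α(y₃)` -/
noncomputable def A3 (α : Γ → (Ell2 (I × Λ) →L[ℂ] Ell2 (I × Λ))) (y : Γ × Γ × Γ) :
    Ell2 ((I × Λ) × (I × Λ) × (I × Λ)) →L[ℂ] Ell2 ((I × Λ) × (I × Λ) × (I × Λ)) :=
  tens (α y.1) (tens (bar (α y.2.1)) (α y.2.2))

/-- Bounded cubic intertwiners. -/
structure Itw3 (α : Γ → (Ell2 (I × Λ) →L[ℂ] Ell2 (I × Λ)))
    (T : Ell2 (I × Λ) →L[ℂ] Ell2 ((I × Λ) × (I × Λ) × (I × Λ))) : Prop where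
  eqv : Eqv (R3H I Λ) T
  inv : ∀ g, A3 α (g, g, g) ∘L T ∘L α g⁻¹ = T

end frame

end Vale.Agent.P092.H367
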