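import Vale.Agent.P092.R3.H367.Cub
import Vale.Agent.P092.H160.Comm

/-!
Either zero is in the closed convex hull of the cubic operators, or there is a nonzero bounded
intertwiner.
-/

set_option linter.all false

open scoped InnerProductSpace
open Filter Topology ContinuousLinearMap

namespace Vale.Agent.P092.H367

open Vale.Agent.P092.H160

section closed

variable {I Λ : Type} [Fintype I] [Group Λ]

/-- Equivariant contractions. -/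
def Gd (T : Ell2 (I × Λ) →L[ℂ] Ell2 ((I × Λ) × (I × Λ) × (I × Λ))) : Prop :=
  ‖T‖ ≤ 1 ∧ Eqv (R3H I Λ) T

theorem cvx_Gd : Cvx {T : Ell2 (I × Λ) →L[ℂ] Ell2 ((I × Λ) × (I × Λ) × (I × Λ)) | Gd T} := by
  intro T hT S hS x y hx hy hxy
  refine ⟨?_, (hT.2.smul _).add (hS.2.smul _)⟩
  calc ‖(x : ℂ) • T + (y : ℂ) • S‖ ≤ ‖(x : ℂ) • T‖ + ‖(y : ℂ) • S‖ := norm_add_le _ _
    _ = x * ‖T‖ + y * ‖S‖ := by
        rw [norm_smul, norm_smul, Complex.norm_real, Complex.norm_real, Real.norm_of_nonneg hx,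
          Real.norm_of_nonneg hy]
    _ ≤ x * 1 + y * 1 := by gcongr; exacts [hT.1, hS.1]
    _ = 1 := by linarith

theorem closed_vec {ω : Ell2 (I × ((I × Λ) × (I × Λ) × (I × Λ)))}
    (h : ω ∈ closure (vec '' {T : Ell2 (I × Λ) →L[ℂ] Ell2 ((I × Λ) × (I × Λ) × (I × Λ)) | Gd T})) :
    ∃ T : Ell2 (I × Λ) →L[ℂ] Ell2 ((I × Λ) × (I × Λ) × (I × Λ)), Gd T ∧ vec T = ω := by
  rw [mem_closure_iff_seq_limit] at h
  obtain ⟨x, hx, hlim⟩ := h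
  choose T hT hTx using hx
  have hTs : ∀ (a : I × Λ) n, T n (dl a) = R3H I Λ a.2⁻¹ (sl (x n) a.1) := by
    rintro ⟨i, a⟩ n
    rw [(hT n).2.apply_dl, ← hTx, sl_vec]
  have hlims : ∀ a : I × Λ, Tendsto (fun n => T n (dl a)) atTop
      (𝓝 (R3H I Λ a.2⁻¹ (sl ω a.1))) := by
    intro a
    simp only [hTs]
    have h1 : Tendsto (fun n => sl (x n) a.1) atTop (𝓝 (sl ω a.1)) :=
      ((slL ((I × Λ) × (I × Λ) × (I × Λ)) a.1).continuous.tendsto ω).comp hlim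
    exact ((R3H I Λ a.2⁻¹).continuous.tendsto _).comp h1
  have hb : Bes 1 (fun a : I × Λ => R3H I Λ a.2⁻¹ (sl ω a.1)) := by
    intro s v
    have h1 : Tendsto (fun n => ∑ t ∈ s, ‖⟪T n (dl t), v⟫_ℂ‖ ^ 2) atTop
        (𝓝 (∑ t ∈ s, ‖⟪R3H I Λ t.2⁻¹ (sl ω t.1), v⟫_ℂ‖ ^ 2)) :=
      tendsto_finsetSum s fun t _ => (((hlims t).inner tendsto_const_nhds).norm).pow 2
    refine le_of_tendsto h1 (Eventually.of_forall fun n => ?_)
    exact ((bes_of_op (T n)).mono (norm_nonneg _) (hT n).1) s v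
  have hdl : ∀ a : I × Λ, opOf hb (dl a) = R3H I Λ a.2⁻¹ (sl ω a.1) := fun a => opOf_dl hb a
  refine ⟨opOf hb, ⟨?_, fun s v => ?_⟩, ?_⟩
  · simpa using norm_opOf_le hb
  · have h1 : opOf hb ∘L Rr I s = R3H I Λ s ∘L opOf hb := by
      apply op_ext
      rintro ⟨i, a⟩
      rw [comp_apply, comp_apply, Rr_dl, hdl, hdl, mul_inv_rev, inv_inv, map_mul]
      rfl
    exact congrArg (fun L : Ell2 (I × Λ) →L[ℂ] _ => L v) h1
  · apply ext_inner_dl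
    rintro ⟨i, y⟩
    have h1 : sl (vec (opOf hb)) i = sl ω i := by
      rw [sl_vec, hdl, inv_one, map_one]; rfl
    exact congrArg (fun u : Ell2 ((I × Λ) × (I × Λ) × (I × Λ)) => u y) h1

end closed

section exist

variable {I Λ Γ : Type} [Fintype I] [Group Λ] [Group Γ]
  {p : Ell2 (I × Λ) →L[ℂ] Ell2 (I × Λ)} {α : Γ → (Ell2 (I × Λ) →L[ℂ] Ell2 (I × Λ))}

theorem vec_inj {S T : Ell2 (I × Λ) →L[ℂ] Ell2 ((I × Λ) × (I × Λ) × (I × Λ))}
    (hS : Eqv (R3H I Λ) S) (hT : Eqv (R3H I Λ) T) (h : vec S = vec T) : S = T :=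
  hS.ext hT fun i => by rw [← sl_vec, ← sl_vec, h]

/-- The closed convex set. -/
def KK (α : Γ → (Ell2 (I × Λ) →L[ℂ] Ell2 (I × Λ))) :
    Set (Ell2 (I × ((I × Λ) × (I × Λ) × (I × Λ)))) :=
  closure (vec '' hull (Set.range (Tg α)))

variable (hα : AFrame p α)

include hα

theorem Gd_D0 : Gd (D0 (I × Λ)) := by
  refine ⟨opNorm_le_bound _ zero_le_one fun v => by rw [norm_D0, one_mul], eqv_D0⟩

theorem hull_Gd : hull (Set.range (Tg α)) ⊆ {T | Gd T} := by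
  refine hull_subset cvx_Gd ?_
  rintro _ ⟨g, rfl⟩
  exact ⟨cg_le hα g (Gd_D0 hα).1, cg_eqv hα g (Gd_D0 hα).2⟩

theorem cg_hull (g : Γ) {S : Ell2 (I × Λ) →L[ℂ] Ell2 ((I × Λ) × (I × Λ) × (I × Λ))}
    (hS : S ∈ hull (Set.range (Tg α))) : cg α g S ∈ hull (Set.range (Tg α)) := by
  have hcv : Cvx {R : Ell2 (I × Λ) →L[ℂ] Ell2 ((I × Λ) × (I × Λ) × (I × Λ)) |
      cg α g R ∈ hull (Set.range (Tg α))} := by
    intro R hR R' hR' a b ha hb hab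
    have h1 := cvx_hull _ _ hR _ hR' a b ha hb hab
    change cg α g ((a : ℂ) • R + (b : ℂ) • R') ∈ hull (Set.range (Tg α))
    rw [cg_lc]
    exact h1
  refine hull_subset hcv ?_ hS
  rintro _ ⟨h, rfl⟩
  change cg α g (Tg α h) ∈ hull (Set.range (Tg α))
  rw [cg_Tg hα]
  exact subset_hull _ ⟨_, rfl⟩

theorem cg_KK (g : Γ) {T : Ell2 (I × Λ) →L[ℂ] Ell2 ((I × Λ) × (I × Λ) × (I × Λ))}
    (hT : Eqv (R3H I Λ) T) (h : vec T ∈ KK α) : vec (cg α g T) ∈ KK α := by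
  unfold KK at h ⊢
  rw [Metric.mem_closure_iff] at h ⊢
  intro ε hε
  obtain ⟨_, ⟨S, hS, rfl⟩, hd⟩ := h ε hε
  refine ⟨vec (cg α g S), ⟨_, cg_hull hα g hS, rfl⟩, ?_⟩
  have hSe : Eqv (R3H I Λ) S := (hull_Gd hα hS).2
  rw [dist_eq_norm, ← map_sub, ← cg_sub]
  rw [dist_eq_norm, ← map_sub] at hd
  refine lt_of_le_of_lt ?_ hd
  refine (pow_le_pow_iff_left₀ (norm_nonneg _) (norm_nonneg _) two_ne_zero).mp ?_
  rw [norm_vec, norm_vec]
  exact hsn_cg_le hα g (hT.sub hSe)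

/-- Either zero is in the closed convex hull, or there is a nonzero intertwiner. -/
theorem itw_or_zero : (∃ T : Ell2 (I × Λ) →L[ℂ] Ell2 ((I × Λ) × (I × Λ) × (I × Λ)),
    Itw3 α T ∧ T ≠ 0) ∨ (0 : Ell2 (I × ((I × Λ) × (I × Λ) × (I × Λ)))) ∈ KK α := by
  have hKc : Cvx (KK α) := ((cvx_hull _).image vec).closure
  have hne : (KK α).Nonempty :=
    ⟨vec (Tg α 1), subset_closure ⟨_, subset_hull _ ⟨1, rfl⟩, rfl⟩⟩
  obtain ⟨ω, hω, hmin, huniq⟩ := min_norm_ell2 hne isClosed_closure hKc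
  by_cases h0 : ω = 0
  · right; rw [← h0]; exact hω
  · left
    have h1 : ω ∈ closure (vec ''
        {T : Ell2 (I × Λ) →L[ℂ] Ell2 ((I × Λ) × (I × Λ) × (I × Λ)) | Gd T}) :=
      closure_mono (Set.image_mono (hull_Gd hα)) hω
    obtain ⟨T, hT, hTω⟩ := closed_vec h1
    refine ⟨T, ⟨hT.2, fun g => ?_⟩, fun h => h0 ?_⟩
    · have h2 : vec (cg α g T) = ω := by
        refine huniq _ (cg_KK hα g hT.2 (by rw [hTω]; exact hω)) ?_
        refine (pow_le_pow_iff_left₀ (norm_nonneg _) (norm_nonneg _) two_ne_zero).mp ?_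
        rw [← hTω, norm_vec, norm_vec]
        exact hsn_cg_le hα g hT.2
      exact vec_inj (cg_eqv hα g hT.2) hT.2 (h2.trans hTω.symm)
    · rw [← hTω, h, map_zero]

/-- The Gram matrix of the vectors `vec T_g`. -/
theorem gram (g h k : Γ) :
    ⟪vec (Tg α (g * h)), vec (Tg α (g * k))⟫_ℂ = ⟪vec (Tg α h), vec (Tg α k)⟫_ℂ := by
  have hE : ∀ h, Eqv (R3H I Λ) (Tg α h) := fun h => cg_eqv hα h (Gd_D0 hα).2
  rw [inner_vec, inner_vec, ← cg_Tg hα, ← cg_Tg hα]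
  have e1 : cg α g (Tg α h) = (A3 α (g, g, g) ∘L Tg α h) ∘L α g⁻¹ := rfl
  have hE2 : ∀ h, Eqv (R3H I Λ) (A3 α (g, g, g) ∘L Tg α h) := fun h =>
    (hE h).left fun s v => hα.A3_R3 _ s v
  rw [e1, hs_comp adjoint_R3 (hE2 h) (cg_eqv hα g (hE k)) (hα.eqv _), hα.adj, inv_inv]
  unfold hs
  refine Finset.sum_congr rfl fun i _ => ?_
  change ⟪A3 α (g, g, g) (Tg α h (dl (i, 1))),
    A3 α (g, g, g) (Tg α k (α g⁻¹ (α g (dl (i, 1)))))⟫_ℂ = _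
  rw [← adjoint_inner_right, hα.A3_adj, ← mul_ap (A3 α _) (A3 α _), hα.A3_mul, inv_mul_cancel,
    ← mul_ap (α g⁻¹), hα.inv_mul_self]
  congr 1
  change A3 α 1 (A3 α (k, k, k) (D0 (I × Λ) (α k⁻¹ (p (dl (i, 1)))))) =
    A3 α (k, k, k) (D0 (I × Λ) (α k⁻¹ (dl (i, 1))))
  rw [← mul_ap (A3 α 1), hα.A3_mul, one_mul, ← mul_ap (α k⁻¹) p, hα.mul_p]

end exist

end Vale.Agent.P092.H367
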