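import Vale.Agent.P092.R3.H367.Gns
import Vale.Agent.P092.R3.H367.Cub2
import Vale.Agent.P092.H885.Decay

/-!
Decay of the averages of the fourth power sums of an amplified frame, if zero is in the closed
convex hull of the cubic operators.
-/

set_option linter.all false

open scoped InnerProductSpace
open Filter Topology ContinuousLinearMap

namespace Vale.Agent.P092.H367

open Vale.Agent.P092.H160 Vale.Agent.P092.H885

theorem inner_bd {H : Type} [NormedAddCommGroup H] [InnerProductSpace ℂ H] (x y : H) :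
    ‖⟪x, y⟫_ℂ‖ ≤ ‖x‖ * ‖y‖ := norm_inner_le_norm x y

theorem inner_cs {H : Type} [NormedAddCommGroup H] [InnerProductSpace ℂ H] (x y : H) :
    (⟪x, y⟫_ℂ).re = (⟪y, x⟫_ℂ).re := by
  rw [← inner_conj_symm, Complex.conj_re]

section decay

variable {Γ : Type} [Group Γ] {H : Type} [NormedAddCommGroup H] [InnerProductSpace ℂ H]
  {v : Γ → H} (hv : ∀ g h k : Γ, ⟪v (g * h), v (g * k)⟫_ℂ = ⟪v h, v k⟫_ℂ)
  (hz : ∀ ε > (0 : ℝ), ∃ c : Γ →₀ ℂ, (c.sum fun _ a => a) = 1 ∧ ‖LC v c‖ ≤ ε)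

theorem coeff_vc (g : Γ) : ⟪vc v 1, piC hv g (vc v 1)⟫_ℂ = ⟪v 1, v g⟫_ℂ := by
  have h1 : piC hv g (vc v 1) = vc v (g * 1) := UC_vc hv g 1
  rw [h1, mul_one, inner_vc]

theorem norm_vc (g : Γ) : ‖vc v g‖ = ‖v g‖ := by
  unfold vc
  rw [UniformSpace.Completion.norm_coe]
  rfl

include hv hz

theorem vc_orth : vc v 1 ∈ (invSub (piC hv))ᗮ :=
  (Submodule.mem_orthogonal _ _).mpr fun η hη => orth_inv hv hz hη

theorem kaz_decay {Q : Finset Γ} {ε : ℝ} (hK : IsKazhdanPair Γ Q ε) (a b : Γ) (k : ℕ) :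
    (avg Q)^[k] (fun g => (⟪v 1, v (a * g * b)⟫_ℂ).re) 1 ≤
      ‖v 1‖ ^ 2 * (1 - ε ^ 2 / (4 * Q.card)) ^ k := by
  have hπ := piC_adj hv
  have hmem := vc_orth hv hz
  obtain ⟨s, hs, -⟩ := kazhdan_moves hπ hK hmem
  have hQ : Q.Nonempty := ⟨s, hs⟩
  have h1 : (fun g => (⟪v 1, v (a * g * b)⟫_ℂ).re) =
      fun g => (⟪vc v 1, piC hv (a * g * b) (vc v 1)⟫_ℂ).re := by
    funext g
    rw [coeff_vc]
  rw [h1, avg_translate hπ]
  have h2 := gap_norm hπ hK.1.le hQ (invSub (piC hv))ᗮ (fun g w hw => orth_map hπ g hw)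
    (fun w hw => kazhdan_moves hπ hK hw) (orth_map hπ b hmem) k
  rw [H885.u_norm hπ, norm_vc] at h2
  calc _ ≤ ‖⟪piC hv a⁻¹ (vc v 1), (av (piC hv) Q)^[k] (piC hv b (vc v 1))⟫_ℂ‖ :=
        Complex.re_le_norm _
    _ ≤ ‖piC hv a⁻¹ (vc v 1)‖ * ‖(av (piC hv) Q)^[k] (piC hv b (vc v 1))‖ :=
        inner_bd (H := HC v) _ _
    _ ≤ ‖v 1‖ * ((1 - ε ^ 2 / (4 * Q.card)) ^ k * ‖v 1‖) := by
        rw [H885.u_norm hπ, norm_vc]
        gcongr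
    _ = _ := by ring

theorem kaz_one {Q : Finset Γ} {ε : ℝ} (hK : IsKazhdanPair Γ Q ε) :
    ∃ s ∈ Q, (⟪v 1, v s⟫_ℂ).re ≤ ‖v 1‖ ^ 2 * (1 - ε ^ 2 / 2) := by
  have hπ := piC_adj hv
  obtain ⟨s, hs, h2⟩ := kazhdan_moves hπ hK (vc_orth hv hz)
  refine ⟨s, hs, ?_⟩
  have h3 := norm_sub_sq (𝕜 := ℂ) (piC hv s (vc v 1)) (vc v 1)
  rw [H885.u_norm hπ, norm_vc] at h3
  have h4 : (⟪piC hv s (vc v 1), vc v 1⟫_ℂ).re = (⟪v 1, v s⟫_ℂ).re := by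
    have h7 : (⟪piC hv s (vc v 1), vc v 1⟫_ℂ).re = (⟪vc v 1, piC hv s (vc v 1)⟫_ℂ).re :=
      inner_cs (H := HC v) _ _
    rw [h7, coeff_vc]
  have h5 : ‖piC hv s (vc v 1) - vc v 1‖ ^ 2 =
      ‖v 1‖ ^ 2 - 2 * (⟪piC hv s (vc v 1), vc v 1⟫_ℂ).re + ‖v 1‖ ^ 2 := h3
  rw [norm_vc] at h2
  have h6 : (ε * ‖v 1‖) ^ 2 ≤ ‖piC hv s (vc v 1) - vc v 1‖ ^ 2 :=
    pow_le_pow_left₀ (by have := hK.1; positivity) h2 2
  rw [h5, h4] at h6
  nlinarith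

theorem soft_decay' {Q : Finset Γ} (hQ : Q.Nonempty)
    (hgen : Subgroup.closure (Q : Set Γ) = ⊤) (a b : Γ) :
    Tendsto (fun k : ℕ => (avg Q)^[k] (fun g => (⟪v 1, v (a * g * b)⟫_ℂ).re) 1) atTop (𝓝 0) := by
  have hπ := piC_adj hv
  have h1 : (fun g => (⟪v 1, v (a * g * b)⟫_ℂ).re) =
      fun g => (⟪vc v 1, piC hv (a * g * b) (vc v 1)⟫_ℂ).re := by
    funext g
    rw [coeff_vc]
  rw [h1]
  exact soft_coeff hπ hQ hgen (fun η hη => orth_inv hv hz hη) a b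

end decay

section fourth

variable {I Λ Γ : Type} [Fintype I] [Group Λ] [Group Γ]
  {p : Ell2 (I × Λ) →L[ℂ] Ell2 (I × Λ)} {α : Γ → (Ell2 (I × Λ) →L[ℂ] Ell2 (I × Λ))}

/-- The sum of the fourth powers of the coefficients. -/
noncomputable def f4 (A : Ell2 (I × Λ) →L[ℂ] Ell2 (I × Λ)) : ℝ :=
  ∑ i : I, ∑' y : I × Λ, ‖A (dl (i, 1)) y‖ ^ 4

theorem summable_four {X : Type} (a : Ell2 X) : Summable fun x => ‖a x‖ ^ 4 := by
  refine Summable.of_nonneg_of_le (fun _ => by positivity) (fun x => ?_)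
    ((summable_sq a).mul_left (‖a‖ ^ 2))
  have h := norm_coord_le a x
  calc ‖a x‖ ^ 4 = ‖a x‖ ^ 2 * ‖a x‖ ^ 2 := by ring
    _ ≤ ‖a‖ ^ 2 * ‖a x‖ ^ 2 := by gcongr

theorem hs_D0_Tg (hα : AFrame p α) (g : Γ) : hs (D0 (I × Λ)) (Tg α g) = (f4 (α g⁻¹) : ℂ) := by
  unfold hs f4
  rw [Complex.ofReal_sum]
  refine Finset.sum_congr rfl fun i _ => ?_
  rw [D0_dl]
  change ⟪dl ((i, 1), (i, 1), (i, 1)), A3 α (g, g, g) (D0 (I × Λ) (α g⁻¹ (dl (i, 1))))⟫_ℂ = _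
  rw [← adjoint_inner_left, hα.A3_adj, ← adjoint_inner_left, inner_eq, Complex.ofReal_tsum]
  congr 1
  funext y
  have e1 : A3 α (g, g, g)⁻¹ (dl ((i, (1 : Λ)), (i, (1 : Λ)), (i, (1 : Λ)))) =
      tv (α g⁻¹ (dl (i, 1))) (tv (cj (α g⁻¹ (dl (i, 1)))) (α g⁻¹ (dl (i, 1)))) := by
    change tens (α g⁻¹) (tens (bar (α g⁻¹)) (α g⁻¹)) _ = _
    rw [tens_dl, tens_dl, bar_dl]
  rw [D0_adj_apply, e1, tv_apply, tv_apply, cj_apply, map_mul, map_mul, Complex.conj_conj]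
  set z := (α g⁻¹ (dl (i, 1))) y
  have e2 : z * ((starRingEnd ℂ) z * (z * (starRingEnd ℂ) z)) =
      (z * (starRingEnd ℂ) z) * (z * (starRingEnd ℂ) z) := by ring
  rw [e2, Complex.mul_conj, Complex.normSq_eq_norm_sq]
  push_cast
  ring

theorem f4_adj (hα : AFrame p α) (g : Γ) : f4 (α g⁻¹) = f4 (α g) := by
  have key : ∀ A : Ell2 (I × Λ) →L[ℂ] Ell2 (I × Λ), HasSum (fun h : Λ => ∑ i : I, ∑ j : I,
      ‖A (dl (i, 1)) (j, h)‖ ^ 4) (f4 A) := by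
    intro A
    refine hasSum_sum fun i _ => ?_
    have h2 := (summable_four (A (dl (i, 1)))).hasSum
    have h3 := (Equiv.prodComm Λ I).hasSum_iff.mpr h2
    refine h3.prod_fiberwise fun h => ?_
    exact hasSum_fintype _
  have h1 := key (α g⁻¹)
  have h2 := key (α g)
  rw [← (Equiv.inv Λ).hasSum_iff] at h2
  refine h1.unique ?_
  convert h2 using 1
  funext h
  rw [Function.comp_apply, Equiv.inv_apply, Finset.sum_comm]
  refine Finset.sum_congr rfl fun i _ => Finset.sum_congr rfl fun j _ => ?_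
  rw [← hα.adj, adjoint_coord (hα.eqv g), RCLike.norm_conj]

/-- The Gram coefficients are the fourth power sums. -/
theorem coeff_f4 (hα : AFrame p α) (g : Γ) :
    ⟪vec (Tg α 1), vec (Tg α g)⟫_ℂ = (f4 (α g) : ℂ) := by
  rw [inner_vec, ← f4_adj hα, ← hs_D0_Tg hα]
  have e1 : Tg α 1 = (A3 α 1 ∘L D0 (I × Λ)) ∘L p := by
    unfold Tg
    rw [inv_one, hα.one]
    rfl
  have hE : Eqv (R3H I Λ) (A3 α 1 ∘L D0 (I × Λ)) :=
    eqv_D0.left fun s v => hα.A3_R3 _ s v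
  have hT : Eqv (R3H I Λ) (Tg α g) := cg_eqv hα g eqv_D0
  rw [e1, hs_comp adjoint_R3 hE hT hα.eqv_p, hα.p_adj]
  unfold hs
  refine Finset.sum_congr rfl fun i _ => ?_
  change ⟪A3 α 1 (D0 (I × Λ) (dl (i, 1))),
    A3 α (g, g, g) (D0 (I × Λ) (α g⁻¹ (p (dl (i, 1)))))⟫_ℂ =
    ⟪D0 (I × Λ) (dl (i, 1)), A3 α (g, g, g) (D0 (I × Λ) (α g⁻¹ (dl (i, 1))))⟫_ℂ
  rw [← adjoint_inner_right, hα.A3_adj, inv_one, ← mul_ap (A3 α 1), hα.A3_mul, one_mul,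
    ← mul_ap (α g⁻¹) p, hα.mul_p]

theorem norm_Tg_one (hα : AFrame p α) : ‖vec (Tg α 1)‖ ^ 2 = f4 p := by
  have h1 := coeff_f4 hα 1
  rw [inner_self_eq_norm_sq_to_K, hα.one] at h1
  have h2 : ((‖vec (Tg α 1)‖ ^ 2 : ℝ) : ℂ) = (f4 p : ℂ) := by rw [← h1]; push_cast; rfl
  exact Complex.ofReal_injective h2

theorem sum_lin (c : Γ →₀ ℂ) :
    (c.sum fun _ a => a) = Finsupp.linearCombination ℂ (fun _ : Γ => (1 : ℂ)) c := by
  rw [Finsupp.linearCombination_apply]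
  refine Finsupp.sum_congr fun g _ => ?_
  rw [smul_eq_mul, mul_one]

theorem hull_vec {S : Ell2 (I × Λ) →L[ℂ] Ell2 ((I × Λ) × (I × Λ) × (I × Λ))}
    (hS : S ∈ hull (Set.range (Tg α))) :
    ∃ c : Γ →₀ ℂ, (c.sum fun _ a => a) = 1 ∧ LC (fun g => vec (Tg α g)) c = vec S := by
  have hcv : Cvx {S : Ell2 (I × Λ) →L[ℂ] Ell2 ((I × Λ) × (I × Λ) × (I × Λ)) |
      ∃ c : Γ →₀ ℂ, (c.sum fun _ a => a) = 1 ∧ LC (fun g => vec (Tg α g)) c = vec S} := by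
    rintro S ⟨c, hc, hc'⟩ T ⟨d, hd, hd'⟩ a b ha hb hab
    refine ⟨(a : ℂ) • c + (b : ℂ) • d, ?_, ?_⟩
    · rw [sum_lin] at hc hd ⊢
      rw [map_add, map_smul, map_smul, hc, hd, smul_eq_mul, smul_eq_mul, mul_one, mul_one,
        ← Complex.ofReal_add, hab, Complex.ofReal_one]
    · rw [map_add, map_smul, map_smul, hc', hd']
      exact (by rw [map_add, map_smul, map_smul] :
        vec ((a : ℂ) • S + (b : ℂ) • T) = (a : ℂ) • vec S + (b : ℂ) • vec T).symm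
  refine hull_subset hcv ?_ hS
  rintro _ ⟨g, rfl⟩
  refine ⟨Finsupp.single g 1, ?_, LC_single _ g⟩
  rw [Finsupp.sum_single_index rfl]

/-- zero in the closed convex hull gives small combinations -/
theorem small_of_zero (h0 : (0 : Ell2 (I × ((I × Λ) × (I × Λ) × (I × Λ)))) ∈ KK α) :
    ∀ ε > (0 : ℝ), ∃ c : Γ →₀ ℂ, (c.sum fun _ a => a) = 1 ∧
      ‖LC (fun g => vec (Tg α g)) c‖ ≤ ε := by
  intro ε hε
  obtain ⟨_, ⟨S, hS, rfl⟩, hd⟩ := Metric.mem_closure_iff.mp h0 ε hε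
  rw [dist_zero_left] at hd
  obtain ⟨c, hc, hcS⟩ := hull_vec hS
  exact ⟨c, hc, by rw [hcS]; exact hd.le⟩

/-- Decay, if there is no nonzero intertwiner. -/
theorem decay_of_no_itw (hα : AFrame p α) (hno : ∀ T, Itw3 α T → T = 0) :
    (∀ (Q : Finset Γ) (ε : ℝ), IsKazhdanPair Γ Q ε →
      (∃ s ∈ Q, f4 (α s) ≤ f4 p * (1 - ε ^ 2 / 2)) ∧
      ∀ (a b : Γ) (k : ℕ), (avg Q)^[k] (fun g => f4 (α (a * g * b))) 1 ≤
        f4 p * (1 - ε ^ 2 / (4 * Q.card)) ^ k) ∧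
    (∀ Q : Finset Γ, Q.Nonempty → Subgroup.closure (Q : Set Γ) = ⊤ → ∀ a b : Γ,
      Tendsto (fun k : ℕ => (avg Q)^[k] (fun g => f4 (α (a * g * b))) 1) atTop (𝓝 0)) := by
  have h0 := (itw_or_zero hα).resolve_left (by
    rintro ⟨T, hT, hne⟩
    exact hne (hno T hT))
  have hz := small_of_zero h0
  have hv : ∀ g h k : Γ, ⟪vec (Tg α (g * h)), vec (Tg α (g * k))⟫_ℂ =
      ⟪vec (Tg α h), vec (Tg α k)⟫_ℂ := gram hα
  have h1 : ∀ g, f4 (α g) = (⟪vec (Tg α 1), vec (Tg α g)⟫_ℂ).re := fun g => by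
    rw [coeff_f4 hα, Complex.ofReal_re]
  simp only [h1, ← norm_Tg_one hα]
  refine ⟨fun Q ε hK => ⟨?_, fun a b k => ?_⟩, fun Q hQ hgen a b => ?_⟩
  · exact kaz_one (v := fun g => vec (Tg α g)) hv hz hK
  · exact kaz_decay (v := fun g => vec (Tg α g)) hv hz hK a b k
  · exact soft_decay' (v := fun g => vec (Tg α g)) hv hz hQ hgen a b

end fourth

end Vale.Agent.P092.H367
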