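import Vale.Agent.P092.R3.H367.StAmp
import Vale.Agent.P092.R3.H367.Kaz
import Vale.Agent.P092.R3.H381.Corner2
import Vale.Agent.P092.H160.Bridge

/-!
From the elementary form of a `*`-isomorphism from `L(Γ)` onto a corner of `M_{n+1}(L(Λ))` to an
amplified frame.
-/

set_option linter.all false

open scoped InnerProductSpace
open Filter Topology ContinuousLinearMap

namespace Vale.Agent.P092.H367

open Vale.Agent.P092.H160

section bridge

variable {Γ Λ : Type} [Group Γ] [Group Λ] {n : ℕ} {p : St.Op (Fin (n + 1) × Λ)}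

theorem isSmul_iff' {X : Type} (c : ℂ) (S T : H160.St.Op X) :
    H160.St.IsSmul c S T ↔ T = c • S := by
  constructor
  · intro h
    ext1 ξ
    exact h ξ
  · rintro rfl ξ
    rfl

theorem isAdj_iff' {X : Type} (S T : H160.St.Op X) : H160.St.IsAdj S T ↔ T = adjoint S := by
  constructor
  · intro h
    rw [eq_comm]
    have h2 := (ContinuousLinearMap.eq_adjoint_iff S T).mpr h
    rw [h2, adjoint_adjoint]
  · rintro rfl ξ η
    change ⟪S ξ, η⟫_ℂ = ⟪ξ, adjoint S η⟫_ℂ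
    rw [adjoint_inner_right]

theorem row_dl (j : Fin (n + 1)) (h : Λ) : (St.row j : Ell2 Λ →L[ℂ] _) (dl h) = dl (j, h) := by
  rw [St.row, tvr_apply, ← dl_prod]

theorem row_rho (j : Fin (n + 1)) (s : Λ) (v : Ell2 Λ) :
    (St.row j : Ell2 Λ →L[ℂ] _) (rho s v) = Rr (Fin (n + 1)) s (St.row j v) := by
  have h : (St.row j : Ell2 Λ →L[ℂ] Ell2 (Fin (n + 1) × Λ)) ∘L rho s =
      Rr (Fin (n + 1)) s ∘L St.row j := by
    apply op_ext
    intro h
    rw [comp_apply, comp_apply, row_dl, Rr_dl, rho, rei_dl, row_dl]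
    rfl
  exact DFunLike.congr_fun h v

theorem adj_row_apply (i : Fin (n + 1)) (v : Ell2 (Fin (n + 1) × Λ)) (h : Λ) :
    (adjoint (St.row i : Ell2 Λ →L[ℂ] _) v) h = v (i, h) := by
  rw [← inner_dl, adjoint_inner_right, row_dl, inner_dl]

theorem adj_row_Rr (i : Fin (n + 1)) (s : Λ) (v : Ell2 (Fin (n + 1) × Λ)) :
    adjoint (St.row i : Ell2 Λ →L[ℂ] _) (Rr (Fin (n + 1)) s v) =
      rho s (adjoint (St.row i : Ell2 Λ →L[ℂ] _) v) := by
  apply ext_inner_dl
  intro h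
  rw [adj_row_apply, Rr_apply]
  have h2 : rho s (adjoint (St.row i : Ell2 Λ →L[ℂ] _) v) h =
      (adjoint (St.row i : Ell2 Λ →L[ℂ] _) v) (h * s⁻¹⁻¹) := rfl
  rw [h2, adj_row_apply, inv_inv]

theorem ent_apply (T : St.Op (Fin (n + 1) × Λ)) (i j : Fin (n + 1)) (ξ : Ell2 Λ) (h : Λ) :
    (St.ent T i j ξ) h = (T (St.row j ξ)) (i, h) := by
  change (adjoint (St.row i : Ell2 Λ →L[ℂ] _) (T (St.row j ξ))) h = _
  rw [adj_row_apply]

theorem ent_dl (T : St.Op (Fin (n + 1) × Λ)) (i j : Fin (n + 1)) (k h : Λ) :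
    (St.ent T i j (dl k)) h = (T (dl (j, k))) (i, h) := by
  rw [ent_apply, row_dl]

/-- **all entries are in `L(Λ)` iff the operator commutes with the right translations** -/
theorem inM_iff (T : St.Op (Fin (n + 1) × Λ)) :
    St.InM T ↔ Eqv (RrH (Fin (n + 1)) Λ) T := by
  constructor
  · intro h s v
    rw [RrH_apply]
    have key : T ∘L Rr (Fin (n + 1)) s = Rr (Fin (n + 1)) s ∘L T := by
      apply op_ext
      rintro ⟨j, k⟩
      rw [comp_apply, comp_apply, Rr_dl]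
      apply ext_inner_dl
      rintro ⟨i, x⟩
      rw [Rr_apply]
      have h1 : Cmm rhoH (St.ent T i j) := mem_LG_iff.mp ((inL_iff _).mp (h i j))
      have h2 : St.ent T i j (rho s (dl k)) = rho s (St.ent T i j (dl k)) :=
        DFunLike.congr_fun (h1 s) (dl k)
      have h3 : rho s (dl k) = (dl (k * s⁻¹) : Ell2 Λ) := by rw [rho, rei_dl]; rfl
      rw [h3] at h2
      have h4 := congrArg (fun w : Ell2 Λ => w x) h2
      have h5 : (rho s (St.ent T i j (dl k))) x = (St.ent T i j (dl k)) (x * s⁻¹⁻¹) := rfl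
      change (St.ent T i j (dl (k * s⁻¹))) x = (rho s (St.ent T i j (dl k))) x at h4
      rw [h5, inv_inv, ent_dl, ent_dl] at h4
      exact h4
    exact DFunLike.congr_fun key v
  · intro h i j
    rw [inL_iff, mem_LG_iff]
    intro s
    apply ContinuousLinearMap.ext
    intro v
    change adjoint (St.row i : Ell2 Λ →L[ℂ] _) (T (St.row j (rho s v))) =
      rho s (adjoint (St.row i : Ell2 Λ →L[ℂ] _) (T (St.row j v)))
    rw [row_rho, h, RrH_apply, adj_row_Rr]

theorem inC_iff (T : St.Op (Fin (n + 1) × Λ)) : St.InC p T ↔ InC p T := by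
  unfold St.InC InC
  rw [inM_iff]
  rfl

/-- The data of `CIso`. -/
noncomputable def toC (θ : St.AmpIso Γ Λ n p) : CIso Γ p where
  toFun := θ.toFun
  invFun := θ.invFun
  map_mem T hT := (inC_iff _).mp (θ.map_mem T ((inL_iff _).mpr hT))
  inv_mem S hS := (inL_iff _).mp (θ.inv_mem S ((inC_iff _).mpr hS))
  left_inv T hT := θ.left_inv T ((inL_iff _).mpr hT)
  right_inv S hS := θ.right_inv S ((inC_iff _).mpr hS)
  map_add S hS T hT := θ.map_add S T ((inL_iff _).mpr hS) ((inL_iff _).mpr hT)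
  map_smul c T hT := (isSmul_iff' _ _ _).mp (θ.map_smul c T (c • T) ((inL_iff _).mpr hT)
    ((inL_iff _).mpr ((LG Γ).smul_mem hT c)) ((isSmul_iff' _ _ _).mpr rfl))
  map_mul S hS T hT := θ.map_mul S T ((inL_iff _).mpr hS) ((inL_iff _).mpr hT)
  map_adj T hT := (isAdj_iff' _ _).mp (θ.map_adj T (adjoint T) ((inL_iff _).mpr hT)
    ((inL_iff _).mpr (star_mem hT)) ((isAdj_iff' _ _).mpr rfl))

/-- The amplified frame of an isomorphism. -/
theorem aframe_of (hΓ : ∀ g : Γ, g ≠ 1 → Set.Infinite {y : Γ | ∃ h, y = h * g * h⁻¹})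
    (hp : St.IsProj p) (θ : St.AmpIso Γ Λ n p) :
    AFrame p (fun g => θ.toFun (H160.St.u g)) :=
  (toC θ).aframe hΓ ((isAdj_iff' _ _).mp hp.adj).symm hp.idem hp.ne ((inM_iff _).mp hp.mem)

/-- coefficients of the entries -/
theorem tr_ent {T : St.Op (Fin (n + 1) × Λ)} (hT : St.InM T) (i j : Fin (n + 1)) (s : Λ) :
    H160.St.tr (H160.St.mul (St.ent T i j) (H160.St.u s⁻¹)) = (T (dl (j, 1))) (i, s) := by
  have h1 : Cmm rhoH (St.ent T i j) := mem_LG_iff.mp ((inL_iff _).mp (hT i j))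
  have h2 : St.ent T i j (rho s (dl 1)) = rho s (St.ent T i j (dl 1)) :=
    DFunLike.congr_fun (h1 s) (dl 1)
  change ⟪(dl 1 : Ell2 Λ), St.ent T i j (lam s⁻¹ (dl 1))⟫_ℂ = _
  have h3 : (lam s⁻¹ (dl 1) : Ell2 Λ) = rho s (dl 1) := by
    rw [lam_dl, rho, rei_dl]
    change dl (s⁻¹ * 1) = dl (1 * s⁻¹)
    rw [mul_one, one_mul]
  rw [h3, h2, inner_dl]
  have h5 : (rho s (St.ent T i j (dl 1))) 1 = (St.ent T i j (dl 1)) (1 * s⁻¹⁻¹) := rfl
  rw [h5, inv_inv, one_mul, ent_dl]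

theorem four_eq {T : St.Op (Fin (n + 1) × Λ)} (hT : St.InM T) : St.four T = f4 T := by
  unfold St.four f4 H885.fourth
  rw [Finset.sum_comm]
  refine Finset.sum_congr rfl fun j _ => ?_
  have h1 : HasSum (fun y : Fin (n + 1) × Λ => ‖(T (dl (j, 1))) y‖ ^ 4)
      (∑' y : Fin (n + 1) × Λ, ‖(T (dl (j, 1))) y‖ ^ 4) := (summable_four _).hasSum
  have h2 := (h1.prod_fiberwise fun i =>
    ((summable_four (T (dl (j, 1)))).comp_injective
      (Prod.mk_right_injective i : Function.Injective (Prod.mk i : Λ → Fin (n + 1) × Λ))).hasSum)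
  have h3 := h2.unique (hasSum_fintype _)
  rw [h3]
  refine Finset.sum_congr rfl fun i _ => ?_
  simp only [tr_ent hT]
  rfl

theorem trM_eq (T : St.Op (Fin (n + 1) × Λ)) : St.trM T = Tr T := by
  unfold St.trM Tr
  refine Finset.sum_congr rfl fun i _ => ?_
  change ⟪(dl 1 : Ell2 Λ), St.ent T i i (dl 1)⟫_ℂ = _
  rw [inner_dl, ent_dl, inner_dl]

end bridge

end Vale.Agent.P092.H367
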