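import Vale.Agent.P092.R3.H367.Fr
import Vale.Agent.P092.H160.Canon

/-!
The canonical form of an amplified frame whose projection is equivalent to one row.
-/

set_option linter.all false

open scoped InnerProductSpace
open Filter Topology ContinuousLinearMap

namespace Vale.Agent.P092.H367

open Vale.Agent.P092.H160

section can

variable {I Λ Γ : Type} [Fintype I] [Group Λ] [Group Γ]
  {p : Ell2 (I × Λ) →L[ℂ] Ell2 (I × Λ)} {α : Γ → (Ell2 (I × Λ) →L[ℂ] Ell2 (I × Λ))}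

/-- The canonical form in terms of operators. -/
def CanW (p : Ell2 (I × Λ) →L[ℂ] Ell2 (I × Λ)) (α : Γ → (Ell2 (I × Λ) →L[ℂ] Ell2 (I × Λ))) :
    Prop :=
  ∃ (δ : Γ ≃* Λ) (χ : Γ →* Circle) (w : Ell2 Λ →L[ℂ] Ell2 (I × Λ)),
    (∀ s v, w (rho s v) = Rr I s (w v)) ∧ adjoint w ∘L w = 1 ∧ w ∘L adjoint w = p ∧
    ∀ g, α g = (χ g : ℂ) • (w ∘L lam (δ g) ∘L adjoint w)

theorem canon_of_v (ha : AFrame p α)
    (hG : ∀ g : Γ, g ≠ 1 → Set.Infinite {y : Γ | ∃ h, y = h * g * h⁻¹})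
    {v : Ell2 (Unit × Λ) →L[ℂ] Ell2 (I × Λ)} (hv : ∀ s u, v (Rr Unit s u) = Rr I s (v u))
    (h1 : adjoint v ∘L v = 1) (h2 : v ∘L adjoint v = p)
    (ha' : AFrame (1 : Ell2 (Unit × Λ) →L[ℂ] Ell2 (Unit × Λ)) (fun g => adjoint v ∘L α g ∘L v))
    {c : ℝ} (hc : 0 < c) (hlow : ∀ g, c ≤ f4 (adjoint v ∘L α g ∘L v)) : CanW p α := by
  obtain ⟨V, δ, χ, hV, hV1, hV2, hVα⟩ := canon_of_p4 (frame_frU ha') hG hc
    (fun g => by rw [p4_frU]; exact hlow g)
  have hw1 : ∀ x, adjoint v (v x) = x := fun x => DFunLike.congr_fun h1 x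
  have hj1 : ∀ x, adjoint (jU Λ) (jU Λ x) = x := fun x => DFunLike.congr_fun jU_jU x
  have hj2 : ∀ x, jU Λ (adjoint (jU Λ) x) = x := fun x => DFunLike.congr_fun jU_jU' x
  have hv1 : ∀ x, adjoint V (V x) = x := fun x => DFunLike.congr_fun hV1 x
  have hv2 : ∀ x, V (adjoint V x) = x := fun x => DFunLike.congr_fun hV2 x
  have hadj : adjoint (v ∘L adjoint (jU Λ) ∘L V) = adjoint V ∘L jU Λ ∘L adjoint v := by
    rw [adjoint_comp, adjoint_comp, adjoint_adjoint]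
    rfl
  refine ⟨δ, χ, v ∘L adjoint (jU Λ) ∘L V, ?_, ?_, ?_, ?_⟩
  · intro s u
    change v (adjoint (jU Λ) (V (rho s u))) = Rr I s (v (adjoint (jU Λ) (V u)))
    have e : V (rho s u) = rho s (V u) := DFunLike.congr_fun (hV s) u
    rw [e, jU_adj_rho, hv]
  · rw [hadj]
    apply ContinuousLinearMap.ext
    intro u
    change adjoint V (jU Λ (adjoint v (v (adjoint (jU Λ) (V u))))) = u
    rw [hw1, hj2, hv1]
  · rw [hadj, ← h2]
    apply ContinuousLinearMap.ext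
    intro u
    change v (adjoint (jU Λ) (V (adjoint V (jU Λ (adjoint v u))))) = v (adjoint v u)
    rw [hv2, hj1]
  · intro g
    rw [hadj]
    have e1 : α g = v ∘L (adjoint v ∘L α g ∘L v) ∘L adjoint v := by
      have e2 : α g = p * (α g * p) := by rw [ha.mul_p, ha.p_mul]
      conv_lhs => rw [e2, ← h2]
      rfl
    have e3 : adjoint v ∘L α g ∘L v = adjoint (jU Λ) ∘L frU ha' g ∘L jU Λ := by
      apply ContinuousLinearMap.ext
      intro u
      change _ = adjoint (jU Λ) (jU Λ (adjoint v (α g (v (adjoint (jU Λ) (jU Λ u))))))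
      rw [hj1, hj1]
      rfl
    rw [e1, e3, hVα g]
    apply ContinuousLinearMap.ext
    intro u
    change v (adjoint (jU Λ) ((χ g : ℂ) • V (lam (δ g) (adjoint V (jU Λ (adjoint v u)))))) =
      (χ g : ℂ) • v (adjoint (jU Λ) (V (lam (δ g) (adjoint V (jU Λ (adjoint v u))))))
    rw [map_smul, map_smul]

end can

end Vale.Agent.P092.H367
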