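import Vale.Agent.P092.R2.H289.CSep2
import Vale.Agent.P092.R3.H367.Adm

/-!
Separation for groups `Γ` with an injective homomorphism `j : Γ₁ → Γ` of a finite index subgroup
`Γ₁` of `SL_n(ℤ)` with commensurated and relatively ICC image.
-/

set_option linter.all false

namespace Vale.Agent.P092.H367
open Matrix Vale.Agent.P092.H350 Vale.Agent.P092.R2.H289 Vale.Agent.P092.H381.Sg

section

variable {G₀ : Type} [Group G₀] {Γ₁ : Subgroup G₀} {Γ : Type} [Group Γ] {j : Γ₁ →* Γ} {g : Γ}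

theorem comap_fi (hj : ∀ g, (conj g j.range).relIndex j.range ≠ 0) (g : Γ) :
    (j.range.comap ((MulAut.conj g).toMonoidHom.comp j)).FiniteIndex := by
  refine ⟨?_⟩
  have h1 := hj g⁻¹
  have e1 : conj g⁻¹ j.range = j.range.comap (MulAut.conj g).toMonoidHom := by
    ext x
    rw [Subgroup.mem_comap, conj, Subgroup.mem_map]
    constructor
    · rintro ⟨y, hy, rfl⟩
      have : (MulAut.conj g).toMonoidHom ((MulAut.conj g⁻¹).toMonoidHom y) = y := by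
        simp [MulAut.conj_apply, mul_assoc]
      rw [this]
      exact hy
    · intro h
      refine ⟨_, h, ?_⟩
      simp [MulAut.conj_apply, mul_assoc]
  rw [e1] at h1
  rw [← Subgroup.comap_comap, Subgroup.index_comap]
  exact h1

/-- The subgroup of the elements of `Γ₁` which are sent into the image of `j`. -/
theorem exists_SRc (hj : ∀ g, (conj g j.range).relIndex j.range ≠ 0) (g : Γ) (X : Γ₁) :
    ∃ m : ℤ, m ≠ 0 ∧ ∃ Y : Γ₁, SR j g (X ^ m) Y := by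
  have h1 := comap_fi hj g
  obtain ⟨m, hm, _, hX⟩ := Subgroup.exists_pow_mem_of_index_ne_zero h1.index_ne_zero X
  obtain ⟨Y, hY⟩ := hX
  refine ⟨m, by exact_mod_cast hm.ne', Y, ?_⟩
  change g * j (X ^ (m : ℤ)) = j Y * g
  have h2 : j Y = g * j (X ^ m) * g⁻¹ := hY
  rw [h2, inv_mul_cancel_right, zpow_natCast]

end

section

variable {n : ℕ} {Γ₁ : Subgroup (Matrix.SpecialLinearGroup (Fin n) ℤ)} {Γ : Type} [Group Γ]
  {j : Γ₁ →* Γ} {g : Γ}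

/-- The key step. -/
theorem vc_stepc [hfi : Γ₁.FiniteIndex] (hn : 3 ≤ n) (hj : Function.Injective j)
    (hj' : ∀ (g : Γ) (X : Γ₁), ∃ m : ℤ, m ≠ 0 ∧ ∃ Y : Γ₁, SR j g (X ^ m) Y) {φ ψ χ v w z : Fin n → ℤ} (hφ : KG j g φ) (hψ : KG j g ψ)
    (hχv : χ ⬝ᵥ v = 0) (hψv : ψ ⬝ᵥ v = 0) (hφv : φ ⬝ᵥ v ≠ 0) (hφw : φ ⬝ᵥ w = 0)
    (hχw : χ ⬝ᵥ w = 0) (hψw : ψ ⬝ᵥ w ≠ 0) (hφz : φ ⬝ᵥ z = 0) (hχz : χ ⬝ᵥ z ≠ 0) :
    VC j g (root v χ hχv) := by
  have hφ0 : φ ≠ 0 := by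
    rintro rfl
    exact hφv (zero_dotProduct _)
  have hv0 : v ≠ 0 := by
    rintro rfl
    exact hφv (dotProduct_zero _)
  obtain ⟨a₀, ha₀, hR⟩ := H350.exists_pow_mem Γ₁ (root v χ hχv)
  obtain ⟨m₀, hm₀, Y, hSR⟩ := hj' g ⟨_, hR⟩
  obtain ⟨k, hk⟩ : ∃ k, k = a₀ * m₀ := ⟨_, rfl⟩
  have hk0 : k ≠ 0 := by rw [hk]; exact mul_ne_zero ha₀ hm₀
  obtain ⟨X, hXdef⟩ : ∃ X : Γ₁, X = ⟨root v χ hχv ^ a₀, hR⟩ ^ m₀ := ⟨_, rfl⟩
  rw [← hXdef] at hSR
  have hXp : (X : Matrix.SpecialLinearGroup (Fin n) ℤ) = root v χ hχv ^ k := by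
    rw [hXdef, hk, _root_.zpow_mul]
    rfl
  have hkv : χ ⬝ᵥ (k • v) = 0 := by rw [dotProduct_smul, hχv, smul_zero]
  have hX : (X : Matrix.SpecialLinearGroup (Fin n) ℤ) = root (k • v) χ hkv := by
    rw [hXp, root_zpow]
  have hXi : ((X⁻¹ : Γ₁) : Matrix.SpecialLinearGroup (Fin n) ℤ) =
      root (-(k • v)) χ (by rw [dotProduct_neg, hkv, neg_zero]) := by
    rw [← root_inv _ _ hkv, ← hX]
    rfl
  have hψX : ψ ᵥ* (((X⁻¹ : Γ₁) : Matrix.SpecialLinearGroup (Fin n) ℤ) :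
      Matrix (Fin n) (Fin n) ℤ) = ψ := by
    rw [hXi]
    exact vecMul_root _ _ _ _ (by rw [dotProduct_neg, dotProduct_smul, hψv, smul_zero, neg_zero])
  have K1 := K_of_SR hj hSR hψ (by rw [hψX]; exact hψ)
  obtain ⟨m, hm, hm0, hc⟩ := hφ w hφw
  obtain ⟨B, hBdef⟩ : ∃ B : Γ₁, B = ⟨root w φ hφw ^ m, hm⟩ := ⟨_, rfl⟩
  rw [← hBdef] at hc
  have hmw : φ ⬝ᵥ (m • w) = 0 := by rw [dotProduct_smul, hφw, smul_zero]
  have hB : (B : Matrix.SpecialLinearGroup (Fin n) ℤ) = root (m • w) φ hmw := by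
    rw [hBdef]
    change root w φ hφw ^ m = _
    rw [root_zpow]
  have hBi : ((B⁻¹ : Γ₁) : Matrix.SpecialLinearGroup (Fin n) ℤ) =
      root (-(m • w)) φ (by rw [dotProduct_neg, hmw, neg_zero]) := by
    rw [← root_inv _ _ hmw, ← hB]
    rfl
  have sB : SR j g B B := hc.eq.symm
  obtain ⟨E, hEdef⟩ : ∃ E : Γ₁, E = X * B * X⁻¹ * B⁻¹ := ⟨_, rfl⟩
  have sE : SR j g E (Y * B * Y⁻¹ * B⁻¹) := by
    rw [hEdef]
    exact ((hSR.mul sB).mul hSR.inv).mul sB.inv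
  obtain ⟨N, hN⟩ : ∃ N : ℤ, N = -(φ ⬝ᵥ (k • v)) * m := ⟨_, rfl⟩
  have hN0 : N ≠ 0 := by
    rw [hN, dotProduct_smul, smul_eq_mul]
    exact mul_ne_zero (neg_ne_zero.mpr (mul_ne_zero hk0 hφv)) hm0
  have hNw : χ ⬝ᵥ (N • w) = 0 := by rw [dotProduct_smul, hχw, smul_zero]
  have hE : (E : Matrix.SpecialLinearGroup (Fin n) ℤ) = root (N • w) χ hNw := by
    have hH := heis_right (k • v) χ (m • w) φ hkv (by rw [dotProduct_smul, hχw, smul_zero]) hmw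
    have h1 := hH.eq
    have e0 : (-(φ ⬝ᵥ (k • v))) • (m • w) = N • w := by rw [smul_smul, hN]
    have e1 : root ((-(φ ⬝ᵥ (k • v))) • (m • w)) χ (by rw [e0]; exact hNw) = root (N • w) χ hNw := by
      apply sl_ext
      rw [root_coe, root_coe, e0]
    rw [e1, ← hX, ← hB] at h1
    rw [hEdef]
    change (X : Matrix.SpecialLinearGroup (Fin n) ℤ) * B * (X : Matrix.SpecialLinearGroup (Fin n) ℤ)⁻¹
      * (B : Matrix.SpecialLinearGroup (Fin n) ℤ)⁻¹ = _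
    rw [h1]
    group
  have hEi : ((E⁻¹ : Γ₁) : Matrix.SpecialLinearGroup (Fin n) ℤ) =
      root (-(N • w)) χ (by rw [dotProduct_neg, hNw, neg_zero]) := by
    rw [← root_inv _ _ hNw, ← hE]
    rfl
  have hφE : φ ᵥ* (((E⁻¹ : Γ₁) : Matrix.SpecialLinearGroup (Fin n) ℤ) :
      Matrix (Fin n) (Fin n) ℤ) = φ := by
    rw [hEi]
    exact vecMul_root _ _ _ _ (by rw [dotProduct_neg, dotProduct_smul, hφw, smul_zero, neg_zero])
  have K2 := K_of_SR hj sE hφ (by rw [hφE]; exact hφ)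
  have hD : (((X⁻¹ * Y : Γ₁) : Matrix.SpecialLinearGroup (Fin n) ℤ) : Matrix (Fin n) (Fin n) ℤ) = 1 ∨
      (((X⁻¹ * Y : Γ₁) : Matrix.SpecialLinearGroup (Fin n) ℤ) : Matrix (Fin n) (Fin n) ℤ) = -1 := by
    refine key_lin (by omega) (Y := ((Y : Matrix.SpecialLinearGroup (Fin n) ℤ) :
      Matrix (Fin n) (Fin n) ℤ)) (Yi := (((Y⁻¹ : Γ₁) : Matrix.SpecialLinearGroup (Fin n) ℤ) :
      Matrix (Fin n) (Fin n) ℤ)) (v := v) (w := w) (z := z) (φ := φ) (ψ := ψ) (χ := χ) (k := k)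
      (m := m) (N := N) (D' := (((E⁻¹ * (Y * B * Y⁻¹ * B⁻¹) : Γ₁) :
        Matrix.SpecialLinearGroup (Fin n) ℤ) : Matrix (Fin n) (Fin n) ℤ)) ?_ ?_ ?_ K1
      (Matrix.SpecialLinearGroup.det_coe _) ?_ K2 hχv hψv hv0 hφw hχw hψw hφz hχz hm0 hN0 hφ0
    · have h : (Y : Matrix.SpecialLinearGroup (Fin n) ℤ) *
          ((Y⁻¹ : Γ₁) : Matrix.SpecialLinearGroup (Fin n) ℤ) = 1 := by
        rw [← Subgroup.coe_mul, mul_inv_cancel, Subgroup.coe_one]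
      exact congrArg Subtype.val h
    · have h : ((Y⁻¹ : Γ₁) : Matrix.SpecialLinearGroup (Fin n) ℤ) *
          (Y : Matrix.SpecialLinearGroup (Fin n) ℤ) = 1 := by
        rw [← Subgroup.coe_mul, inv_mul_cancel, Subgroup.coe_one]
      exact congrArg Subtype.val h
    · have h := coe_inv_mul X Y
      rw [hX, root_coe] at h
      exact h.symm
    · have h := coe_inv_mul E (Y * B * Y⁻¹ * B⁻¹)
      have hb : ((B : Matrix.SpecialLinearGroup (Fin n) ℤ) : Matrix (Fin n) (Fin n) ℤ) =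
          1 + vecMulVec (m • w) φ := by rw [hB, root_coe]
      have hbi : (((B⁻¹ : Γ₁) : Matrix.SpecialLinearGroup (Fin n) ℤ) :
          Matrix (Fin n) (Fin n) ℤ) = 1 - vecMulVec (m • w) φ := by
        rw [hBi, root_coe, neg_vecMulVec, sub_eq_add_neg]
      have he : ((E : Matrix.SpecialLinearGroup (Fin n) ℤ) : Matrix (Fin n) (Fin n) ℤ) =
          1 + vecMulVec (N • w) χ := by rw [hE, root_coe]
      rw [he] at h
      rw [h, ← hb, ← hbi]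
      rfl
  have sYY : SR j g (X * X) (Y * Y) := hSR.mul hSR
  have hYY : Y * Y = X * X := by
    have h := coe_inv_mul X Y
    apply Subtype.ext
    apply sl_ext
    change ((Y : Matrix.SpecialLinearGroup (Fin n) ℤ) : Matrix (Fin n) (Fin n) ℤ) *
      ((Y : Matrix.SpecialLinearGroup (Fin n) ℤ) : Matrix (Fin n) (Fin n) ℤ) =
      ((X : Matrix.SpecialLinearGroup (Fin n) ℤ) : Matrix (Fin n) (Fin n) ℤ) *
      ((X : Matrix.SpecialLinearGroup (Fin n) ℤ) : Matrix (Fin n) (Fin n) ℤ)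
    rcases hD with hD | hD
    · rw [hD, Matrix.mul_one] at h
      rw [h]
    · rw [hD, Matrix.mul_neg, Matrix.mul_one] at h
      rw [← h, Matrix.neg_mul, Matrix.mul_neg, neg_neg]
  rw [hYY] at sYY
  refine VC.of_SR (k := k * 2) (mul_ne_zero hk0 two_ne_zero) ?_ sYY
  rw [_root_.zpow_mul, ← hXp]
  exact (zpow_two _).symm

/-- First half of the large root subgroup. -/
theorem vc_halfc [hfi : Γ₁.FiniteIndex] (hn : 3 ≤ n) (hj : Function.Injective j)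
    (hj' : ∀ (g : Γ) (X : Γ₁), ∃ m : ℤ, m ≠ 0 ∧ ∃ Y : Γ₁, SR j g (X ^ m) Y) {φ ψ χ : Fin n → ℤ} (hφ : KG j g φ) (hψ : KG j g ψ)
    (h3 : LI3 φ ψ χ) {v : Fin n → ℤ} (hχv : χ ⬝ᵥ v = 0) (hψv : ψ ⬝ᵥ v = 0) :
    VC j g (root v χ hχv) := by
  obtain ⟨v0, h1, h2, h3'⟩ := h3.dual
  obtain ⟨w0, hw1, hw2, hw3⟩ := h3.swap.dual
  obtain ⟨z, hz1, hz2, hz3⟩ := h3.rot.dual
  have key : ∀ v (hχv : χ ⬝ᵥ v = 0), ψ ⬝ᵥ v = 0 → φ ⬝ᵥ v ≠ 0 → VC j g (root v χ hχv) :=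
    fun v hχv hψv hφv => vc_stepc hn hj hj' hφ hψ hχv hψv hφv hw1 hw2 hw3 hz1 hz3
  by_cases hφv : φ ⬝ᵥ v = 0
  · have e1 : χ ⬝ᵥ (v + v0) = 0 := by rw [dotProduct_add, hχv, h2, add_zero]
    have e2 : χ ⬝ᵥ (-v0) = 0 := by rw [dotProduct_neg, h2, neg_zero]
    have k1 := key (v + v0) e1 (by rw [dotProduct_add, hψv, h1, add_zero])
      (by rw [dotProduct_add, hφv, zero_add]; exact h3')
    have k2 := key (-v0) e2 (by rw [dotProduct_neg, h1, neg_zero])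
      (by rw [dotProduct_neg]; exact neg_ne_zero.mpr h3')
    have k3 := vc_add k1 k2 (by rw [dotProduct_add, e1, e2, add_zero])
    have e3 : v + v0 + -v0 = v := by abel
    have e4 : root (v + v0 + -v0) χ (by rw [dotProduct_add, e1, e2, add_zero]) = root v χ hχv := by
      apply sl_ext
      rw [root_coe, root_coe, e3]
    rw [e4] at k3
    exact k3
  · exact key v hχv hψv hφv

/-- The third functional. -/
theorem KG_of_LI3c [hfi : Γ₁.FiniteIndex] (hn : 3 ≤ n) (hj : Function.Injective j)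
    (hj' : ∀ (g : Γ) (X : Γ₁), ∃ m : ℤ, m ≠ 0 ∧ ∃ Y : Γ₁, SR j g (X ^ m) Y) {φ ψ χ : Fin n → ℤ} (hφ : KG j g φ) (hψ : KG j g ψ)
    (h3 : LI3 φ ψ χ) : KG j g χ := by
  intro v hv
  obtain ⟨v0, h1, h2, h3'⟩ := h3.dual
  have e1 : χ ⬝ᵥ ((φ ⬝ᵥ v) • v0) = 0 := by rw [dotProduct_smul, h2, smul_zero]
  have e2 : χ ⬝ᵥ ((φ ⬝ᵥ v0) • v - (φ ⬝ᵥ v) • v0) = 0 := by
    rw [dotProduct_sub, dotProduct_smul, dotProduct_smul, hv, h2, smul_zero, smul_zero, sub_zero]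
  have k1 := vc_halfc hn hj hj' hφ hψ h3 e1 (by rw [dotProduct_smul, h1, smul_zero])
  have k2 := vc_halfc hn hj hj' hψ hφ h3.swap e2 (by
    rw [dotProduct_sub, dotProduct_smul, dotProduct_smul, smul_eq_mul, smul_eq_mul]
    ring)
  have k3 := vc_add k1 k2 (by rw [dotProduct_add, e1, e2, add_zero])
  have e3 : (φ ⬝ᵥ v) • v0 + ((φ ⬝ᵥ v0) • v - (φ ⬝ᵥ v) • v0) = (φ ⬝ᵥ v0) • v := by abel
  have e5 : χ ⬝ᵥ ((φ ⬝ᵥ v0) • v) = 0 := by rw [dotProduct_smul, hv, smul_zero]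
  have e4 : root ((φ ⬝ᵥ v) • v0 + ((φ ⬝ᵥ v0) • v - (φ ⬝ᵥ v) • v0)) χ
      (by rw [dotProduct_add, e1, e2, add_zero]) = root ((φ ⬝ᵥ v0) • v) χ e5 := by
    apply sl_ext
    rw [root_coe, root_coe, e3]
  rw [e4] at k3
  exact vc_of_smul h3' hv k3

/-- All functionals. -/
theorem KG_allc [hfi : Γ₁.FiniteIndex] (hn : 3 ≤ n) (hj : Function.Injective j)
    (hj' : ∀ (g : Γ) (X : Γ₁), ∃ m : ℤ, m ≠ 0 ∧ ∃ Y : Γ₁, SR j g (X ^ m) Y) {φ ψ : Fin n → ℤ} (hLI : LI φ ψ) (hφ : KG j g φ) (hψ : KG j g ψ)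
    (χ : Fin n → ℤ) : KG j g χ := by
  by_cases hχ : χ = 0
  · subst hχ
    intro w hw
    have e : root w 0 hw = 1 := by
      apply sl_ext
      rw [root_coe, vecMulVec_zero, add_zero]
      rfl
    rw [e]
    exact VC.one
  by_cases h3 : LI3 φ ψ χ
  · exact KG_of_LI3c hn hj hj' hφ hψ h3
  unfold LI3 at h3
  push Not at h3
  obtain ⟨p, q, hpq⟩ := hLI
  obtain ⟨r, hrp, hrq⟩ := exists_third hn p q
  have s1 : (Pi.single r 1 : Fin n → ℤ) p = 0 := by simp [Ne.symm hrp]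
  have s2 : (Pi.single r 1 : Fin n → ℤ) q = 0 := by simp [Ne.symm hrq]
  have s3 : (Pi.single r 1 : Fin n → ℤ) r = 1 := by simp
  have hθ : KG j g (Pi.single r 1) := by
    refine KG_of_LI3c hn hj hj' hφ hψ ⟨p, q, r, ?_⟩
    unfold det3
    rw [s1, s2, s3]
    intro e
    apply hpq
    linear_combination e
  by_cases hB : φ p * χ q - φ q * χ p = 0
  · by_cases hA : ψ p * χ q - ψ q * χ p = 0
    · exfalso
      apply hχ
      ext l
      rw [Pi.zero_apply]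
      have h4 := h3 p q l
      unfold det3 at h4
      have h5 : (φ p * ψ q - φ q * ψ p) * χ l = 0 := by
        linear_combination h4 + ψ l * hB - φ l * hA
      exact (mul_eq_zero.mp h5).resolve_left hpq
    · refine KG_of_LI3c hn hj hj' hψ hθ ⟨p, q, r, ?_⟩
      unfold det3
      rw [s1, s2, s3]
      intro e
      apply hA
      linear_combination -e
  · refine KG_of_LI3c hn hj hj' hφ hθ ⟨p, q, r, ?_⟩
    unfold det3
    rw [s1, s2, s3]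
    intro e
    apply hB
    linear_combination -e

/-- **Separation** for commensurated relatively ICC images. -/
theorem sepKc [hfi : Γ₁.FiniteIndex] (hn : 3 ≤ n) (hj : Function.Injective j)
    (hc : ∀ g, (conj g j.range).relIndex j.range ≠ 0) (hΓ : RICC j.range) : SepK j := by
  intro g a b hab ha hb
  by_contra hg
  apply hΓ g hg
  have hall := KG_allc hn hj (exists_SRc hc) hab ha hb
  -- conjugation by g is trivial up to sign
  have hsr : ∀ X Y : Γ₁, SR j g X Y →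
      (((X * Y⁻¹ : Γ₁) : Matrix.SpecialLinearGroup (Fin n) ℤ) : Matrix (Fin n) (Fin n) ℤ) = 1 ∨
      (((X * Y⁻¹ : Γ₁) : Matrix.SpecialLinearGroup (Fin n) ℤ) : Matrix (Fin n) (Fin n) ℤ) = -1 := by
    intro X Y h
    have hK : ∀ χ, K (((X⁻¹ * Y : Γ₁) : Matrix.SpecialLinearGroup (Fin n) ℤ) :
        Matrix (Fin n) (Fin n) ℤ) χ := fun χ => K_of_SR hj h (hall _) (hall _)
    have hD := eq_pm_one hn (Matrix.SpecialLinearGroup.det_coe
      ((X⁻¹ * Y : Γ₁) : Matrix.SpecialLinearGroup (Fin n) ℤ)) hab (hK a) (hK b)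
    have h1 := coe_inv_mul X Y
    have h2 : ((Y : Matrix.SpecialLinearGroup (Fin n) ℤ) : Matrix (Fin n) (Fin n) ℤ) *
        (((Y⁻¹ : Γ₁) : Matrix.SpecialLinearGroup (Fin n) ℤ) : Matrix (Fin n) (Fin n) ℤ) = 1 := by
      have h : (Y : Matrix.SpecialLinearGroup (Fin n) ℤ) *
          ((Y⁻¹ : Γ₁) : Matrix.SpecialLinearGroup (Fin n) ℤ) = 1 := by
        rw [← Subgroup.coe_mul, mul_inv_cancel, Subgroup.coe_one]
      exact congrArg Subtype.val h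
    have h3 : (((X * Y⁻¹ : Γ₁) : Matrix.SpecialLinearGroup (Fin n) ℤ) :
        Matrix (Fin n) (Fin n) ℤ) = ((X : Matrix.SpecialLinearGroup (Fin n) ℤ) :
        Matrix (Fin n) (Fin n) ℤ) * (((Y⁻¹ : Γ₁) : Matrix.SpecialLinearGroup (Fin n) ℤ) :
        Matrix (Fin n) (Fin n) ℤ) := rfl
    rcases hD with hD | hD
    · left
      rw [hD, Matrix.mul_one] at h1
      rw [h3, h1, h2]
    · right
      rw [hD, Matrix.mul_neg, Matrix.mul_one] at h1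
      have h4 : ((X : Matrix.SpecialLinearGroup (Fin n) ℤ) : Matrix (Fin n) (Fin n) ℤ) =
          -((Y : Matrix.SpecialLinearGroup (Fin n) ℤ) : Matrix (Fin n) (Fin n) ℤ) := by
        rw [← h1, neg_neg]
      rw [h3, h4, Matrix.neg_mul, h2]
  -- the finite index subgroup
  set N : Subgroup Γ₁ := j.range.comap ((MulAut.conj g).toMonoidHom.comp j) with hN
  have hNfi : N.FiniteIndex := comap_fi hc g
  set S : Set Γ₁ := {Z | ((Z : Matrix.SpecialLinearGroup (Fin n) ℤ) : Matrix (Fin n) (Fin n) ℤ) = 1 ∨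
    ((Z : Matrix.SpecialLinearGroup (Fin n) ℤ) : Matrix (Fin n) (Fin n) ℤ) = -1} with hS
  have hSfin : S.Finite := by
    have hinj : Function.Injective (fun Z : Γ₁ =>
        ((Z : Matrix.SpecialLinearGroup (Fin n) ℤ) : Matrix (Fin n) (Fin n) ℤ)) := by
      intro Z Z' h
      exact Subtype.ext (sl_ext h)
    refine Set.Finite.preimage (f := fun Z : Γ₁ =>
        ((Z : Matrix.SpecialLinearGroup (Fin n) ℤ) : Matrix (Fin n) (Fin n) ℤ)) hinj.injOn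
        (s := {1, -1}) (Set.toFinite _) |>.subset ?_
    intro Z hZ
    exact hZ
  haveI : Finite (Γ₁ ⧸ N) := Subgroup.finite_quotient_of_finiteIndex
  have hfin : ((Set.univ : Set (Γ₁ ⧸ N)) ×ˢ S).Finite := Set.finite_univ.prod hSfin
  refine (hfin.image (fun p : (Γ₁ ⧸ N) × Γ₁ => j p.1.out * (j p.2 * g) * (j p.1.out)⁻¹)).subset ?_
  rintro _ ⟨_, ⟨h, rfl⟩, rfl⟩
  obtain ⟨k, hk⟩ := QuotientGroup.mk_out_eq_mul N h
  have hkN : ((k : Γ₁)⁻¹ : Γ₁) ∈ N := N.inv_mem k.2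
  obtain ⟨Y, hY⟩ := hkN
  have hY' : j Y = g * j (k : Γ₁)⁻¹ * g⁻¹ := hY
  have hsr' : SR j g (k : Γ₁)⁻¹ Y := by
    change g * j (k : Γ₁)⁻¹ = j Y * g
    rw [hY', inv_mul_cancel_right]
  refine ⟨(QuotientGroup.mk h, (k : Γ₁)⁻¹ * Y⁻¹), ⟨trivial, hsr _ Y hsr'⟩, ?_⟩
  rw [map_inv] at hY'
  simp only [hk, map_mul, map_inv, hY']
  group

end

end Vale.Agent.P092.H367
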