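import Vale.Agent.P092.R3.H367.StMat
import Vale.Agent.P092.R3.H423.Zed
import Vale.Agent.P092.R3.H367.Bri

/-!
From matrices of operators on `ℓ²(Λ)` to operators on `ℓ²({0,…,n} × Λ)`.
-/

set_option linter.all false

open scoped InnerProductSpace
open Filter Topology ContinuousLinearMap

namespace Vale.Agent.P092.H367

open Vale.Agent.P092.H160

section mat

variable {Γ Λ : Type} [Group Γ] [Group Λ] {n : ℕ}

/-- the operator of a matrix -/
noncomputable def opM (A : Mt.Mat n Λ) : H160.St.Op (Fin (n + 1) × Λ) :=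
  ∑ i, ∑ j, St.row i ∘L A i j ∘L adjoint (St.row j)

/-- the matrix of an operator -/
noncomputable def matOf (T : H160.St.Op (Fin (n + 1) × Λ)) : Mt.Mat n Λ := fun i j => St.ent T i j

theorem opM_apply (A : Mt.Mat n Λ) (ζ : Ell2 (Fin (n + 1) × Λ)) :
    opM A ζ = ∑ i, ∑ j, St.row i (A i j (adjoint (St.row j) ζ)) := by
  unfold opM
  rw [sum_apply]
  refine Finset.sum_congr rfl fun i _ => ?_
  rw [sum_apply]
  rfl

theorem row_opM (A : Mt.Mat n Λ) (i : Fin (n + 1)) (ζ : Ell2 (Fin (n + 1) × Λ)) :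
    adjoint (St.row i) (opM A ζ) = ∑ j, A i j (adjoint (St.row j) ζ) := by
  rw [opM_apply, map_sum, Finset.sum_eq_single i]
  · rw [map_sum]
    exact Finset.sum_congr rfl fun j _ => H423.row_adj_row_self_ap _ _
  · intro k _ hk
    rw [map_sum]
    exact Finset.sum_eq_zero fun j _ => H423.row_adj_row_ne_ap (Ne.symm hk) _
  · intro h; exact absurd (Finset.mem_univ _) h

theorem ent_opM (A : Mt.Mat n Λ) (i j : Fin (n + 1)) : St.ent (opM A) i j = A i j := by
  apply ContinuousLinearMap.ext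
  intro v
  change adjoint (St.row i) (opM A (St.row j v)) = _
  rw [row_opM, Finset.sum_eq_single j]
  · rw [H423.row_adj_row_self_ap]
  · intro k _ hk
    rw [H423.row_adj_row_ne_ap hk, map_zero]
  · intro h; exact absurd (Finset.mem_univ _) h

theorem matOf_opM (A : Mt.Mat n Λ) : matOf (opM A) = A := by
  funext i j
  exact ent_opM A i j

theorem opM_matOf (T : H160.St.Op (Fin (n + 1) × Λ)) : opM (matOf T) = T :=
  H423.ent_ext fun i j => ent_opM _ i j

theorem opM_mmul (A B : Mt.Mat n Λ) : opM (Mt.mmul A B) = H160.St.mul (opM A) (opM B) := by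
  apply H423.ent_ext
  intro i j
  rw [ent_opM]
  apply ContinuousLinearMap.ext
  intro v
  change (∑ k, H160.St.mul (A i k) (B k j)) v =
    adjoint (St.row i) (opM A (opM B (St.row j v)))
  rw [row_opM, sum_apply]
  refine Finset.sum_congr rfl fun k _ => ?_
  change A i k (B k j v) = _
  have h : adjoint (St.row k) (opM B (St.row j v)) = B k j v :=
    DFunLike.congr_fun (ent_opM B k j) v
  rw [h]

theorem opM_madd (A B : Mt.Mat n Λ) : opM (Mt.madd A B) = H160.St.add (opM A) (opM B) := by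
  apply H423.ent_ext
  intro i j
  rw [ent_opM, H423.ent_add, ent_opM, ent_opM]
  rfl

theorem opM_smul {c : ℂ} {A B : Mt.Mat n Λ} (h : Mt.MSmul c A B) :
    H160.St.IsSmul c (opM A) (opM B) := by
  rw [isSmul_iff']
  apply H423.ent_ext
  intro i j
  rw [H423.ent_smul, ent_opM, ent_opM]
  exact (isSmul_iff' _ _ _).mp (h i j)

theorem opM_adj {A B : Mt.Mat n Λ} (h : Mt.MAdj A B) : H160.St.IsAdj (opM A) (opM B) := by
  rw [isAdj_iff']
  apply H423.ent_ext
  intro i j
  rw [H423.ent_adj, ent_opM, ent_opM]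
  exact (isAdj_iff' _ _).mp (h j i)

theorem inM_opM (A : Mt.Mat n Λ) : St.InM (opM A) ↔ Mt.InM A := by
  unfold St.InM Mt.InM
  simp only [ent_opM]

theorem opM_inj {A B : Mt.Mat n Λ} (h : opM A = opM B) : A = B := by
  rw [← matOf_opM A, ← matOf_opM B, h]

theorem inC_opM (p A : Mt.Mat n Λ) : St.InC (opM p) (opM A) ↔ Mt.InC p A := by
  unfold St.InC Mt.InC
  rw [inM_opM, ← opM_mmul, ← opM_mmul]
  constructor
  · rintro ⟨h1, h2, h3⟩
    exact ⟨h1, opM_inj h2, opM_inj h3⟩
  · rintro ⟨h1, h2, h3⟩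
    exact ⟨h1, by rw [h2], by rw [h3]⟩

theorem isProj_opM {p : Mt.Mat n Λ} (h : Mt.IsProj p) : St.IsProj (opM p) where
  mem := (inM_opM p).mpr h.mem
  adj := opM_adj h.adj
  idem := by rw [← opM_mmul, h.idem]
  ne := by
    intro h0
    obtain ⟨i, j, ξ, h1⟩ := h.ne
    apply h1
    have h2 := ent_opM p i j
    rw [h0] at h2
    rw [← h2]
    change adjoint (St.row i) ((0 : H160.St.Op (Fin (n + 1) × Λ)) (St.row j ξ)) = 0
    rw [zero_apply, map_zero]

/-- The conversion of a `*`-isomorphism. -/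
noncomputable def ofMt {p : Mt.Mat n Λ} (θ : Mt.AmpIso Γ Λ n p) : St.AmpIso Γ Λ n (opM p) where
  toFun T := opM (θ.toFun T)
  invFun S := θ.invFun (matOf S)
  map_mem T hT := (inC_opM _ _).mpr (θ.map_mem T hT)
  inv_mem S hS := θ.inv_mem _ ((inC_opM _ _).mp (by rw [opM_matOf]; exact hS))
  left_inv T hT := by rw [matOf_opM, θ.left_inv T hT]
  right_inv S hS := by
    rw [θ.right_inv _ ((inC_opM _ _).mp (by rw [opM_matOf]; exact hS)), opM_matOf]
  map_add S T hS hT := by rw [θ.map_add S T hS hT, opM_madd]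
  map_smul c S T hS hT h := opM_smul (θ.map_smul c S T hS hT h)
  map_mul S T hS hT := by rw [θ.map_mul S T hS hT, opM_mmul]
  map_adj S T hS hT h := opM_adj (θ.map_adj S T hS hT h)

theorem ofMt_apply {p : Mt.Mat n Λ} (θ : Mt.AmpIso Γ Λ n p) (T : H160.St.Op Γ) :
    (ofMt θ).toFun T = opM (θ.toFun T) := rfl

theorem four_opM (A : Mt.Mat n Λ) : St.four (opM A) = Mt.four A := by
  unfold St.four Mt.four
  simp only [ent_opM]

theorem trM_opM (A : Mt.Mat n Λ) : St.trM (opM A) = Mt.trM A := by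
  unfold St.trM Mt.trM
  simp only [ent_opM]

theorem canon_iff {p : Mt.Mat n Λ} (θ : Mt.AmpIso Γ Λ n p) :
    Mt.Canon θ ↔ St.CanonAmp (ofMt θ) := by
  unfold Mt.Canon St.CanonAmp
  simp only [ent_opM, ofMt_apply]

end mat

end Vale.Agent.P092.H367
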