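import Vale.Agent.P092.R2.H289.CAmp
import Vale.Agent.P092.R3.H367.CommSep
import Vale.Agent.P092.R3.H381.Sub4

/-!
Groups `Γ` with an injective homomorphism `j : Γ₁ → Γ` of a finite index subgroup `Γ₁` of `SL_N(ℤ)`,
`N ≥ 3`, with commensurated and relatively ICC image: an isomorphism onto a corner of matrices over
`L(Λ)` is canonical, or the heights vanish on average along every element with a nontrivial
unipotent power.
-/

set_option linter.all false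

open scoped InnerProductSpace
open Filter Topology ContinuousLinearMap Matrix

namespace Vale.Agent.P092.R2.H289

open Vale.Agent.P092.H160 Vale.Agent.P092.H367 Vale.Agent.P092.H423

section tight

variable {Γ Λ H : Type} [Group Γ] [Group Λ] [NormedAddCommGroup H] [InnerProductSpace ℂ H]
  [CompleteSpace H] {α : Γ →* (H →L[ℂ] H)} {β : Λ →* (H →L[ℂ] H)} {u : H} {t : ℝ}

/-- Lower bound of the fourth power sums on a set, from tightness. -/
theorem Fr.p4c_of_tightS (h : Fr α β u t) {S : Set Γ} (hT : h.TH ((fun g : Γ => α g u) '' S)) :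
    ∃ c : ℝ, 0 < c ∧ ∀ g ∈ S, c ≤ p4c (fun g => h.tp (α g)) g := by
  have ht := h.tpos
  have hs0 : 0 < Real.sqrt t := Real.sqrt_pos.mpr ht
  have hss : Real.sqrt t ^ 2 = t := Real.sq_sqrt ht.le
  have h1 : H350.Tight ((fun g : Γ => ((Real.sqrt t : ℝ) : ℂ) • h.tp (α g) (dl 1)) '' S) := by
    refine H350.Tight.smul hT (((Real.sqrt t : ℝ) : ℂ) * (t : ℂ)⁻¹) ?_
    rintro _ ⟨g, hg, rfl⟩
    refine ⟨_, ⟨_, ⟨g, hg, rfl⟩, rfl⟩, ?_⟩
    simp only
    rw [h.tp_dl_one, smul_smul]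
  obtain ⟨N, hN⟩ := h1 (1 / 2) (by norm_num)
  refine ⟨(t ^ 2)⁻¹ * (9 / (16 * (N + 1))), by positivity, fun g hg => ?_⟩
  obtain ⟨F, η, hF, hη, hd⟩ := hN _ ⟨g, hg, rfl⟩
  have h2 : ‖((Real.sqrt t : ℝ) : ℂ) • h.tp (α g) (dl 1)‖ = 1 := by
    have e : ‖((Real.sqrt t : ℝ) : ℂ) • h.tp (α g) (dl 1)‖ ^ 2 = 1 := by
      rw [norm_smul, mul_pow, h.norm_tp_dl, Complex.norm_real, Real.norm_of_nonneg hs0.le, hss]
      field_simp
    have e0 := norm_nonneg (((Real.sqrt t : ℝ) : ℂ) • h.tp (α g) (dl 1))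
    nlinarith
  have h3 := p4_vec h2 hF hη hd
  have h4 : ∑' s, ‖(((Real.sqrt t : ℝ) : ℂ) • h.tp (α g) (dl 1) : Ell2 Λ) s‖ ^ 4 =
      t ^ 2 * p4c (fun g => h.tp (α g)) g := by
    rw [p4c, ← tsum_mul_left]
    refine tsum_congr fun s => ?_
    change ‖((Real.sqrt t : ℝ) : ℂ) * (h.tp (α g) (dl 1)) s‖ ^ 4 = _
    rw [norm_mul, mul_pow, Complex.norm_real, Real.norm_of_nonneg hs0.le]
    have : Real.sqrt t ^ 4 = t ^ 2 := by
      calc Real.sqrt t ^ 4 = (Real.sqrt t ^ 2) ^ 2 := by ring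
        _ = t ^ 2 := by rw [hss]
    rw [this]
  rw [h4] at h3
  calc (t ^ 2)⁻¹ * (9 / (16 * (N + 1))) ≤ (t ^ 2)⁻¹ * (t ^ 2 * p4c (fun g => h.tp (α g)) g) := by
        gcongr
    _ = _ := by field_simp

end tight

section

variable {n : ℕ} {Γ₁ : Subgroup (Matrix.SpecialLinearGroup (Fin n) ℤ)} [hfi : Γ₁.FiniteIndex]
  {Γ Λ H : Type} [Group Γ] [Group Λ] [NormedAddCommGroup H] [InnerProductSpace ℂ H]
  [CompleteSpace H] {j : Γ₁ →* Γ}
  {α : Γ →* (H →L[ℂ] H)} {β : Λ →* (H →L[ℂ] H)} {u : H} {t : ℝ}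

/-- **Part (II)** on the image of `j`. -/
theorem Fr.part_twoc (hα : Fr α β u t) (hn : 3 ≤ n) (hK : SepK j)
    (x : Γ₁) (hx : x ≠ 1)
    (hu : IsNilpotent (((x : Matrix.SpecialLinearGroup (Fin n) ℤ) :
      Matrix (Fin n) (Fin n) ℤ) - 1))
    (ξ : H) (hξ : ξ ≠ 0) (ht : hα.TH (Set.range fun k : ℤ => α (j x ^ k) ξ)) :
    hα.TH (Set.range fun g : Γ₁ => α (j g) u) := by
  have h1 : hα.JT j (x : Matrix.SpecialLinearGroup (Fin n) ℤ) ≠ ⊥ := by
    rw [hα.JT_coe]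
    intro h
    have : ξ ∈ hα.Ht (j x) := ht
    rw [h] at this
    exact hξ (by simpa using this)
  have hx' : ((x : Matrix.SpecialLinearGroup (Fin n) ℤ) : Matrix (Fin n) (Fin n) ℤ) ≠ 1 := by
    intro h
    apply hx
    apply Subtype.ext
    exact Vale.Agent.P092.H350.sl_ext h
  obtain ⟨v, φ, h, hv, hφ, hne⟩ := hα.exists_rootJ hx' hu h1
  have htop := (hα.JT_bot_or_top hn hK hv hφ h).resolve_left hne
  exact hα.all_tightJ₁ hn
    (fun w χ h' hw hχ => hα.JT_top_all hn hK hv hφ hw hχ h h' htop)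

end

section main

variable {n : ℕ} {Γ₁ : Subgroup (Matrix.SpecialLinearGroup (Fin n) ℤ)} [hfi : Γ₁.FiniteIndex]
  {Γ Λ : Type} [Group Γ] [Group Λ] {j : Γ₁ →* Γ} {m : ℕ}
  {p : Ell2 (Fin (m + 1) × Λ) →L[ℂ] Ell2 (Fin (m + 1) × Λ)}
  {α : Γ → (Ell2 (Fin (m + 1) × Λ) →L[ℂ] Ell2 (Fin (m + 1) × Λ))}

/-- Non-vanishing heights along a unipotent give a lower bound for the fourth power sums on the
image of `j`, abstract form. -/
theorem lower_of_heightsc {H H' : Type} [NormedAddCommGroup H] [InnerProductSpace ℂ H]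
    [CompleteSpace H] [NormedAddCommGroup H'] [InnerProductSpace ℂ H'] [CompleteSpace H']
    {i : H →L[ℂ] Ell2 (Fin (m + 1) × Λ)} {R : Fin (m + 1) → (H →L[ℂ] H')}
    (hi : Inc p i) (hd : Dec R) (ha : AFrame p α) (hn : 3 ≤ n)
    (hK : SepK j) (x : Γ) (k : ℕ) (y : Γ₁) (hxy : x ^ k = j y) (hy : y ≠ 1)
    (hnil : IsNilpotent (((y : SpecialLinearGroup (Fin n) ℤ) : Matrix (Fin n) (Fin n) ℤ) - 1))
    (hnot : ¬ Tendsto (fun N : ℕ => (∑ i ∈ Finset.range N, hgA (α (x ^ (i + 1)))) / N)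
      atTop (𝓝 0)) : ∃ c : ℝ, 0 < c ∧ ∀ g : Γ₁, c ≤ f4 (α (j g)) := by
  have hF := frA hi ha hd
  have hdm := hi.dm_pos ha
  have hnot' : ¬ Tendsto (fun N : ℕ => (∑ l ∈ Finset.range N,
      ⨆ q, ‖⟪hd.be' (hi.be ha) q (uu' R (Inc.sg i)),
        hd.al' (hi.al ha) (x ^ (l + 1)) (uu' R (Inc.sg i))⟫_ℂ‖) / N)
      atTop (𝓝 0) := by
    intro h
    apply hnot
    have h1 := h.const_mul (Mod.dm (Inc.sg i))
    rw [mul_zero] at h1
    refine squeeze_zero (fun N => ?_) (fun N => ?_) h1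
    · refine div_nonneg (Finset.sum_nonneg fun l _ => ?_) (Nat.cast_nonneg _)
      exact Real.iSup_nonneg fun s => norm_nonneg _
    · rw [← mul_div_assoc, Finset.mul_sum]
      gcongr with l _
      exact height_leA hi ha hd (x ^ (l + 1))
  obtain ⟨ξ, hξ, ht⟩ := hF.exists_tight x hnot'
  have ht' : hF.TH (Set.range fun l : ℤ => hd.al' (hi.al ha) (j y ^ l) ξ) := by
    refine Fr.TH.mono ht ?_
    rintro _ ⟨l, rfl⟩
    refine ⟨(k : ℤ) * l, ?_⟩
    simp only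
    rw [_root_.zpow_mul, zpow_natCast, hxy]
  have hT := hF.part_twoc hn hK y hy hnil ξ hξ ht'
  have hT' : hF.TH ((fun g : Γ => hd.al' (hi.al ha) g (uu' R (Inc.sg i))) '' (Set.range j)) := by
    rw [← Set.range_comp]
    exact hT
  obtain ⟨c, hc, hp⟩ := hF.p4c_of_tightS hT'
  obtain ⟨C, hC, hle⟩ := p4c_leA hi ha hd
  refine ⟨c / C, div_pos hc hC, fun g => ?_⟩
  rw [div_le_iff₀ hC, mul_comm]
  exact (hp _ ⟨g, rfl⟩).trans (hle _)

end main

/-- The dichotomy for corners of matrices over `L(Λ)`. -/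
theorem canon_or_heightsc {N : ℕ} (hN : 3 ≤ N)
    (Γ₁ : Subgroup (Matrix.SpecialLinearGroup (Fin N) ℤ)) [Γ₁.FiniteIndex]
    {Γ : Type} [Group Γ] (j : Γ₁ →* Γ) (hj : Function.Injective j)
    (hR : H381.Sg.RICC j.range) (hc : ∀ g, (H381.Sg.conj g j.range).relIndex j.range ≠ 0)
    {Λ : Type} [Group Λ] (hL : Mt.ICC Λ)
    {n : ℕ} {p : Mt.Mat n Λ} (hp : Mt.IsProj p) (θ : Mt.AmpIso Γ Λ n p) :
    (Mt.Canon θ ∧ Mt.trM p = 1) ∨ ∀ (x : Γ) (k : ℕ) (y : Γ₁), x ^ k = j y → y ≠ 1 →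
      IsNilpotent (((y : SpecialLinearGroup (Fin N) ℤ) : Matrix (Fin N) (Fin N) ℤ) - 1) →
      Mt.HV θ x := by
  have hG : Mt.ICC Γ := H381.ricc_icc hR
  rcases H381.sub_all hL hp θ with h | h
  · exact Or.inl ⟨h.1, h.2.1⟩
  right
  intro x k y hxy hy hnil
  have ha := aframe_of hG (isProj_opM hp) (ofMt θ)
  by_contra hnot
  have hnot' : ¬ Tendsto (fun M : ℕ => (∑ i ∈ Finset.range M,
      hgA ((ofMt θ).toFun (H160.St.u (x ^ (i + 1))))) / M) atTop (𝓝 0) := by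
    intro h2
    apply hnot
    refine h2.congr fun M => ?_
    congr 1
    refine Finset.sum_congr rfl fun i _ => ?_
    rw [ofMt_apply]
    exact hgA_opM (θ.map_mem _ ((inL_iff _).mpr (lam_mem_LG _))).1
  obtain ⟨c, hc0, hlow⟩ := lower_of_heightsc (inc_rgp ha.p_adj ha.p_idem)
    (dec_Rp (H := rgp (opM p)) (m := n)) ha hN (sepKc hN hj hc hR) x k y hxy hy hnil hnot'
  have hF : ∀ g, f4 ((ofMt θ).toFun (H160.St.u g)) = Mt.four (θ.toFun (H160.St.u g)) := fun g => by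
    rw [← four_eq ((Vale.Agent.P092.H367.inM_iff _).mpr (ha.eqv g)), ofMt_apply, four_opM]
  have hm : j.range.map (MonoidHom.id Γ) = j.range := Subgroup.map_id _
  obtain ⟨g, hg, hs⟩ := (h Γ (MonoidHom.id Γ) j.range
    (by rw [hm]; exact adm_of_comm hR hc _)).2 {1} c hc0
  obtain ⟨g, rfl⟩ := hg
  have h1 := hs 1 (Finset.mem_singleton_self _) 1 (Finset.mem_singleton_self _)
  rw [one_mul, mul_one, MonoidHom.id_apply] at h1
  have h2 := hlow g
  rw [hF] at h2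
  linarith

end Vale.Agent.P092.R2.H289
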