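import Vale.Agent.P092.R3.H367.CommHt
import Vale.Agent.P092.R3.H367.UniPow

/-!
Groups of rational matrices commensurable with `SL_N(ℤ)`, `N ≥ 3`: an isomorphism onto a corner of
matrices over `L(Λ)` is canonical, or the heights vanish on average along every element with a
nontrivial unipotent power.
-/

set_option linter.all false

open Matrix

namespace Vale.Agent.P092.H367

open Vale.Agent.P092.H381.Sg

variable {N : ℕ} {Γ : Type} [Group Γ] {j : Γ →* SpecialLinearGroup (Fin N) ℚ}

theorem inc_inj : Function.Injective (SArith.inc N) := by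
  intro a b h
  apply Subtype.ext
  apply SArith.map_inj
  exact congrArg (fun y : SpecialLinearGroup (Fin N) ℚ => (y : Matrix (Fin N) (Fin N) ℚ)) h

/-- The homomorphism of the integral elements into `Γ`. -/
theorem exists_jj (hj : Function.Injective j) : ∃ jj : j.range.comap (SArith.inc N) →* Γ,
    ∀ l, j (jj l) = SArith.inc N l := by
  have hex : ∀ l : j.range.comap (SArith.inc N), ∃ k : Γ, j k = SArith.inc N l := fun l => l.2
  choose k hk using hex
  exact ⟨{ toFun := k
           map_one' := by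
            apply hj
            rw [hk, map_one]
            exact map_one (SArith.inc N)
           map_mul' := fun a b => by
            apply hj
            rw [map_mul, hk, hk, hk]
            exact map_mul (SArith.inc N) _ _ }, hk⟩

/-- The integral elements are commensurated. -/
theorem comm_HZ (hj : Function.Injective j) (hfi : (j.range.comap (SArith.inc N)).FiniteIndex)
    (g : Γ) : (conj g (SArith.HZ j)).relIndex (SArith.HZ j) ≠ 0 := by
  obtain ⟨jj, hjj⟩ := exists_jj hj
  have hr : jj.range = SArith.HZ j := by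
    ext x
    constructor
    · rintro ⟨l, rfl⟩
      rw [Subgroup.mem_comap, hjj]
      exact ⟨l, rfl⟩
    · rintro ⟨l, hl⟩
      refine ⟨⟨l, ⟨x, hl.symm⟩⟩, hj ?_⟩
      rw [hjj, hl]
  obtain ⟨n, hn, hc⟩ := SArith.conj_mem (j g)
  haveI : NeZero n := ⟨hn.ne'⟩
  have hF : ((SArith.cong N n).subgroupOf (j.range.comap (SArith.inc N))).FiniteIndex :=
    Subgroup.instFiniteIndex_subgroupOf _ _
  have hle : (SArith.cong N n).subgroupOf (j.range.comap (SArith.inc N)) ≤
      (conj g (SArith.HZ j)).comap jj := by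
    intro l hl
    rw [Subgroup.mem_comap]
    refine H381.mem_conj.mpr ?_
    rw [Subgroup.mem_comap, map_mul, map_mul, map_inv, hjj]
    exact hc _ hl
  have h1 : ((conj g (SArith.HZ j)).comap jj).index ≠ 0 :=
    (Subgroup.finiteIndex_of_le hle).index_ne_zero
  rw [Subgroup.index_comap, hr] at h1
  exact h1

theorem ricc_HZ (hN : 2 ≤ N) (hj : Function.Injective j)
    (hfi : (j.range.comap (SArith.inc N)).FiniteIndex)
    (hΓ : ∀ g, (j g : Matrix (Fin N) (Fin N) ℚ) ≠ -1) : RICC (SArith.HZ j) := by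
  intro x hx
  refine (SArith.rel_icc j hN hj hfi hΓ {1} x hx).mono ?_
  rintro y ⟨k, hk, rfl⟩
  refine ⟨k, ?_, rfl⟩
  have := hk 1 (Finset.mem_singleton_self _)
  simpa using this

/-- The dichotomy for corners of matrices over `L(Λ)`, for groups of rational matrices. -/
theorem canon_or_heightsQ (hN : 3 ≤ N) (j : Γ →* SpecialLinearGroup (Fin N) ℚ)
    (hj : Function.Injective j) (hfi : (j.range.comap (SArith.inc N)).FiniteIndex)
    (hΓ : ∀ g, (j g : Matrix (Fin N) (Fin N) ℚ) ≠ -1)
    {Λ : Type} [Group Λ] (hL : Mt.ICC Λ)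
    {n : ℕ} {p : Mt.Mat n Λ} (hp : Mt.IsProj p) (θ : Mt.AmpIso Γ Λ n p) :
    (Mt.Canon θ ∧ Mt.trM p = 1) ∨ ∀ (x : Γ) (k : ℕ), x ^ k ≠ 1 →
      IsNilpotent ((j (x ^ k) : Matrix (Fin N) (Fin N) ℚ) - 1) → Mt.HV θ x := by
  obtain ⟨jj, hjj⟩ := exists_jj hj
  have hjinj : Function.Injective jj := by
    intro a b h
    apply Subtype.ext
    apply inc_inj
    rw [← hjj, ← hjj, h]
  have hr : jj.range = SArith.HZ j := by
    ext x
    constructor
    · rintro ⟨l, rfl⟩
      rw [Subgroup.mem_comap, hjj]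
      exact ⟨l, rfl⟩
    · rintro ⟨l, hl⟩
      refine ⟨⟨l, ⟨x, hl.symm⟩⟩, hj ?_⟩
      rw [hjj, hl]
  haveI := hfi
  rcases R2.H289.canon_or_heightsc hN (j.range.comap (SArith.inc N)) jj hjinj
    (by rw [hr]; exact ricc_HZ (by omega) hj hfi hΓ)
    (by rw [hr]; exact comm_HZ hj hfi) hL hp θ with h | h
  · exact Or.inl h
  right
  intro x k hx hnil
  obtain ⟨M, hM⟩ : ∃ M : Matrix (Fin N) (Fin N) ℚ,
    M = (j (x ^ k) : Matrix (Fin N) (Fin N) ℚ) - 1 := ⟨_, rfl⟩
  rw [← hM] at hnil
  have hxM : (j (x ^ k) : Matrix (Fin N) (Fin N) ℚ) = 1 + M := by rw [hM]; abel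
  obtain ⟨m, hm, B, hB⟩ := SArith.exists_int_pow hnil
  have hM0 : M ≠ 0 := by
    intro h0
    apply hx
    apply hj
    apply Subtype.ext
    rw [hxM, h0, add_zero, map_one]
    rfl
  have hpow : (j (x ^ (k * m)) : Matrix (Fin N) (Fin N) ℚ) = B.map (Int.cast : ℤ → ℚ) := by
    rw [pow_mul, map_pow, hB, ← hxM]
    rfl
  have hdet : B.det = 1 := by
    have h1 : ((B.det : ℤ) : ℚ) = 1 := by
      have h2 := RingHom.map_det (Int.castRingHom ℚ) B
      have h3 : (RingHom.mapMatrix (m := Fin N) (Int.castRingHom ℚ)) B =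
          B.map (Int.cast : ℤ → ℚ) := rfl
      rw [h3, ← hpow] at h2
      have h4 : (j (x ^ (k * m)) : Matrix (Fin N) (Fin N) ℚ).det = 1 := (j (x ^ (k * m))).2
      rw [h4] at h2
      exact h2
    exact_mod_cast h1
  obtain ⟨b, hb⟩ : ∃ b : SpecialLinearGroup (Fin N) ℤ, (b : Matrix (Fin N) (Fin N) ℤ) = B :=
    ⟨⟨B, hdet⟩, rfl⟩
  have hinc : SArith.inc N b = j (x ^ (k * m)) := by
    apply Subtype.ext
    change (b : Matrix (Fin N) (Fin N) ℤ).map (Int.cast : ℤ → ℚ) = _
    rw [hb]
    exact hpow.symm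
  have hmem : b ∈ j.range.comap (SArith.inc N) := ⟨x ^ (k * m), hinc.symm⟩
  have hne : (⟨b, hmem⟩ : j.range.comap (SArith.inc N)) ≠ 1 := by
    intro h1
    have h2 : b = 1 := congrArg Subtype.val h1
    rw [h2, map_one] at hinc
    apply SArith.pow_ne_one hnil hM0 hm
    rw [← hxM]
    have h3 : j (x ^ k) ^ m = 1 := by rw [← map_pow, ← pow_mul]; exact hinc.symm
    exact congrArg (fun y : SpecialLinearGroup (Fin N) ℚ => (y : Matrix (Fin N) (Fin N) ℚ)) h3
  refine h x (k * m) ⟨b, hmem⟩ ?_ hne ?_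
  · apply hj
    rw [hjj]
    exact hinc.symm
  · -- the integral power is unipotent
    have h1 : IsNilpotent (((1 : Matrix (Fin N) (Fin N) ℚ) + M) ^ m - 1) := by
      have hcomm : Commute M (∑ i ∈ Finset.range m, (1 + M) ^ i) := by
        refine Commute.sum_right _ _ _ fun i _ => ?_
        exact ((Commute.one_right M).add_right (Commute.refl M)).pow_right i
      have h2 := mul_geom_sum (1 + M) m
      rw [add_sub_cancel_left] at h2
      rw [← h2]
      exact hcomm.isNilpotent_mul_right hnil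
    obtain ⟨r, hr⟩ := h1
    refine ⟨r, ?_⟩
    apply SArith.map_inj
    have h3 : ((B - 1) ^ r).map (Int.cast : ℤ → ℚ) = (B.map (Int.cast : ℤ → ℚ) - 1) ^ r := by
      have h4 := map_pow (RingHom.mapMatrix (m := Fin N) (Int.castRingHom ℚ)) (B - 1) r
      rw [map_sub, map_one] at h4
      exact h4
    change (((b : Matrix (Fin N) (Fin N) ℤ) - 1) ^ r).map (Int.cast : ℤ → ℚ) =
      (0 : Matrix (Fin N) (Fin N) ℤ).map Int.cast
    rw [hb, h3, hB, hr]
    ext a b
    simp

end Vale.Agent.P092.H367
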