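import Vale.Agent.P092.H885.StDefs2
import Vale.Agent.P092.H885.KDefs

/-!
Definitions used in the statement for amplifications (P092), in elementary form: matrices over
`L(Λ)`, corners, `*`-isomorphisms from `L(Γ)` onto a corner, the canonical form.
-/

namespace Vale.Agent.P092.H367.Mt

open Vale.Agent.P092.H160 Vale.Agent.P092.H160.St Vale.Agent.P092.H885

variable {Γ Λ : Type} [Group Γ] [Group Λ] {n : ℕ}

/-- Every nontrivial conjugacy class is infinite. -/
def ICC (G : Type) [Group G] : Prop :=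
  ∀ g : G, g ≠ 1 → Set.Infinite {y : G | ∃ h, y = h * g * h⁻¹}

/-- Matrices of size `n + 1` whose entries are bounded operators on `ℓ²(Λ)`. -/
def Mat (n : ℕ) (Λ : Type) : Type := Fin (n + 1) → Fin (n + 1) → Op Λ

/-- Membership in `M_{n+1}(L(Λ))`: all entries are in `L(Λ)`. -/
def InM (A : Mat n Λ) : Prop := ∀ i j, InL (A i j)

/-- The matrix product. -/
noncomputable def mmul (A B : Mat n Λ) : Mat n Λ := fun i j => ∑ k, mul (A i k) (B k j)

/-- The matrix sum. -/
noncomputable def madd (A B : Mat n Λ) : Mat n Λ := fun i j => add (A i j) (B i j)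

/-- `B` is the multiple `c A`. -/
def MSmul (c : ℂ) (A B : Mat n Λ) : Prop := ∀ i j, IsSmul c (A i j) (B i j)

/-- `B` is the adjoint matrix `A*`. -/
def MAdj (A B : Mat n Λ) : Prop := ∀ i j, IsAdj (A i j) (B j i)

/-- The trace `Tr ⊗ τ`. -/
noncomputable def trM (A : Mat n Λ) : ℂ := ∑ i, St.tr (A i i)

/-- The sum of the fourth powers of the absolute values of all the coefficients:
`∑_{i,j} ∑_s |τ(A_ij u_s*)|⁴`. -/
noncomputable def four (A : Mat n Λ) : ℝ := ∑ i, ∑ j, fourth (A i j)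

/-- `p` is a nonzero projection of `M_{n+1}(L(Λ))`. -/
structure IsProj (p : Mat n Λ) : Prop where
  mem : InM p
  adj : MAdj p p
  idem : mmul p p = p
  ne : ∃ i j ξ, ap (p i j) ξ ≠ 0

/-- Membership in the corner `p M_{n+1}(L(Λ)) p`. -/
def InC (p A : Mat n Λ) : Prop := InM A ∧ mmul p A = A ∧ mmul A p = A

/-- A `*`-isomorphism from `L(Γ)` onto the corner `p M_{n+1}(L(Λ)) p`. -/
structure AmpIso (Γ Λ : Type) [Group Γ] [Group Λ] (n : ℕ) (p : Mat n Λ) where
  /-- the map (only its values on `L(Γ)` matter) -/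
  toFun : Op Γ → Mat n Λ
  /-- the inverse map (only its values on the corner matter) -/
  invFun : Mat n Λ → Op Γ
  map_mem : ∀ T, InL T → InC p (toFun T)
  inv_mem : ∀ A, InC p A → InL (invFun A)
  left_inv : ∀ T, InL T → invFun (toFun T) = T
  right_inv : ∀ A, InC p A → toFun (invFun A) = A
  map_add : ∀ S T, InL S → InL T → toFun (add S T) = madd (toFun S) (toFun T)
  map_smul : ∀ c S T, InL S → InL T → IsSmul c S T → MSmul c (toFun S) (toFun T)
  map_mul : ∀ S T, InL S → InL T → toFun (mul S T) = mmul (toFun S) (toFun T)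
  map_adj : ∀ S T, InL S → InL T → IsAdj S T → MAdj (toFun S) (toFun T)

/-- `θ : L(Γ) → p M_{n+1}(L(Λ)) p` is canonical: for a group isomorphism `δ : Γ → Λ`, a character
`χ : Γ → 𝕋` and a column `w = (w_0,…,w_n)` over `L(Λ)` (with `w' i = w_i*`),
`w* w = ∑_i w_i* w_i = 1`, `w w* = p` and `θ(u_g) = χ(g) w v_{δ(g)} w*`, entry by entry. -/
def Canon {p : Mat n Λ} (θ : AmpIso Γ Λ n p) : Prop :=
  ∃ (δ : Γ ≃* Λ) (χ : Γ →* Circle) (w w' : Fin (n + 1) → Op Λ),
    (∀ i, InL (w i)) ∧ (∀ i, IsAdj (w i) (w' i)) ∧ (∑ i, mul (w' i) (w i)) = u 1 ∧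
    (∀ i j, p i j = mul (w i) (w' j)) ∧
    ∀ (g : Γ) (i j : Fin (n + 1)),
      IsSmul (χ g) (mul (mul (w i) (u (δ g))) (w' j)) (θ.toFun (u g) i j)

/-- The uniform gap with constant `δ` for the finite set `Q ⊂ Γ`: for every ICC group `Λ`, every
nonzero projection `p` of a matrix algebra `M_{n+1}(L(Λ))` and every `*`-isomorphism `θ` of `L(Γ)`
onto `p M_{n+1}(L(Λ)) p`, either the trace of `p` is `1` and `θ` is canonical, or the fourth power
sums `F(g)` of `θ(u_g)` satisfy `F(s) ≤ F(1)(1-δ)` for some `s ∈ Q` and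
`A^k[g ↦ F(agb)](1) ≤ F(1)(1-δ)^k` for all `a`, `b`, `k` (note `F(1) = four p`). -/
def UGap (Γ : Type) [Group Γ] (Q : Finset Γ) (δ : ℝ) : Prop :=
  ∀ (Λ : Type) [Group Λ], ICC Λ → ∀ (n : ℕ) (p : Mat n Λ), IsProj p →
    ∀ θ : AmpIso Γ Λ n p, (Canon θ ∧ trM p = 1) ∨
      ((∃ s ∈ Q, four (θ.toFun (u s)) ≤ four p * (1 - δ)) ∧
        ∀ (a b : Γ) (k : ℕ),
          (avg Q)^[k] (fun g => four (θ.toFun (u (a * g * b)))) 1 ≤ four p * (1 - δ) ^ k)

end Vale.Agent.P092.H367.Mt
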