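import Vale.Agent.P092.R3.H367.SArithSp
import Vale.Agent.P092.R3.H367.StMat
import Vale.Agent.P092.R3.H381.Sub1
import Vale.Agent.P092.R3.H423.StHt
import Vale.Agent.P092.R3.H367.UniPowG

/-!
Groups of rational matrices commensurable with `Sp_{2N}(ℤ)`, `N ≥ 3`: an isomorphism onto a corner of
matrices over `L(Λ)` is canonical, or the heights vanish on average along every element with a
nontrivial unipotent power.
-/

set_option linter.all false

open Matrix

namespace Vale.Agent.P092.H367.Sq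

open Vale.Agent.P092.H381.Sg

variable {N : ℕ} {Γ : Type} [Group Γ] {j : Γ →* symplecticGroup (Fin N) ℚ}

theorem inc_inj : Function.Injective (SpArith.inc N) := by
  intro a b h
  apply Subtype.ext
  apply SpArith.map_inj
  exact congrArg (fun y : symplecticGroup (Fin N) ℚ => (y : Matrix (Fin N ⊕ Fin N) (Fin N ⊕ Fin N) ℚ)) h

/-- The homomorphism of the integral elements into `Γ`. -/
theorem exists_jj (hj : Function.Injective j) : ∃ jj : j.range.comap (SpArith.inc N) →* Γ,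
    ∀ l, j (jj l) = SpArith.inc N l := by
  have hex : ∀ l : j.range.comap (SpArith.inc N), ∃ k : Γ, j k = SpArith.inc N l := fun l => l.2
  choose k hk using hex
  exact ⟨{ toFun := k
           map_one' := by
            apply hj
            rw [hk, map_one]
            exact map_one (SpArith.inc N)
           map_mul' := fun a b => by
            apply hj
            rw [map_mul, hk, hk, hk]
            exact map_mul (SpArith.inc N) _ _ }, hk⟩

theorem range_jj (hj : Function.Injective j) (jj : j.range.comap (SpArith.inc N) →* Γ)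
    (hjj : ∀ l, j (jj l) = SpArith.inc N l) : jj.range = SpArith.HZ j := by
  ext x
  constructor
  · rintro ⟨l, rfl⟩
    rw [Subgroup.mem_comap, hjj]
    exact ⟨l, rfl⟩
  · rintro ⟨l, hl⟩
    refine ⟨⟨l, ⟨x, hl.symm⟩⟩, hj ?_⟩
    rw [hjj, hl]

/-- The integral elements are commensurated. -/
theorem comm_HZ (hj : Function.Injective j) (hfi : (j.range.comap (SpArith.inc N)).FiniteIndex)
    (g : Γ) : (conj g (SpArith.HZ j)).relIndex (SpArith.HZ j) ≠ 0 := by
  obtain ⟨jj, hjj⟩ := exists_jj hj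
  have hr : jj.range = SpArith.HZ j := by
    ext x
    constructor
    · rintro ⟨l, rfl⟩
      rw [Subgroup.mem_comap, hjj]
      exact ⟨l, rfl⟩
    · rintro ⟨l, hl⟩
      refine ⟨⟨l, ⟨x, hl.symm⟩⟩, hj ?_⟩
      rw [hjj, hl]
  obtain ⟨n, hn, hc⟩ := SpArith.conj_mem (j g)
  haveI : NeZero n := ⟨hn.ne'⟩
  have hF : ((SpArith.cong N n).subgroupOf (j.range.comap (SpArith.inc N))).FiniteIndex :=
    Subgroup.instFiniteIndex_subgroupOf _ _
  have hle : (SpArith.cong N n).subgroupOf (j.range.comap (SpArith.inc N)) ≤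
      (conj g (SpArith.HZ j)).comap jj := by
    intro l hl
    rw [Subgroup.mem_comap]
    refine H381.mem_conj.mpr ?_
    rw [Subgroup.mem_comap, map_mul, map_mul, map_inv, hjj]
    exact hc _ hl
  have h1 : ((conj g (SpArith.HZ j)).comap jj).index ≠ 0 :=
    (Subgroup.finiteIndex_of_le hle).index_ne_zero
  rw [Subgroup.index_comap, hr] at h1
  exact h1

theorem ricc_HZ (hj : Function.Injective j)
    (hfi : (j.range.comap (SpArith.inc N)).FiniteIndex)
    (hΓ : ∀ g, (j g : Matrix (Fin N ⊕ Fin N) (Fin N ⊕ Fin N) ℚ) ≠ -1) : RICC (SpArith.HZ j) := by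
  intro x hx
  refine (SpArith.rel_icc j hj hfi hΓ {1} x hx).mono ?_
  rintro y ⟨k, hk, rfl⟩
  refine ⟨k, ?_, rfl⟩
  have := hk 1 (Finset.mem_singleton_self _)
  simpa using this

/-- From the integral to the rational unipotent elements. -/
theorem heights_rat (hj : Function.Injective j)
    {Λ : Type} [Group Λ] {n : ℕ} {p : Mt.Mat n Λ} (θ : Mt.AmpIso Γ Λ n p)
    (jj : j.range.comap (SpArith.inc N) →* Γ) (hjj : ∀ l, j (jj l) = SpArith.inc N l)
    (h : ∀ (x : Γ) (k : ℕ) (y : j.range.comap (SpArith.inc N)), x ^ k = jj y → y ≠ 1 →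
      IsNilpotent (((y : symplecticGroup (Fin N) ℤ) :
        Matrix (Fin N ⊕ Fin N) (Fin N ⊕ Fin N) ℤ) - 1) → Mt.HV θ x) :
    ∀ (x : Γ) (k : ℕ), x ^ k ≠ 1 →
      IsNilpotent ((j (x ^ k) : Matrix (Fin N ⊕ Fin N) (Fin N ⊕ Fin N) ℚ) - 1) → Mt.HV θ x := by
  intro x k hx hnil
  obtain ⟨M, hM⟩ : ∃ M : Matrix (Fin N ⊕ Fin N) (Fin N ⊕ Fin N) ℚ,
    M = (j (x ^ k) : Matrix (Fin N ⊕ Fin N) (Fin N ⊕ Fin N) ℚ) - 1 := ⟨_, rfl⟩
  rw [← hM] at hnil
  have hxM : (j (x ^ k) : Matrix (Fin N ⊕ Fin N) (Fin N ⊕ Fin N) ℚ) = 1 + M := by rw [hM]; abel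
  obtain ⟨m, hm, B, hB⟩ := GArith.exists_int_pow hnil
  have hM0 : M ≠ 0 := by
    intro h0
    apply hx
    apply hj
    apply Subtype.ext
    rw [hxM, h0, add_zero, map_one]
    rfl
  have hpow : (j (x ^ (k * m)) : Matrix (Fin N ⊕ Fin N) (Fin N ⊕ Fin N) ℚ) = B.map (Int.cast : ℤ → ℚ) := by
    rw [pow_mul, map_pow, hB, ← hxM]
    rfl
  have hsp : B ∈ symplecticGroup (Fin N) ℤ := by
    rw [SymplecticGroup.mem_iff]
    apply SpArith.map_inj
    have h2 := SymplecticGroup.mem_iff.mp (j (x ^ (k * m))).2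
    rw [hpow, ← SpArith.map_J (Int.castRingHom ℚ)] at h2
    have h3 : (B * J (Fin N) ℤ * Bᵀ).map (Int.castRingHom ℚ) =
        (J (Fin N) ℤ).map (Int.castRingHom ℚ) := by
      rw [Matrix.map_mul, Matrix.map_mul, Matrix.transpose_map]
      exact h2
    exact h3
  obtain ⟨b, hb⟩ : ∃ b : symplecticGroup (Fin N) ℤ, (b : Matrix (Fin N ⊕ Fin N) (Fin N ⊕ Fin N) ℤ) = B :=
    ⟨⟨B, hsp⟩, rfl⟩
  have hinc : SpArith.inc N b = j (x ^ (k * m)) := by
    apply Subtype.ext
    change (b : Matrix (Fin N ⊕ Fin N) (Fin N ⊕ Fin N) ℤ).map (Int.cast : ℤ → ℚ) = _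
    rw [hb]
    exact hpow.symm
  have hmem : b ∈ j.range.comap (SpArith.inc N) := ⟨x ^ (k * m), hinc.symm⟩
  have hne : (⟨b, hmem⟩ : j.range.comap (SpArith.inc N)) ≠ 1 := by
    intro h1
    have h2 : b = 1 := congrArg Subtype.val h1
    rw [h2, map_one] at hinc
    apply GArith.pow_ne_one hnil hM0 hm
    rw [← hxM]
    have h3 : j (x ^ k) ^ m = 1 := by rw [← map_pow, ← pow_mul]; exact hinc.symm
    exact congrArg (fun y : symplecticGroup (Fin N) ℚ => (y : Matrix (Fin N ⊕ Fin N) (Fin N ⊕ Fin N) ℚ)) h3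
  refine h x (k * m) ⟨b, hmem⟩ ?_ hne ?_
  · apply hj
    rw [hjj]
    exact hinc.symm
  · rw [hb]
    exact GArith.nil_of_pow hnil hB

end Vale.Agent.P092.H367.Sq
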