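import Vale.Agent.P092.R3.H367.Can

/-!
The canonical form gives a nonzero cubic intertwiner.
-/

set_option linter.all false

open scoped InnerProductSpace
open Filter Topology ContinuousLinearMap

namespace Vale.Agent.P092.H367

open Vale.Agent.P092.H160

section conv

variable {I Λ Γ : Type} [Fintype I] [Group Λ] [Group Γ]
  {p : Ell2 (I × Λ) →L[ℂ] Ell2 (I × Λ)} {α : Γ → (Ell2 (I × Λ) →L[ℂ] Ell2 (I × Λ))}

/-- the cube `w ⊗ w̄ ⊗ w` -/
noncomputable def w3 (w : Ell2 Λ →L[ℂ] Ell2 (I × Λ)) :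
    Ell2 (Λ × Λ × Λ) →L[ℂ] Ell2 ((I × Λ) × (I × Λ) × (I × Λ)) := tens w (tens (bar w) w)

theorem w3_dl (w : Ell2 Λ →L[ℂ] Ell2 (I × Λ)) (k : Λ) :
    w3 w (D0 Λ (dl k)) = tv (w (dl k)) (tv (cj (w (dl k))) (w (dl k))) := by
  rw [D0_dl, w3, tens_dl, tens_dl, bar_dl]

theorem canW_itw (hα : AFrame p α) (hc : CanW p α) :
    ∃ T : Ell2 (I × Λ) →L[ℂ] Ell2 ((I × Λ) × (I × Λ) × (I × Λ)), Itw3 α T ∧ T ≠ 0 := by
  obtain ⟨δ, χ, w, hw, h1, h2, h3⟩ := hc
  have hw1 : ∀ x, adjoint w (w x) = x := fun x => DFunLike.congr_fun h1 x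
  have hw2 : ∀ x, w (adjoint w x) = p x := fun x => DFunLike.congr_fun h2 x
  have hwp : adjoint w ∘L p = adjoint w := by
    rw [← h2]
    apply ContinuousLinearMap.ext
    intro x
    exact hw1 _
  have hαw : ∀ g x, α g (w x) = (χ g : ℂ) • w (lam (δ g) x) := by
    intro g x
    rw [h3 g]
    change (χ g : ℂ) • w (lam (δ g) (adjoint w (w x))) = _
    rw [hw1]
  have hadjR : ∀ s x, adjoint w (Rr I s x) = rho s (adjoint w x) := by
    intro s x
    refine ext_inner_left ℂ fun u => ?_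
    have e1 : adjoint (Rr I s⁻¹) = Rr I s := by rw [adjoint_Rr, inv_inv]
    have e2 : adjoint (rho s⁻¹ : Ell2 Λ →L[ℂ] Ell2 Λ) = rho s := by
      have := regRep_rho.adj s⁻¹ (G := Λ)
      rw [inv_inv] at this
      exact this
    rw [adjoint_inner_right, ← e1, ← e2, adjoint_inner_right, adjoint_inner_right,
      adjoint_inner_right, hw]
  set T : Ell2 (I × Λ) →L[ℂ] Ell2 ((I × Λ) × (I × Λ) × (I × Λ)) := w3 w ∘L D0 Λ ∘L adjoint w
    with hT
  have hTap : ∀ x, T x = w3 w (D0 Λ (adjoint w x)) := fun x => rfl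
  have hTw : ∀ k, T (w (dl k)) = tv (w (dl k)) (tv (cj (w (dl k))) (w (dl k))) := fun k => by
    rw [hTap, hw1, w3_dl]
  -- the relation `T α(g) = A3(g) T`
  have key : ∀ g, T ∘L α g = A3 α (g, g, g) ∘L T := by
    intro g
    have hkey : (T ∘L α g) ∘L w = (A3 α (g, g, g) ∘L T) ∘L w := by
      apply op_ext
      intro k
      change T (α g (w (dl k))) = A3 α (g, g, g) (T (w (dl k)))
      have e1 : A3 α (g, g, g) (tv (w (dl k)) (tv (cj (w (dl k))) (w (dl k)))) =
          tv (α g (w (dl k))) (tv (bar (α g) (cj (w (dl k)))) (α g (w (dl k)))) := by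
        change tens (α g) (tens (bar (α g)) (α g)) _ = _
        rw [tens_tv, tens_tv]
      rw [hTw, e1, bar_cj, hαw, lam_dl, map_smul, hTw, cj_smul, tv_smul_left, tv_smul_left,
        tv_smul_right, tv_smul_right, tv_smul_right, smul_smul, smul_smul]
      congr 1
      have hz : (starRingEnd ℂ) (χ g : ℂ) * (χ g : ℂ) = 1 := by
        rw [mul_comm, Complex.mul_conj, Circle.normSq_coe, Complex.ofReal_one]
      rw [mul_assoc, hz, mul_one]
    have h4 : ∀ x, (T ∘L α g) (p x) = (A3 α (g, g, g) ∘L T) (p x) := by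
      intro x
      rw [← hw2]
      exact DFunLike.congr_fun hkey (adjoint w x)
    have hTp : ∀ x, T (p x) = T x := by
      intro x
      rw [hTap, hTap]
      congr 2
      exact DFunLike.congr_fun hwp x
    apply ContinuousLinearMap.ext
    intro x
    have h5 := h4 x
    change T (α g (p x)) = A3 α (g, g, g) (T (p x)) at h5
    rw [hTp, ← mul_ap (α g) p, hα.mul_p] at h5
    exact h5
  have hTp : T ∘L p = T := by
    apply ContinuousLinearMap.ext
    intro x
    change w3 w (D0 Λ ((adjoint w ∘L p) x)) = _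
    rw [hwp]
    rfl
  refine ⟨T, ⟨?_, ?_⟩, ?_⟩
  · intro s x
    rw [hTap, hTap, hadjR]
    have hk : (w3 w ∘L D0 Λ) ∘L rho s = R3H I Λ s ∘L (w3 w ∘L D0 Λ) := by
      apply op_ext
      intro k
      change w3 w (D0 Λ (rho s (dl k))) = R3H I Λ s (w3 w (D0 Λ (dl k)))
      have e3 : rho s (dl k) = (dl (k * s⁻¹) : Ell2 Λ) := by rw [rho, rei_dl]; rfl
      rw [w3_dl, R3H_apply, tens_tv, tens_tv, e3, w3_dl, ← e3, hw]
      congr 2
    exact DFunLike.congr_fun hk _
  · intro g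
    have e5 : A3 α (g, g, g) ∘L T ∘L α g⁻¹ = (A3 α (g, g, g) ∘L T) ∘L α g⁻¹ := rfl
    have e6 : α g ∘L α g⁻¹ = p := by
      have := hα.mul g g⁻¹
      rw [mul_inv_cancel, hα.one] at this
      exact this.symm
    rw [e5, ← key g]
    change T ∘L (α g ∘L α g⁻¹) = T
    rw [e6, hTp]
  · intro h0
    have h6 := hTw 1
    rw [h0, zero_apply] at h6
    have h7 := congrArg (fun x => ‖x‖) h6
    have hn : ‖w (dl 1)‖ = 1 := by
      have h8 : adjoint w ∘L w = ContinuousLinearMap.id ℂ _ := h1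
      rw [norm_of_adj_comp h8, norm_dl]
    change ‖(0 : Ell2 ((I × Λ) × (I × Λ) × (I × Λ)))‖ = ‖_‖ at h7
    rw [norm_tv, norm_tv, norm_cj, hn, norm_zero] at h7
    norm_num at h7

end conv

end Vale.Agent.P092.H367
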