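import Vale.Agent.P092.R3.H367.Base
import Vale.Agent.P092.H160.Cube

/-!
The cubic operators `T_g = (α(g) ⊗ conj α(g) ⊗ α(g)) T_0 α(g)*` of an amplified frame: either the
closed convex hull of the `T_g` contains zero, or there is a nonzero bounded intertwiner.
-/

set_option linter.all false

open scoped InnerProductSpace
open Filter Topology ContinuousLinearMap

namespace Vale.Agent.P092.H367

open Vale.Agent.P092.H160

section contr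

variable {H : Type} [NormedAddCommGroup H] [InnerProductSpace ℂ H] [CompleteSpace H]

theorem contr_of {B P : H →L[ℂ] H} (h : adjoint B * B = P) (h1 : adjoint P = P)
    (h2 : P * P = P) (v : H) : ‖B v‖ ≤ ‖v‖ := by
  have e1 : ⟪B v, B v⟫_ℂ = ⟪v, P v⟫_ℂ := by
    rw [← adjoint_inner_right, ← mul_ap, h]
  have e2 : ⟪P v, P v⟫_ℂ = ⟪v, P v⟫_ℂ := by
    conv_lhs => rw [← adjoint_inner_right, h1, ← mul_ap, h2]
  have e3 : ‖P v‖ ≤ ‖v‖ := by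
    have h3 : ‖P v‖ ^ 2 ≤ ‖v‖ * ‖P v‖ := by
      have h4 := norm_inner_le_norm (𝕜 := ℂ) v (P v)
      rw [← e2, inner_self_eq_norm_sq_to_K] at h4
      simpa using h4
    by_contra hcon
    push Not at hcon
    have h5 : 0 < ‖P v‖ := (norm_nonneg _).trans_lt hcon
    nlinarith
  have h5 : ‖B v‖ ^ 2 = ‖P v‖ ^ 2 := by
    have h6 : ⟪B v, B v⟫_ℂ = ⟪P v, P v⟫_ℂ := by rw [e1, e2]
    rw [inner_self_eq_norm_sq_to_K, inner_self_eq_norm_sq_to_K] at h6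
    exact_mod_cast h6
  rw [(pow_left_inj₀ (norm_nonneg _) (norm_nonneg _) two_ne_zero).mp h5]
  exact e3

end contr

section vec

variable {I Λ : Type} [Fintype I] [Group Λ] {Y : Type}

/-- The vector of the columns of an operator. -/
noncomputable def vec : (Ell2 (I × Λ) →L[ℂ] Ell2 Y) →ₗ[ℂ] Ell2 (I × Y) where
  toFun T := ∑ i : I, tv (dl i) (T (dl (i, 1)))
  map_add' S T := by
    rw [← Finset.sum_add_distrib]
    exact Finset.sum_congr rfl fun i _ => by rw [add_apply, tv_add_right]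
  map_smul' c T := by
    rw [Finset.smul_sum]
    exact Finset.sum_congr rfl fun i _ => by
      rw [← tv_smul_right]; rfl

theorem vec_apply (T : Ell2 (I × Λ) →L[ℂ] Ell2 Y) :
    vec T = ∑ i : I, tv (dl i) (T (dl (i, 1))) := rfl

theorem inner_vec (S T : Ell2 (I × Λ) →L[ℂ] Ell2 Y) : ⟪vec S, vec T⟫_ℂ = hs S T := by
  classical
  rw [vec_apply, vec_apply, sum_inner, hs]
  refine Finset.sum_congr rfl fun i _ => ?_
  rw [inner_sum, Finset.sum_eq_single i]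
  · rw [inner_tv, inner_dl, dl_self, one_mul]
  · intro j _ hj
    rw [inner_tv, inner_dl, dl_ne hj.symm, zero_mul]
  · intro h; exact absurd (Finset.mem_univ i) h

theorem norm_vec (T : Ell2 (I × Λ) →L[ℂ] Ell2 Y) : ‖vec T‖ ^ 2 = hsn T := by
  have h1 := inner_vec T T
  rw [inner_self_eq_norm_sq_to_K, hs_self] at h1
  have h2 : ((‖vec T‖ ^ 2 : ℝ) : ℂ) = (hsn T : ℂ) := by rw [← h1]; push_cast; rfl
  exact Complex.ofReal_injective h2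

theorem sl_sum {X : Type} {J : Type} (F : Finset J) (f : J → Ell2 (X × Y)) (x : X) :
    sl (∑ j ∈ F, f j) x = ∑ j ∈ F, sl (f j) x := by
  classical
  induction F using Finset.induction_on with
  | empty => rw [Finset.sum_empty, Finset.sum_empty]; rfl
  | insert a s ha ih => rw [Finset.sum_insert ha, Finset.sum_insert ha, sl_add, ih]

theorem sl_vec (T : Ell2 (I × Λ) →L[ℂ] Ell2 Y) (i : I) : sl (vec T) i = T (dl (i, 1)) := by
  classical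
  rw [vec_apply, sl_sum, Finset.sum_eq_single i]
  · rw [sl_tv, dl_self, one_smul]
  · intro j _ hj
    rw [sl_tv, dl_ne hj.symm, zero_smul]
  · intro h; exact absurd (Finset.mem_univ i) h

end vec

section diag

variable {X : Type}

theorem orth_diagX : Orthonormal ℂ (fun x : X => (dl (x, x, x) : Ell2 (X × X × X))) := by
  refine ⟨fun s => norm_dl _, fun s t hne => ?_⟩
  change ⟪(dl (s, s, s) : Ell2 (X × X × X)), dl (t, t, t)⟫_ℂ = 0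
  rw [inner_dl, dl_ne]
  intro h
  exact hne (congrArg Prod.fst h)

/-- The isometry `δ_x ↦ δ_(x,x,x)`. -/
noncomputable def D0 (X : Type) : Ell2 X →L[ℂ] Ell2 (X × X × X) :=
  opOf (bes_of_orthonormal orth_diagX)

theorem D0_dl (x : X) : D0 X (dl x) = dl (x, x, x) := opOf_dl _ x

theorem norm_D0 (v : Ell2 X) : ‖D0 X v‖ = ‖v‖ := norm_of_adj_comp (opOf_isometry orth_diagX) v

theorem D0_adj_apply (w : Ell2 (X × X × X)) (x : X) : adjoint (D0 X) w x = w (x, x, x) := by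
  rw [← inner_dl, adjoint_inner_right, D0_dl, inner_dl]

end diag

section R3

variable {I Λ : Type} [Group Λ]

theorem R3_dl (s : Λ) (a b c : I × Λ) : R3H I Λ s (dl (a, b, c)) =
    dl ((a.1, a.2 * s⁻¹), (b.1, b.2 * s⁻¹), (c.1, c.2 * s⁻¹)) := by
  obtain ⟨a1, a2⟩ := a
  obtain ⟨b1, b2⟩ := b
  obtain ⟨c1, c2⟩ := c
  rw [R3H_apply, tens_dl, tens_dl, Rr_dl, Rr_dl, Rr_dl,
    ← dl_prod (b1, b2 * s⁻¹) (c1, c2 * s⁻¹), ← dl_prod (a1, a2 * s⁻¹)]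

theorem eqv_D0 : Eqv (R3H I Λ) (D0 (I × Λ)) := by
  intro s v
  have h : D0 (I × Λ) ∘L Rr I s = R3H I Λ s ∘L D0 (I × Λ) := by
    apply op_ext
    rintro ⟨i, x⟩
    rw [comp_apply, comp_apply, Rr_dl, D0_dl, D0_dl, R3_dl]
  exact congrArg (fun L : Ell2 (I × Λ) →L[ℂ] _ => L v) h

end R3

namespace AFrame

variable {I Λ Γ : Type} [Fintype I] [Group Λ] [Group Γ]
  {p : Ell2 (I × Λ) →L[ℂ] Ell2 (I × Λ)} {α : Γ → (Ell2 (I × Λ) →L[ℂ] Ell2 (I × Λ))}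

theorem inv_mul_self (hα : AFrame p α) (g : Γ) : α g⁻¹ * α g = p := by
  rw [← hα.mul, inv_mul_cancel, hα.one]

theorem mul_inv_self (hα : AFrame p α) (g : Γ) : α g * α g⁻¹ = p := by
  rw [← hα.mul, mul_inv_cancel, hα.one]

theorem p_mul (hα : AFrame p α) (g : Γ) : p * α g = α g := by
  rw [← hα.one, ← hα.mul, one_mul]

theorem mul_p (hα : AFrame p α) (g : Γ) : α g * p = α g := by
  rw [← hα.one, ← hα.mul, mul_one]

theorem eqv_p (hα : AFrame p α) : Eqv (RrH I Λ) p := by rw [← hα.one]; exact hα.eqv 1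

theorem norm_le (hα : AFrame p α) (g : Γ) (v : Ell2 (I × Λ)) : ‖α g v‖ ≤ ‖v‖ := by
  refine contr_of (P := p) ?_ hα.p_adj hα.p_idem v
  rw [hα.adj, hα.inv_mul_self]

theorem A3_mul (hα : AFrame p α) (y z : Γ × Γ × Γ) : A3 α y * A3 α z = A3 α (y * z) := by
  rw [A3, A3, A3, ← tens_mul, ← tens_mul, ← bar_mul, ← hα.mul, ← hα.mul, ← hα.mul]
  rfl

theorem A3_adj (hα : AFrame p α) (y : Γ × Γ × Γ) : adjoint (A3 α y) = A3 α y⁻¹ := by
  rw [A3, adjoint_tens, adjoint_tens, adjoint_bar, hα.adj, hα.adj, hα.adj]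
  rfl

theorem A3_norm_le (hα : AFrame p α) (y : Γ × Γ × Γ)
    (w : Ell2 ((I × Λ) × (I × Λ) × (I × Λ))) : ‖A3 α y w‖ ≤ ‖w‖ := by
  refine contr_of (P := A3 α 1) ?_ ?_ ?_ w
  · rw [hα.A3_adj, hα.A3_mul, inv_mul_cancel]
  · rw [hα.A3_adj, inv_one]
  · rw [hα.A3_mul, mul_one]

theorem A3_R3 (hα : AFrame p α) (y : Γ × Γ × Γ) (s : Λ)
    (w : Ell2 ((I × Λ) × (I × Λ) × (I × Λ))) :
    A3 α y (R3H I Λ s w) = R3H I Λ s (A3 α y w) := by
  have h1 : ∀ g, α g * Rr I s = Rr I s * α g := by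
    intro g
    ext1 v
    exact hα.eqv g s v
  have h2 : ∀ g, bar (α g) * Rr I s = Rr I s * bar (α g) := by
    intro g
    rw [← bar_Rr s, ← bar_mul, ← bar_mul, h1]
  have h3 : A3 α y * R3H I Λ s = R3H I Λ s * A3 α y := by
    rw [A3, R3H_apply, ← tens_mul, ← tens_mul, ← tens_mul, ← tens_mul, h1, h1, h2]
  exact congrArg (fun L : Ell2 ((I × Λ) × (I × Λ) × (I × Λ)) →L[ℂ] _ => L w) h3

end AFrame

section cubic

variable {I Λ Γ : Type} [Fintype I] [Group Λ] [Group Γ]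
  {p : Ell2 (I × Λ) →L[ℂ] Ell2 (I × Λ)} {α : Γ → (Ell2 (I × Λ) →L[ℂ] Ell2 (I × Λ))}

/-- The cubic operators. -/
noncomputable def Tg (α : Γ → (Ell2 (I × Λ) →L[ℂ] Ell2 (I × Λ))) (g : Γ) :
    Ell2 (I × Λ) →L[ℂ] Ell2 ((I × Λ) × (I × Λ) × (I × Λ)) :=
  A3 α (g, g, g) ∘L D0 (I × Λ) ∘L α g⁻¹

/-- The conjugation `T ↦ (α(g) ⊗ conj α(g) ⊗ α(g)) T α(g)*`. -/
noncomputable def cg (α : Γ → (Ell2 (I × Λ) →L[ℂ] Ell2 (I × Λ))) (g : Γ)
    (T : Ell2 (I × Λ) →L[ℂ] Ell2 ((I × Λ) × (I × Λ) × (I × Λ))) :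
    Ell2 (I × Λ) →L[ℂ] Ell2 ((I × Λ) × (I × Λ) × (I × Λ)) :=
  A3 α (g, g, g) ∘L T ∘L α g⁻¹

theorem cg_apply (g : Γ) (T : Ell2 (I × Λ) →L[ℂ] Ell2 ((I × Λ) × (I × Λ) × (I × Λ)))
    (v : Ell2 (I × Λ)) : cg α g T v = A3 α (g, g, g) (T (α g⁻¹ v)) := rfl

theorem cg_lc (g : Γ) (S T : Ell2 (I × Λ) →L[ℂ] Ell2 ((I × Λ) × (I × Λ) × (I × Λ))) (a b : ℂ) :
    cg α g (a • S + b • T) = a • cg α g S + b • cg α g T := by
  ext1 v
  change A3 α (g, g, g) (a • S (α g⁻¹ v) + b • T (α g⁻¹ v)) = _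
  rw [map_add, map_smul, map_smul]
  rfl

theorem cg_sub (g : Γ) (S T : Ell2 (I × Λ) →L[ℂ] Ell2 ((I × Λ) × (I × Λ) × (I × Λ))) :
    cg α g (S - T) = cg α g S - cg α g T := by
  ext1 v
  change A3 α (g, g, g) (S (α g⁻¹ v) - T (α g⁻¹ v)) = _
  rw [map_sub]
  rfl

variable (hα : AFrame p α)

include hα

theorem cg_eqv (g : Γ) {T : Ell2 (I × Λ) →L[ℂ] Ell2 ((I × Λ) × (I × Λ) × (I × Λ))}
    (hT : Eqv (R3H I Λ) T) : Eqv (R3H I Λ) (cg α g T) := by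
  intro s v
  rw [cg_apply, cg_apply, hα.eqv, RrH_apply, hT, hα.A3_R3]

theorem cg_cg (g h : Γ) (T : Ell2 (I × Λ) →L[ℂ] Ell2 ((I × Λ) × (I × Λ) × (I × Λ))) :
    cg α g (cg α h T) = cg α (g * h) T := by
  ext1 v
  rw [cg_apply, cg_apply, cg_apply, ← mul_ap, hα.A3_mul, ← mul_ap (α h⁻¹), ← hα.mul, mul_inv_rev]
  rfl

theorem cg_le (g : Γ) {T : Ell2 (I × Λ) →L[ℂ] Ell2 ((I × Λ) × (I × Λ) × (I × Λ))}
    (hT : ‖T‖ ≤ 1) : ‖cg α g T‖ ≤ 1 := by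
  refine opNorm_le_bound _ zero_le_one fun v => ?_
  rw [cg_apply, one_mul]
  refine (hα.A3_norm_le _ _).trans ?_
  refine (T.le_opNorm _).trans ?_
  have h1 := hα.norm_le g⁻¹ v
  calc ‖T‖ * ‖α g⁻¹ v‖ ≤ 1 * ‖v‖ := by gcongr
    _ = ‖v‖ := one_mul _

theorem hsn_mul_p {σ : Λ →* (Ell2 ((I × Λ) × (I × Λ) × (I × Λ)) →L[ℂ]
      Ell2 ((I × Λ) × (I × Λ) × (I × Λ)))} (hσ : ∀ s, adjoint (σ s) = σ s⁻¹)
    {T : Ell2 (I × Λ) →L[ℂ] Ell2 ((I × Λ) × (I × Λ) × (I × Λ))}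
    (hT : Eqv σ T) : hsn (T ∘L p) ≤ hsn T := by
  have h1 : hs (T ∘L p) (T ∘L p) = hs T (T ∘L p) := by
    rw [hs_comp hσ hT (hT.comp hα.eqv_p) hα.eqv_p, hα.p_adj]
    congr 1
    ext1 v
    change T (p (p v)) = T (p v)
    rw [← mul_ap p p, hα.p_idem]
  have h2 : ∀ i : I, ‖T (p (dl (i, 1))) - T (dl (i, 1))‖ ^ 2 =
      ‖T (p (dl (i, 1)))‖ ^ 2 - 2 * (⟪T (dl (i, 1)), T (p (dl (i, 1)))⟫_ℂ).re +
        ‖T (dl (i, 1))‖ ^ 2 := by
    intro i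
    have h3 := norm_sub_sq (𝕜 := ℂ) (T (p (dl (i, 1)))) (T (dl (i, 1)))
    have h4 : (⟪T (p (dl (i, 1))), T (dl (i, 1))⟫_ℂ).re =
        (⟪T (dl (i, 1)), T (p (dl (i, 1)))⟫_ℂ).re := by
      rw [← inner_conj_symm, Complex.conj_re]
    rw [h3, ← h4]
    rfl
  have h3 : ∑ i : I, ‖T (p (dl (i, 1))) - T (dl (i, 1))‖ ^ 2 =
      hsn (T ∘L p) - 2 * (hs T (T ∘L p)).re + hsn T := by
    rw [Finset.sum_congr rfl fun i _ => h2 i, Finset.sum_add_distrib, Finset.sum_sub_distrib,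
      ← Finset.mul_sum]
    unfold hsn hs
    rw [Complex.re_sum]
    rfl
  have h4 : (hs T (T ∘L p)).re = hsn (T ∘L p) := by
    rw [← h1, hs_self, Complex.ofReal_re]
  have h5 : 0 ≤ ∑ i : I, ‖T (p (dl (i, 1))) - T (dl (i, 1))‖ ^ 2 :=
    Finset.sum_nonneg fun _ _ => by positivity
  rw [h3, h4] at h5
  linarith

theorem hsn_cg_le (g : Γ) {T : Ell2 (I × Λ) →L[ℂ] Ell2 ((I × Λ) × (I × Λ) × (I × Λ))}
    (hT : Eqv (R3H I Λ) T) : hsn (cg α g T) ≤ hsn T := by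
  have h1 : hsn (cg α g T) ≤ hsn (T ∘L α g⁻¹) := by
    refine Finset.sum_le_sum fun i _ => ?_
    have h2 := hα.A3_norm_le (g, g, g) (T (α g⁻¹ (dl (i, 1))))
    rw [cg_apply, comp_apply]
    gcongr
  have h2 : hsn (T ∘L α g⁻¹) = hsn (T ∘L p) := by
    have h3 : hs (T ∘L α g⁻¹) (T ∘L α g⁻¹) = hs T (T ∘L p) := by
      rw [hs_comp adjoint_R3 hT (hT.comp (hα.eqv _)) (hα.eqv _), hα.adj, inv_inv]
      congr 1
      ext1 v
      change T (α g⁻¹ (α g v)) = T (p v)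
      rw [← mul_ap (α g⁻¹), hα.inv_mul_self]
    have h4 : hs (T ∘L p) (T ∘L p) = hs T (T ∘L p) := by
      rw [hs_comp adjoint_R3 hT (hT.comp hα.eqv_p) hα.eqv_p, hα.p_adj]
      congr 1
      ext1 v
      change T (p (p v)) = T (p v)
      rw [← mul_ap p p, hα.p_idem]
    rw [← h4, hs_self, hs_self] at h3
    exact_mod_cast h3
  rw [h2] at h1
  exact h1.trans (hsn_mul_p hα adjoint_R3 hT)

omit hα in
theorem Tg_eq (g : Γ) : Tg α g = cg α g (D0 (I × Λ)) := rfl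

theorem cg_Tg (g h : Γ) : cg α g (Tg α h) = Tg α (g * h) := by
  rw [Tg_eq, cg_cg hα, Tg_eq]

end cubic

namespace Itw3

variable {I Λ Γ : Type} [Fintype I] [Group Λ] [Group Γ]
  {p : Ell2 (I × Λ) →L[ℂ] Ell2 (I × Λ)} {α : Γ → (Ell2 (I × Λ) →L[ℂ] Ell2 (I × Λ))}
  {T : Ell2 (I × Λ) →L[ℂ] Ell2 ((I × Λ) × (I × Λ) × (I × Λ))}

theorem comp_p (hT : Itw3 α T) (hα : AFrame p α) : T ∘L p = T := by
  have h1 := hT.inv 1
  conv_lhs => rw [← h1]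
  ext1 v
  change A3 α (1, 1, 1) (T (α 1⁻¹ (p v))) = T v
  conv_rhs => rw [← h1]
  change _ = A3 α (1, 1, 1) (T (α 1⁻¹ v))
  rw [← mul_ap (α 1⁻¹) p, hα.mul_p]

theorem A3_one (hT : Itw3 α T) (hα : AFrame p α) : A3 α 1 ∘L T = T := by
  have h1 := hT.inv 1
  conv_lhs => rw [← h1]
  ext1 v
  change A3 α 1 (A3 α (1, 1, 1) (T (α 1⁻¹ v))) = T v
  conv_rhs => rw [← h1]
  change _ = A3 α (1, 1, 1) (T (α 1⁻¹ v))
  rw [← mul_ap (A3 α 1), hα.A3_mul, one_mul]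

theorem alpha (hT : Itw3 α T) (hα : AFrame p α) (g : Γ) : T ∘L α g = A3 α (g, g, g) ∘L T := by
  have h1 := hT.inv g
  conv_lhs => rw [← h1]
  ext1 v
  change A3 α (g, g, g) (T (α g⁻¹ (α g v))) = A3 α (g, g, g) (T v)
  rw [← mul_ap (α g⁻¹) (α g), hα.inv_mul_self]
  congr 1
  exact congrArg (fun L : Ell2 (I × Λ) →L[ℂ] _ => L v) (hT.comp_p hα)

theorem comp_p_ap (hT : Itw3 α T) (hα : AFrame p α) (v : Ell2 (I × Λ)) : T (p v) = T v :=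
  congrArg (fun L : Ell2 (I × Λ) →L[ℂ] _ => L v) (hT.comp_p hα)

theorem A3_one_ap (hT : Itw3 α T) (hα : AFrame p α) (v : Ell2 (I × Λ)) :
    A3 α 1 (T v) = T v :=
  congrArg (fun L : Ell2 (I × Λ) →L[ℂ] _ => L v) (hT.A3_one hα)

theorem alpha_ap (hT : Itw3 α T) (hα : AFrame p α) (g : Γ) (v : Ell2 (I × Λ)) :
    T (α g v) = A3 α (g, g, g) (T v) :=
  congrArg (fun L : Ell2 (I × Λ) →L[ℂ] _ => L v) (hT.alpha hα g)

end Itw3

end Vale.Agent.P092.H367
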