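import Vale.Agent.P092.R3.H367.ConvW
import Vale.Agent.P092.R3.H367.Bri
import Vale.Agent.P092.R3.H781.Tra
import Vale.Agent.P092.R3.H547.Comp
import Vale.Agent.P092.R3.H381.Low
import Vale.Agent.P092.R3.H381.Gen
import Vale.Agent.P092.R3.H381.SlnT
import Vale.Agent.P092.R3.H423.Zed
import Vale.Agent.P092.R3.H423.FinInd

/-!
The dichotomy for isomorphisms of `L(Γ)` onto corners of matrices over `L(Λ)`.
-/

set_option linter.all false

open scoped InnerProductSpace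
open Filter Topology ContinuousLinearMap

namespace Vale.Agent.P092.H367

open Vale.Agent.P092.H160 Vale.Agent.P092.H885 Vale.Agent.P092.H781

section dich

variable {I Λ Γ : Type} [Fintype I] [Group Λ] [Group Γ]
  {p : Ell2 (I × Λ) →L[ℂ] Ell2 (I × Λ)} {α : Γ → (Ell2 (I × Λ) →L[ℂ] Ell2 (I × Λ))}

/-- a nonzero intertwiner gives the canonical form -/
theorem canW_of_itw (ha : AFrame p α)
    (hG : ∀ g : Γ, g ≠ 1 → Set.Infinite {y : Γ | ∃ h, y = h * g * h⁻¹})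
    (hL : ∀ g : Λ, g ≠ 1 → Set.Infinite {y : Λ | ∃ h, y = h * g * h⁻¹})
    {T : Ell2 (I × Λ) →L[ℂ] Ell2 ((I × Λ) × (I × Λ) × (I × Λ))}
    (hT : Itw3 α T) (hT0 : T ≠ 0) : CanW p α := by
  obtain ⟨v, hv, hpv, -, hc⟩ := compare hL ha.p_adj ha.p_idem (p_eqv ha)
  obtain ⟨-, h1, h2⟩ := tr_eq_one_of ha hG hL hT hT0 hv hpv hc
  have ha' : AFrame (1 : Ell2 (Unit × Λ) →L[ℂ] Ell2 (Unit × Λ))
      (fun g => adjoint v ∘L α g ∘L v) := by
    have h3 := tra_frame ha hv h2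
    rw [h1] at h3
    exact h3
  have hT' := tra_itw ha hT hv h2
  have hT0' := tra_ne ha hT h2 hT0
  obtain ⟨c, hc, hlow⟩ := lower (tra_frame ha hv h2) hT' hT0'
  exact canon_of_v ha hG (fun s u => hv s u) h1 h2 ha' hc hlow

theorem canW_lower (ha : AFrame p α) (hc : CanW p α) : ∃ c : ℝ, 0 < c ∧ ∀ g, c ≤ f4 (α g) := by
  obtain ⟨T, hT, hT0⟩ := canW_itw ha hc
  exact lower ha hT hT0

end dich

section final

variable {Γ Λ : Type} [Group Γ] [Group Λ]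

theorem canonAmp_of_canW {n : ℕ} {p : H160.St.Op (Fin (n + 1) × Λ)} (θ : St.AmpIso Γ Λ n p)
    (h : CanW p (fun g => θ.toFun (H160.St.u g))) : St.CanonAmp θ := by
  obtain ⟨δ, χ, w, hw, h1, h2, h3⟩ := h
  exact H423.canonAmp_of θ δ χ w hw h1 h2 h3

/-- **The dichotomy.** -/
theorem main (hG : ∀ g : Γ, g ≠ 1 → Set.Infinite {y : Γ | ∃ h, y = h * g * h⁻¹})
    (hL : ∀ g : Λ, g ≠ 1 → Set.Infinite {y : Λ | ∃ h, y = h * g * h⁻¹})
    {n : ℕ} {p : H160.St.Op (Fin (n + 1) × Λ)} (hp : St.IsProj p) (θ : St.AmpIso Γ Λ n p) :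
    (St.CanonAmp θ ∧ St.trM p = 1 ∧
      ∃ c : ℝ, 0 < c ∧ ∀ g, c ≤ St.four (θ.toFun (H160.St.u g))) ∨
    ((∀ (Q : Finset Γ) (ε : ℝ), IsKazhdanPair Γ Q ε →
      (∃ s ∈ Q, St.four (θ.toFun (H160.St.u s)) ≤ St.four p * (1 - ε ^ 2 / 2)) ∧
      ∀ (a b : Γ) (k : ℕ), (avg Q)^[k] (fun g => St.four (θ.toFun (H160.St.u (a * g * b)))) 1 ≤
        St.four p * (1 - ε ^ 2 / (4 * Q.card)) ^ k) ∧
    (∀ Q : Finset Γ, Q.Nonempty → Subgroup.closure (Q : Set Γ) = ⊤ → ∀ a b : Γ,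
      Tendsto (fun k : ℕ => (avg Q)^[k] (fun g => St.four (θ.toFun (H160.St.u (a * g * b)))) 1)
        atTop (𝓝 0))) := by
  have ha := aframe_of hG hp θ
  have hF : ∀ g, St.four (θ.toFun (H160.St.u g)) = f4 (θ.toFun (H160.St.u g)) := fun g =>
    four_eq ((inM_iff _).mpr (ha.eqv g))
  have hFp : St.four p = f4 p := four_eq hp.mem
  simp only [hF, hFp]
  by_cases hT : ∃ T : Ell2 (Fin (n + 1) × Λ) →L[ℂ] Ell2 ((Fin (n + 1) × Λ) × (Fin (n + 1) × Λ) ×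
      (Fin (n + 1) × Λ)), Itw3 (fun g => θ.toFun (H160.St.u g)) T ∧ T ≠ 0
  · left
    obtain ⟨T, hT, hT0⟩ := hT
    have hc := canonAmp_of_canW θ (canW_of_itw ha hG hL hT hT0)
    exact ⟨hc, H423.trM_of_canonAmp θ hc, lower ha hT hT0⟩
  · right
    push Not at hT
    exact decay_of_no_itw ha fun T hT' => hT T hT'

end final

end Vale.Agent.P092.H367
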