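import Vale.Agent.P092.R3.H367.Kaz

/-!
An amplified frame with one row and `p = 1` is an original frame.
-/

set_option linter.all false

open scoped InnerProductSpace
open Filter Topology ContinuousLinearMap

namespace Vale.Agent.P092.H367

open Vale.Agent.P092.H160

section fr

variable {Γ Λ : Type} [Group Γ] [Group Λ]

/-- `ℓ²(Unit × Λ) ≅ ℓ²(Λ)` -/
noncomputable def jU (Λ : Type) : Ell2 (Unit × Λ) →L[ℂ] Ell2 Λ := rei (Equiv.punitProd Λ)

theorem jU_dl (h : Λ) : jU Λ (dl ((), h)) = dl h := by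
  rw [jU, rei_dl]; rfl

theorem adjoint_jU : adjoint (jU Λ) = rei (Equiv.punitProd Λ).symm := adjoint_rei _

theorem jU_adj_dl (h : Λ) : adjoint (jU Λ) (dl h) = dl ((), h) := by
  rw [adjoint_jU, rei_dl]; rfl

theorem jU_jU : adjoint (jU Λ) ∘L jU Λ = ContinuousLinearMap.id ℂ _ := by
  apply op_ext
  rintro ⟨⟨⟩, h⟩
  rw [comp_apply, jU_dl, jU_adj_dl]
  rfl

theorem jU_jU' : jU Λ ∘L adjoint (jU Λ) = ContinuousLinearMap.id ℂ _ := by
  apply op_ext
  intro h
  rw [comp_apply, jU_adj_dl, jU_dl]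
  rfl

theorem jU_rho (s : Λ) (v : Ell2 (Unit × Λ)) : jU Λ (Rr Unit s v) = rho s (jU Λ v) := by
  have h : jU Λ ∘L Rr Unit s = rho s ∘L jU Λ := by
    apply op_ext
    rintro ⟨⟨⟩, h⟩
    rw [comp_apply, comp_apply, Rr_dl, jU_dl, jU_dl, rho, rei_dl]
    rfl
  exact DFunLike.congr_fun h v

theorem jU_adj_rho (s : Λ) (v : Ell2 Λ) : adjoint (jU Λ) (rho s v) = Rr Unit s (adjoint (jU Λ) v) := by
  have h : adjoint (jU Λ) ∘L rho s = Rr Unit s ∘L adjoint (jU Λ) := by
    apply op_ext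
    intro h
    rw [comp_apply, comp_apply, jU_adj_dl, Rr_dl, rho, rei_dl, jU_adj_dl]
    rfl
  exact DFunLike.congr_fun h v

variable {α : Γ → (Ell2 (Unit × Λ) →L[ℂ] Ell2 (Unit × Λ))}

/-- the frame on `ℓ²(Λ)` -/
noncomputable def frU (ha : AFrame (1 : Ell2 (Unit × Λ) →L[ℂ] Ell2 (Unit × Λ)) α) :
    Γ →* (Ell2 Λ →L[ℂ] Ell2 Λ) where
  toFun g := jU Λ ∘L α g ∘L adjoint (jU Λ)
  map_one' := by
    rw [ha.one]
    exact jU_jU'
  map_mul' g h := by
    rw [ha.mul]
    apply ContinuousLinearMap.ext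
    intro v
    change jU Λ (α g (α h (adjoint (jU Λ) v))) =
      jU Λ (α g (adjoint (jU Λ) (jU Λ (α h (adjoint (jU Λ) v)))))
    congr 2
    exact (DFunLike.congr_fun jU_jU _).symm

theorem frU_apply (ha : AFrame (1 : Ell2 (Unit × Λ) →L[ℂ] Ell2 (Unit × Λ)) α) (g : Γ) :
    frU ha g = jU Λ ∘L α g ∘L adjoint (jU Λ) := rfl

theorem frU_ap (ha : AFrame (1 : Ell2 (Unit × Λ) →L[ℂ] Ell2 (Unit × Λ)) α) (g : Γ) (v : Ell2 Λ) :
    frU ha g v = jU Λ (α g (adjoint (jU Λ) v)) := rfl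

theorem frU_dl (ha : AFrame (1 : Ell2 (Unit × Λ) →L[ℂ] Ell2 (Unit × Λ)) α) (g : Γ) (h : Λ) :
    frU ha g (dl h) = jU Λ (α g (dl ((), h))) := by
  rw [frU_ap, jU_adj_dl]

theorem norm_jU (v : Ell2 (Unit × Λ)) : ‖jU Λ v‖ = ‖v‖ :=
  norm_of_adj_comp jU_jU v

theorem inner_jU (u v : Ell2 (Unit × Λ)) : ⟪jU Λ u, jU Λ v⟫_ℂ = ⟪u, v⟫_ℂ := by
  rw [← adjoint_inner_right]
  congr 1
  exact DFunLike.congr_fun jU_jU _

/-- **an amplified frame with one row and `p = 1` is a frame** -/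
theorem frame_frU (ha : AFrame (1 : Ell2 (Unit × Λ) →L[ℂ] Ell2 (Unit × Λ)) α) :
    Frame (frU ha) where
  comm g s := by
    apply ContinuousLinearMap.ext
    intro v
    change jU Λ (α g (adjoint (jU Λ) (rho s v))) = rho s (jU Λ (α g (adjoint (jU Λ) v)))
    rw [jU_adj_rho, ha.eqv g, RrH_apply, jU_rho]
  reg :=
    { adj := fun g => by
        rw [frU_apply, frU_apply, adjoint_comp, adjoint_comp, adjoint_adjoint, ha.adj]
        rfl
      norm_one := norm_dl 1
      inner_zero := fun g hg => by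
        have h1 := ha.orth g hg
        have h2 : Tr (α g) = ⟪(dl ((), 1) : Ell2 (Unit × Λ)), α g (dl ((), 1))⟫_ℂ := by
          unfold Tr
          rw [Finset.univ_unique, Finset.sum_singleton]
        rw [frU_dl, ← jU_dl, inner_jU, ← h2, h1]
      total := fun v hv => by
        apply ext_inner_dl
        intro h
        rw [← inner_dl]
        change ⟪(dl h : Ell2 Λ), v⟫_ℂ = 0
        have hB : Eqv (RrH Unit Λ) (rei (Equiv.prodCongr (Equiv.refl Unit) (Equiv.mulLeft h)) :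
            Ell2 (Unit × Λ) →L[ℂ] Ell2 (Unit × Λ)) := by
          intro s u
          have h3 : (rei (Equiv.prodCongr (Equiv.refl Unit) (Equiv.mulLeft h)) :
              Ell2 (Unit × Λ) →L[ℂ] Ell2 (Unit × Λ)) ∘L Rr Unit s = Rr Unit s ∘L
              rei (Equiv.prodCongr (Equiv.refl Unit) (Equiv.mulLeft h)) := by
            apply op_ext
            rintro ⟨⟨⟩, k⟩
            rw [comp_apply, comp_apply, Rr_dl, rei_dl, rei_dl]
            change dl ((), h * (k * s⁻¹)) = Rr Unit s (dl ((), h * k))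
            rw [Rr_dl, mul_assoc]
          exact DFunLike.congr_fun h3 u
        set B : Ell2 (Unit × Λ) →L[ℂ] Ell2 (Unit × Λ) :=
          rei (Equiv.prodCongr (Equiv.refl Unit) (Equiv.mulLeft h)) with hBdef
        have hB1 : B (dl ((), 1)) = dl ((), h) := by
          rw [hBdef, rei_dl]
          change dl ((), h * 1) = _
          rw [mul_one]
        have key : ∀ ε > (0 : ℝ), ‖⟪(dl h : Ell2 Λ), v⟫_ℂ‖ ≤ ε * ‖v‖ := by
          intro ε hε
          obtain ⟨F, c, hF⟩ := ha.tot B hB (one_mul _) (mul_one _) (ε ^ 2) (by positivity)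
          have h4 : ‖(B - ∑ g ∈ F, c g • α g) (dl ((), 1))‖ ^ 2 ≤ ε ^ 2 := by
            have h5 : hsn (B - ∑ g ∈ F, c g • α g) =
                ‖(B - ∑ g ∈ F, c g • α g) (dl ((), 1))‖ ^ 2 := by
              unfold hsn
              rw [Finset.univ_unique, Finset.sum_singleton]
            rw [← h5]
            exact hF
          have h6 := abs_le_of_sq_le_sq' h4 hε.le
          have h7 : jU Λ ((B - ∑ g ∈ F, c g • α g) (dl ((), 1))) =
              dl h - ∑ g ∈ F, c g • frU ha g (dl 1) := by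
            rw [sub_apply, map_sub, hB1, jU_dl, sum_apply, map_sum]
            congr 1
            refine Finset.sum_congr rfl fun g _ => ?_
            rw [frU_dl]
            change jU Λ (c g • α g (dl ((), 1))) = _
            rw [map_smul]
          have h8 : ⟪(dl h : Ell2 Λ), v⟫_ℂ = ⟪dl h - ∑ g ∈ F, c g • frU ha g (dl 1), v⟫_ℂ := by
            rw [inner_sub_left, sum_inner]
            have h9 : ∑ g ∈ F, ⟪c g • frU ha g (dl 1), v⟫_ℂ = 0 := by
              refine Finset.sum_eq_zero fun g _ => ?_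
              rw [inner_smul_left, hv g, mul_zero]
            rw [h9, sub_zero]
          rw [h8, ← h7]
          refine (norm_inner_le_norm _ _).trans ?_
          rw [norm_jU]
          exact mul_le_mul_of_nonneg_right h6.2 (norm_nonneg _)
        by_contra hne
        have hpos : 0 < ‖⟪(dl h : Ell2 Λ), v⟫_ℂ‖ := norm_pos_iff.mpr hne
        have h10 := key (‖⟪(dl h : Ell2 Λ), v⟫_ℂ‖ / (2 * (‖v‖ + 1))) (by positivity)
        have h11 : ‖⟪(dl h : Ell2 Λ), v⟫_ℂ‖ / (2 * (‖v‖ + 1)) * ‖v‖ <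
            ‖⟪(dl h : Ell2 Λ), v⟫_ℂ‖ := by
          rw [div_mul_eq_mul_div, div_lt_iff₀ (by positivity)]
          nlinarith [norm_nonneg v]
        linarith }

theorem p4_frU (ha : AFrame (1 : Ell2 (Unit × Λ) →L[ℂ] Ell2 (Unit × Λ)) α) (g : Γ) :
    p4 (frU ha) g = f4 (α g) := by
  unfold p4 f4
  rw [Finset.univ_unique, Finset.sum_singleton]
  rw [frU_dl]
  have h1 := (Equiv.punitProd Λ).symm.tsum_eq (fun y : Unit × Λ => ‖(α g (dl ((), 1))) y‖ ^ 4)
  exact h1

end fr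

end Vale.Agent.P092.H367
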