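import Vale.Agent.P092.H160.Cube

/-!
The unitary representation generated by a family of vectors with an invariant Gram matrix.
-/

set_option linter.all false

open scoped InnerProductSpace
open Filter Topology ContinuousLinearMap

namespace Vale.Agent.P092.H367

open Vale.Agent.P092.H160

section gns

variable {Γ : Type} [Group Γ] {H : Type} [NormedAddCommGroup H] [InnerProductSpace ℂ H]

/-- finite combinations of the family -/
noncomputable def LC (v : Γ → H) : (Γ →₀ ℂ) →ₗ[ℂ] H := Finsupp.linearCombination ℂ v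

/-- the shift of the coefficients -/
noncomputable def sh (g : Γ) : (Γ →₀ ℂ) →ₗ[ℂ] (Γ →₀ ℂ) := Finsupp.lmapDomain ℂ ℂ (fun h => g * h)

theorem sh_sh (g h : Γ) (c : Γ →₀ ℂ) : sh g (sh h c) = sh (g * h) c := by
  unfold sh
  rw [Finsupp.lmapDomain_apply, Finsupp.lmapDomain_apply, Finsupp.lmapDomain_apply,
    ← Finsupp.mapDomain_comp]
  congr 1
  funext x
  simp [mul_assoc]

theorem sh_one (c : Γ →₀ ℂ) : sh 1 c = c := by
  unfold sh
  rw [Finsupp.lmapDomain_apply]
  have : (fun h : Γ => 1 * h) = id := by funext h; simp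
  rw [this, Finsupp.mapDomain_id]

theorem LC_sh (v : Γ → H) (g : Γ) (c : Γ →₀ ℂ) :
    LC v (sh g c) = LC (fun h => v (g * h)) c := by
  unfold LC sh
  rw [Finsupp.lmapDomain_apply, Finsupp.linearCombination_mapDomain]
  rfl

theorem LC_single (v : Γ → H) (g : Γ) : LC v (Finsupp.single g 1) = v g := by
  unfold LC
  rw [Finsupp.linearCombination_single, one_smul]

theorem inner_LC (v : Γ → H) (c d : Γ →₀ ℂ) : ⟪LC v c, LC v d⟫_ℂ =
    c.sum fun h a => d.sum fun k b => (starRingEnd ℂ) a * (b * ⟪v h, v k⟫_ℂ) := by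
  unfold LC
  rw [Finsupp.linearCombination_apply, Finsupp.linearCombination_apply, Finsupp.sum_inner]
  refine Finsupp.sum_congr fun h _ => ?_
  rw [Finsupp.inner_sum]
  refine Finsupp.sum_congr fun k _ => ?_
  rw [inner_smul_left, inner_smul_right]

variable {v : Γ → H} (hv : ∀ g h k : Γ, ⟪v (g * h), v (g * k)⟫_ℂ = ⟪v h, v k⟫_ℂ)

include hv

theorem inner_sh (g : Γ) (c d : Γ →₀ ℂ) : ⟪LC v (sh g c), LC v (sh g d)⟫_ℂ = ⟪LC v c, LC v d⟫_ℂ := by
  rw [LC_sh, LC_sh, inner_LC, inner_LC]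
  simp only [hv]

theorem norm_sh (g : Γ) (c : Γ →₀ ℂ) : ‖LC v (sh g c)‖ = ‖LC v c‖ := by
  have h := inner_sh hv g c c
  rw [inner_self_eq_norm_sq_to_K, inner_self_eq_norm_sq_to_K] at h
  have h3 : ‖LC v (sh g c)‖ ^ 2 = ‖LC v c‖ ^ 2 := by exact_mod_cast h
  exact (pow_left_inj₀ (norm_nonneg _) (norm_nonneg _) two_ne_zero).mp h3

theorem sh_congr (g : Γ) {c d : Γ →₀ ℂ} (h : LC v c = LC v d) :
    LC v (sh g c) = LC v (sh g d) := by
  have h1 := norm_sh hv g (c - d)
  rw [map_sub, map_sub, map_sub, h, sub_self, norm_zero, norm_eq_zero, sub_eq_zero] at h1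
  exact h1

/-- the translation on the span -/
noncomputable def fS (g : Γ) : LinearMap.range (LC v) →ₗ[ℂ] LinearMap.range (LC v) where
  toFun s := ⟨LC v (sh g s.2.choose), ⟨_, rfl⟩⟩
  map_add' s t := by
    apply Subtype.ext
    change LC v (sh g _) = LC v (sh g _) + LC v (sh g _)
    rw [← map_add, ← map_add]
    refine sh_congr hv g ?_
    rw [map_add, (s + t).2.choose_spec, s.2.choose_spec, t.2.choose_spec]
    rfl
  map_smul' a s := by
    apply Subtype.ext
    change LC v (sh g _) = a • LC v (sh g _)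
    rw [← map_smul, ← map_smul]
    refine sh_congr hv g ?_
    rw [map_smul, (a • s).2.choose_spec, s.2.choose_spec]
    rfl

theorem fS_apply (g : Γ) (c : Γ →₀ ℂ) :
    fS hv g ⟨LC v c, ⟨c, rfl⟩⟩ = ⟨LC v (sh g c), ⟨_, rfl⟩⟩ := by
  apply Subtype.ext
  refine sh_congr hv g ?_
  exact (⟨LC v c, ⟨c, rfl⟩⟩ : LinearMap.range (LC v)).2.choose_spec

theorem fS_inner (g : Γ) (s t : LinearMap.range (LC v)) :
    ⟪fS hv g s, fS hv g t⟫_ℂ = ⟪s, t⟫_ℂ := by
  obtain ⟨_, c, rfl⟩ := s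
  obtain ⟨_, d, rfl⟩ := t
  rw [fS_apply, fS_apply]
  exact inner_sh hv g c d

theorem fS_norm (g : Γ) (s : LinearMap.range (LC v)) : ‖fS hv g s‖ = ‖s‖ := by
  obtain ⟨_, c, rfl⟩ := s
  rw [fS_apply]
  exact norm_sh hv g c

theorem fS_mul (g h : Γ) (s : LinearMap.range (LC v)) :
    fS hv g (fS hv h s) = fS hv (g * h) s := by
  obtain ⟨_, c, rfl⟩ := s
  rw [fS_apply, fS_apply, fS_apply]
  apply Subtype.ext
  change LC v (sh g (sh h c)) = LC v (sh (g * h) c)
  rw [sh_sh]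

theorem fS_one (s : LinearMap.range (LC v)) : fS hv 1 s = s := by
  obtain ⟨_, c, rfl⟩ := s
  rw [fS_apply]
  apply Subtype.ext
  change LC v (sh 1 c) = LC v c
  rw [sh_one]

/-- the translation on the span, as a bounded operator -/
noncomputable def fC (g : Γ) : LinearMap.range (LC v) →L[ℂ] LinearMap.range (LC v) :=
  LinearMap.mkContinuous (fS hv g) 1 fun s => by rw [fS_norm, one_mul]

theorem fC_apply (g : Γ) (s : LinearMap.range (LC v)) : fC hv g s = fS hv g s := rfl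

/-- the Hilbert space of the representation -/
abbrev HC (v : Γ → H) : Type := UniformSpace.Completion (LinearMap.range (LC v))

/-- the extension to the completion -/
noncomputable def UC (g : Γ) : HC v →L[ℂ] HC v :=
  ((UniformSpace.Completion.toComplL (𝕜 := ℂ) (E := LinearMap.range (LC v))).comp (fC hv g)).extend
    (UniformSpace.Completion.toComplL (𝕜 := ℂ) (E := LinearMap.range (LC v)))

theorem UC_coe (g : Γ) (s : LinearMap.range (LC v)) :
    UC hv g (s : HC v) = ((fS hv g s : LinearMap.range (LC v)) : HC v) := by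
  unfold UC
  have h := ContinuousLinearMap.extend_eq
    ((UniformSpace.Completion.toComplL (𝕜 := ℂ) (E := LinearMap.range (LC v))).comp (fC hv g))
    (e := UniformSpace.Completion.toComplL (𝕜 := ℂ) (E := LinearMap.range (LC v)))
    UniformSpace.Completion.denseRange_coe
    (UniformSpace.Completion.isUniformInducing_coe _) s
  exact h

theorem UC_mul (g h : Γ) : UC hv (g * h) = UC hv g * UC hv h := by
  ext1 x
  induction x using UniformSpace.Completion.induction_on with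
  | hp => exact isClosed_eq (by fun_prop) (by fun_prop)
  | ih s => rw [mul_ap, UC_coe, UC_coe, UC_coe, fS_mul]

theorem UC_one : UC hv 1 = 1 := by
  ext1 x
  induction x using UniformSpace.Completion.induction_on with
  | hp => exact isClosed_eq (by fun_prop) (by fun_prop)
  | ih s => rw [UC_coe, fS_one]; rfl

theorem UC_inner (g : Γ) (x y : HC v) : ⟪UC hv g x, UC hv g y⟫_ℂ = ⟪x, y⟫_ℂ := by
  induction x, y using UniformSpace.Completion.induction_on₂ with
  | hp => exact isClosed_eq (by fun_prop) (by fun_prop)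
  | ih s t =>
    rw [UC_coe, UC_coe, UniformSpace.Completion.inner_coe, UniformSpace.Completion.inner_coe,
      fS_inner]

/-- the representation -/
noncomputable def piC : Γ →* (HC v →L[ℂ] HC v) where
  toFun := UC hv
  map_one' := UC_one hv
  map_mul' := UC_mul hv

theorem piC_adj (g : Γ) : adjoint (piC hv g) = piC hv g⁻¹ := by
  rw [eq_comm, ContinuousLinearMap.eq_adjoint_iff]
  intro x y
  change ⟪UC hv g⁻¹ x, y⟫_ℂ = ⟪x, UC hv g y⟫_ℂ
  rw [← UC_inner hv g (UC hv g⁻¹ x), ← mul_ap, ← UC_mul, mul_inv_cancel, UC_one]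
  rfl

/-- the vectors of the family, in the completion -/
noncomputable def vc (v : Γ → H) (g : Γ) : HC v :=
  ((⟨v g, ⟨Finsupp.single g 1, LC_single v g⟩⟩ : LinearMap.range (LC v)) : HC v)

theorem UC_vc (g h : Γ) : UC hv g (vc v h) = vc v (g * h) := by
  unfold vc
  rw [UC_coe]
  congr 1
  have e : (⟨v h, ⟨Finsupp.single h 1, LC_single v h⟩⟩ : LinearMap.range (LC v)) =
      ⟨LC v (Finsupp.single h 1), ⟨_, rfl⟩⟩ := Subtype.ext (LC_single v h).symm
  rw [e, fS_apply]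
  apply Subtype.ext
  change LC v (sh g (Finsupp.single h 1)) = v (g * h)
  rw [LC_sh, LC_single]

omit hv in
theorem inner_vc (g h : Γ) : ⟪vc v g, vc v h⟫_ℂ = ⟪v g, v h⟫_ℂ := by
  unfold vc
  rw [UniformSpace.Completion.inner_coe]
  rfl

/-- Invariant vectors are orthogonal to the family if finite combinations with coefficient sum `1`
can be small. -/
theorem orth_inv (hz : ∀ ε > (0 : ℝ), ∃ c : Γ →₀ ℂ, (c.sum fun _ a => a) = 1 ∧ ‖LC v c‖ ≤ ε)
    {η : HC v} (hη : ∀ g, piC hv g η = η) : ⟪η, vc v 1⟫_ℂ = 0 := by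
  have h1 : ∀ g, ⟪η, vc v g⟫_ℂ = ⟪η, vc v 1⟫_ℂ := by
    intro g
    have h2 : UC hv g η = η := hη g
    have h3 := UC_inner hv g η (vc v 1)
    rw [h2, UC_vc, mul_one] at h3
    exact h3
  have h2 : ∀ c : Γ →₀ ℂ, ⟪η, ((⟨LC v c, ⟨c, rfl⟩⟩ : LinearMap.range (LC v)) : HC v)⟫_ℂ =
      (c.sum fun _ a => a) * ⟪η, vc v 1⟫_ℂ := by
    intro c
    have e1 : (⟨LC v c, ⟨c, rfl⟩⟩ : LinearMap.range (LC v)) =
        c.sum fun g a => a • ⟨v g, ⟨Finsupp.single g 1, LC_single v g⟩⟩ := by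
      apply Subtype.ext
      change LC v c = (LinearMap.range (LC v)).subtype _
      rw [map_finsuppSum]
      unfold LC
      rw [Finsupp.linearCombination_apply]
      rfl
    rw [e1]
    have e2 : ∀ s : LinearMap.range (LC v), (s : HC v) =
      UniformSpace.Completion.toComplL (𝕜 := ℂ) (E := LinearMap.range (LC v)) s := fun _ => rfl
    rw [e2, map_finsuppSum, Finsupp.inner_sum, Finsupp.sum_mul]
    refine Finsupp.sum_congr fun g _ => ?_
    rw [map_smul]
    have h6 : ⟪η, c g • vc v g⟫_ℂ = c g * ⟪η, vc v g⟫_ℂ := inner_smul_right η (vc v g) (c g)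
    exact h6.trans (by rw [h1 g])
  by_contra hne
  have hpos : 0 < ‖⟪η, vc v 1⟫_ℂ‖ := norm_pos_iff.mpr hne
  obtain ⟨c, hc, hcε⟩ := hz (‖⟪η, vc v 1⟫_ℂ‖ / (2 * (‖η‖ + 1))) (by positivity)
  have h3 := h2 c
  rw [hc, one_mul] at h3
  have h4 := norm_inner_le_norm (𝕜 := ℂ) η
    ((⟨LC v c, ⟨c, rfl⟩⟩ : LinearMap.range (LC v)) : HC v)
  rw [h3, UniformSpace.Completion.norm_coe] at h4
  have h5 : ‖(⟨LC v c, ⟨c, rfl⟩⟩ : LinearMap.range (LC v))‖ = ‖LC v c‖ := rfl
  rw [h5] at h4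
  have h6 : ‖η‖ * ‖LC v c‖ ≤ (‖η‖ + 1) * (‖⟪η, vc v 1⟫_ℂ‖ / (2 * (‖η‖ + 1))) := by
    gcongr
    linarith
  have h7 : (‖η‖ + 1) * (‖⟪η, vc v 1⟫_ℂ‖ / (2 * (‖η‖ + 1))) = ‖⟪η, vc v 1⟫_ℂ‖ / 2 := by
    field_simp
  linarith

omit hv in
/-- elements of the hull are combinations with coefficient sum one -/
theorem hull_LC {x : H} (hx : x ∈ hull (Set.range v)) :
    ∃ c : Γ →₀ ℂ, (c.sum fun _ a => a) = 1 ∧ LC v c = x := by
  have hcv : Cvx {x : H | ∃ c : Γ →₀ ℂ, (c.sum fun _ a => a) = 1 ∧ LC v c = x} := by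
    rintro _ ⟨c, hc, rfl⟩ _ ⟨d, hd, rfl⟩ a b ha hb hab
    refine ⟨(a : ℂ) • c + (b : ℂ) • d, ?_, by rw [map_add, map_smul, map_smul]⟩
    have h1 : ∀ c : Γ →₀ ℂ, (c.sum fun _ a => a) = Finsupp.linearCombination ℂ (fun _ : Γ => (1 : ℂ)) c := by
      intro c
      rw [Finsupp.linearCombination_apply]
      refine Finsupp.sum_congr fun g _ => ?_
      rw [smul_eq_mul, mul_one]
    rw [h1] at hc hd ⊢
    rw [map_add, map_smul, map_smul, hc, hd, smul_eq_mul, smul_eq_mul, mul_one, mul_one,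
      ← Complex.ofReal_add, hab, Complex.ofReal_one]
  refine hull_subset hcv ?_ hx
  rintro _ ⟨g, rfl⟩
  refine ⟨Finsupp.single g 1, ?_, LC_single v g⟩
  rw [Finsupp.sum_single_index rfl]

end gns

end Vale.Agent.P092.H367
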