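import Vale.Agent.P092.R2.H289.SpHt
import Vale.Agent.P092.R2.H289.SpQ0
import Vale.Agent.P092.R3.H367.CommQSp

/-!
Groups of rational symplectic matrices commensurable with `Sp_{2N}(ℤ)`, `N ≥ 3`: an isomorphism onto
a corner of matrices over `L(Λ)` is canonical, or the heights vanish on average along every element
with a nontrivial unipotent power.
-/

set_option linter.all false

open Matrix

namespace Vale.Agent.P092.H367.Sq

open Vale.Agent.P092.R2.H289

/-- The dichotomy for corners of matrices over `L(Λ)`, for groups of rational symplectic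
matrices. -/
theorem canon_or_heights_spq {N : ℕ} (hN : 3 ≤ N) {Γ : Type} [Group Γ]
    (j : Γ →* symplecticGroup (Fin N) ℚ) (hj : Function.Injective j)
    (hfi : (j.range.comap (SpArith.inc N)).FiniteIndex)
    (hΓ : ∀ g, (j g : Matrix (Fin N ⊕ Fin N) (Fin N ⊕ Fin N) ℚ) ≠ -1)
    {Λ : Type} [Group Λ] (hL : Mt.ICC Λ)
    {n : ℕ} {p : Mt.Mat n Λ} (hp : Mt.IsProj p) (θ : Mt.AmpIso Γ Λ n p) :
    (Mt.Canon θ ∧ Mt.trM p = 1) ∨ ∀ (x : Γ) (k : ℕ), x ^ k ≠ 1 →
      IsNilpotent ((j (x ^ k) : Matrix (Fin N ⊕ Fin N) (Fin N ⊕ Fin N) ℚ) - 1) →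
        Mt.HV θ x := by
  obtain ⟨jj, hjj⟩ := exists_jj hj
  haveI := hfi
  have hr := range_jj hj jj hjj
  rcases Spn.canon_or_heights_spc hN (j.range.comap (SpArith.inc N)) jj
    (Spn.sepSp_rat j hj hΓ jj hjj) (by rw [hr]; exact ricc_HZ hj hfi hΓ)
    (by rw [hr]; exact comm_HZ hj hfi) hL hp θ with h | h
  · exact Or.inl h
  · exact Or.inr (heights_rat hj θ jj hjj h)

end Vale.Agent.P092.H367.Sq
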