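import Mathlib

/-!
Groups of matrices modulo the centre.
-/

namespace Vale.Agent.P092.H367.Proj

/-- For homomorphisms `i : G(ℤ) → G` and `q : Γ → G ⧸ centre`, the subgroup of the elements of `Γ`
which are mapped by `q` into the image of `i`. -/
abbrev HP {G GZ Γ : Type} [Group G] [Group GZ] [Group Γ] (i : GZ →* G)
    (q : Γ →* G ⧸ Subgroup.center G) : Subgroup Γ :=
  ((QuotientGroup.mk' (Subgroup.center G)).comp i).range.comap q

end Vale.Agent.P092.H367.Proj
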