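import Vale.Agent.P092.R3.H381.StSub
import Vale.Agent.P092.R3.H423.StHt

/-!
The uniform constant along a subgroup.
-/

namespace Vale.Agent.P092.H367.Mt

open Vale.Agent.P092.H160 Vale.Agent.P092.H160.St Vale.Agent.P092.H885

/-- The uniform gap with constant `δ` along the subgroup `H` of `Γ`, for the finite set `Q ⊂ H`:
for every ICC group `Λ`, every nonzero projection `p` of a matrix algebra `M_{n+1}(L(Λ))` and every
`*`-isomorphism `θ` of `L(Γ)` onto `p M_{n+1}(L(Λ)) p`, either the trace of `p` is `1` and `θ` is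
canonical, or the fourth power sums `F(g)` of `θ(u_g)` satisfy `F(s) ≤ F(1)(1-δ)` for some `s ∈ Q`
and `A_Q^k[h ↦ F(ahb)](1) ≤ F(1)(1-δ)^k` for all `a`, `b` in `Γ` and all `k`, where `A_Q` is the
averaging operator of `Q` on `H` (note `F(1) = four p`). -/
def UGapH (Γ : Type) [Group Γ] (H : Subgroup Γ) (Q : Finset H) (δ : ℝ) : Prop :=
  ∀ (Λ : Type) [Group Λ], ICC Λ → ∀ (n : ℕ) (p : Mat n Λ), IsProj p →
    ∀ θ : AmpIso Γ Λ n p, (Canon θ ∧ trM p = 1) ∨
      ((∃ s ∈ Q, four (θ.toFun (u (s : Γ))) ≤ four p * (1 - δ)) ∧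
        ∀ (a b : Γ) (k : ℕ),
          (avg Q)^[k] (fun h : H => four (θ.toFun (u (a * h * b)))) 1 ≤ four p * (1 - δ) ^ k)

end Vale.Agent.P092.H367.Mt
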