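import Vale.Agent.P092.R3.H367.Dich
import Vale.Agent.P092.R3.H367.MatBri
import Vale.Agent.P092.R3.H381.SpT

/-!
The dichotomy in elementary form, one constant for all isomorphisms, and the lattices of
`SL_N(ℝ)` and `Sp_{2N}(ℝ)`.
-/

set_option linter.all false

open scoped InnerProductSpace
open Filter Topology ContinuousLinearMap

namespace Vale.Agent.P092.H367

open Vale.Agent.P092.H160 Vale.Agent.P092.H885

/-- **The dichotomy**, in elementary form. -/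
theorem main_mt {Γ Λ : Type} [Group Γ] [Group Λ] (hG : Mt.ICC Γ) (hL : Mt.ICC Λ) {n : ℕ}
    {p : Mt.Mat n Λ} (hp : Mt.IsProj p) (θ : Mt.AmpIso Γ Λ n p) :
    (Mt.Canon θ ∧ Mt.trM p = 1 ∧
      ∃ c : ℝ, 0 < c ∧ ∀ g, c ≤ Mt.four (θ.toFun (H160.St.u g))) ∨
    ((∀ (Q : Finset Γ) (ε : ℝ), IsKazhdanPair Γ Q ε →
      (∃ s ∈ Q, Mt.four (θ.toFun (H160.St.u s)) ≤ Mt.four p * (1 - ε ^ 2 / 2)) ∧
      ∀ (a b : Γ) (k : ℕ), (avg Q)^[k] (fun g => Mt.four (θ.toFun (H160.St.u (a * g * b)))) 1 ≤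
        Mt.four p * (1 - ε ^ 2 / (4 * Q.card)) ^ k) ∧
    (∀ Q : Finset Γ, Q.Nonempty → Subgroup.closure (Q : Set Γ) = ⊤ → ∀ a b : Γ,
      Tendsto (fun k : ℕ => (avg Q)^[k] (fun g => Mt.four (θ.toFun (H160.St.u (a * g * b)))) 1)
        atTop (𝓝 0))) := by
  have h := main hG hL (isProj_opM hp) (ofMt θ)
  simp only [ofMt_apply, four_opM, trM_opM, ← canon_iff] at h
  exact h

theorem kazhdan_mono {Γ : Type} [Group Γ] {Q : Finset Γ} {ε ε' : ℝ} (h : IsKazhdanPair Γ Q ε)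
    (h0 : 0 < ε') (h1 : ε' ≤ ε) : IsKazhdanPair Γ Q ε' := by
  refine ⟨h0, ?_⟩
  intro H _ _ _ π hπ v
  obtain ⟨s, hs, h2⟩ := h.2 H π hπ v
  exact ⟨s, hs, (mul_le_mul_of_nonneg_right h1 (norm_nonneg _)).trans h2⟩

theorem four_nonneg {n : ℕ} {Λ : Type} [Group Λ] (A : Mt.Mat n Λ) : 0 ≤ Mt.four A :=
  Finset.sum_nonneg fun _ _ => Finset.sum_nonneg fun _ _ => tsum_nonneg fun _ => by positivity

/-- One constant for all `Λ`, `n`, `p`, `θ`. -/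
theorem uniform {Γ : Type} [Group Γ] (hG : Mt.ICC Γ)
    (hK : ∃ (Q : Finset Γ) (ε : ℝ), IsKazhdanPair Γ Q ε) {Q : Finset Γ} (hQ : Q.Nonempty)
    (hgen : Subgroup.closure (Q : Set Γ) = ⊤) : ∃ δ : ℝ, 0 < δ ∧ δ < 1 ∧ Mt.UGap Γ Q δ := by
  obtain ⟨ε₀, hε₀⟩ := kazhdan_gen hK hQ hgen
  set ε : ℝ := min ε₀ 1 with hε
  have hε0 : 0 < ε := lt_min hε₀.1 one_pos
  have hε1 : ε ≤ 1 := min_le_right _ _
  have hKQ : IsKazhdanPair Γ Q ε := kazhdan_mono hε₀ hε0 (min_le_left _ _)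
  have hc : (1 : ℝ) ≤ Q.card := by exact_mod_cast hQ.card_pos
  have hε2 : ε ^ 2 ≤ 1 := pow_le_one₀ hε0.le hε1
  refine ⟨ε ^ 2 / (4 * Q.card), by positivity, ?_, ?_⟩
  · rw [div_lt_one (by positivity)]; nlinarith
  · intro Λ _ hL n p hp θ
    rcases main_mt hG hL hp θ with h | ⟨h, -⟩
    · exact Or.inl ⟨h.1, h.2.1⟩
    · right
      obtain ⟨⟨s, hs, h5⟩, h6⟩ := h Q ε hKQ
      refine ⟨⟨s, hs, h5.trans ?_⟩, h6⟩
      refine mul_le_mul_of_nonneg_left ?_ (four_nonneg p)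
      have h7 : ε ^ 2 / (4 * Q.card) ≤ ε ^ 2 / 2 := by
        gcongr
        linarith
      linarith

/-- Finite index subgroups of `SL_N(ℤ)`. -/
theorem sln {N : ℕ} (hN : 3 ≤ N) (Γ : Subgroup (Matrix.SpecialLinearGroup (Fin N) ℤ))
    [Γ.FiniteIndex] (hΓ : ∀ g ∈ Γ, (g : Matrix (Fin N) (Fin N) ℤ) ≠ -1) {Q : Finset Γ}
    (hQ : Q.Nonempty) (hgen : Subgroup.closure (Q : Set Γ) = ⊤) :
    ∃ δ : ℝ, 0 < δ ∧ δ < 1 ∧ Mt.UGap Γ Q δ :=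
  uniform (icc_of_fi (by omega) Γ hΓ) (H423.kazhdan_fi (kazhdan_sln hN) Γ) hQ hgen

/-- Finite index subgroups of `Sp_{2N}(ℤ)`. -/
theorem spn {N : ℕ} (hN : 3 ≤ N) (Γ : Subgroup (Matrix.symplecticGroup (Fin N) ℤ))
    [Γ.FiniteIndex] (hΓ : ∀ g ∈ Γ, (g : Matrix (Fin N ⊕ Fin N) (Fin N ⊕ Fin N) ℤ) ≠ -1)
    {Q : Finset Γ} (hQ : Q.Nonempty) (hgen : Subgroup.closure (Q : Set Γ) = ⊤) :
    ∃ δ : ℝ, 0 < δ ∧ δ < 1 ∧ Mt.UGap Γ Q δ :=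
  uniform (icc_sp Γ hΓ) (H423.kazhdan_fi (kazhdan_sp hN) Γ) hQ hgen

end Vale.Agent.P092.H367
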