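import Vale.Agent.P092.R3.H367.Adm
import Vale.Agent.P092.R3.H367.StGapH
import Vale.Agent.P092.R3.H367.Unif

/-!
One constant for all isomorphisms, along a subgroup.
-/

set_option linter.all false

open Filter Topology

namespace Vale.Agent.P092.H367

open Vale.Agent.P092.H160 Vale.Agent.P092.H885 Vale.Agent.P092.H381

/-- The dichotomy along subgroups, as a proposition. -/
def SubAll (Γ : Type) [Group Γ] : Prop :=
  ∀ (Λ : Type) [Group Λ], Mt.ICC Λ → ∀ (n : ℕ) (p : Mt.Mat n Λ), Mt.IsProj p →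
    ∀ θ : Mt.AmpIso Γ Λ n p,
    (Mt.Canon θ ∧ Mt.trM p = 1 ∧ ∃ c : ℝ, 0 < c ∧ ∀ g, c ≤ Mt.four (θ.toFun (H160.St.u g))) ∨
    ∀ (H : Type) [Group H] (φ : H →* Γ) (A : Subgroup H), Sg.Adm (A.map φ) (Mt.trM p).re →
      Mt.SubDecay θ φ A ∧ ∀ (E : Finset Γ) (ε : ℝ), 0 < ε →
        ∃ h ∈ A, ∀ a ∈ E, ∀ b ∈ E, Mt.four (θ.toFun (H160.St.u (a * φ h * b))) < ε

theorem relKazhdan_top {G : Type} [Group G] {Q : Finset G} {ε : ℝ} (h : IsKazhdanPair G Q ε) :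
    H423.IsRelKazhdanPair G ⊤ Q ε :=
  ⟨h.1, fun H _ _ _ π hπ v => h.2 H π (fun w hw => hπ w fun a _ => hw a) v⟩

/-- One constant for all `Λ`, `n`, `p`, `θ`. -/
theorem uniformH {Γ : Type} [Group Γ] (hS : SubAll Γ) {H : Subgroup Γ} (hA : ∀ t, Sg.Adm H t)
    (hK : ∃ (Q : Finset H) (ε : ℝ), IsKazhdanPair H Q ε) {Q : Finset H} (hQ : Q.Nonempty)
    (hgen : Subgroup.closure (Q : Set H) = ⊤) :
    ∃ δ : ℝ, 0 < δ ∧ δ < 1 ∧ Mt.UGapH Γ H Q δ := by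
  obtain ⟨ε₀, hε₀⟩ := kazhdan_gen hK hQ hgen
  set ε : ℝ := min ε₀ 1 with hε
  have hε0 : 0 < ε := lt_min hε₀.1 one_pos
  have hε1 : ε ≤ 1 := min_le_right _ _
  have hKQ : IsKazhdanPair H Q ε := kazhdan_mono hε₀ hε0 (min_le_left _ _)
  have hc : (1 : ℝ) ≤ Q.card := by exact_mod_cast hQ.card_pos
  have hε2 : ε ^ 2 ≤ 1 := pow_le_one₀ hε0.le hε1
  refine ⟨ε ^ 2 / (4 * Q.card), by positivity, ?_, ?_⟩
  · rw [div_lt_one (by positivity)]; nlinarith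
  · intro Λ _ hL n p hp θ
    rcases hS Λ hL n p hp θ with h | h
    · exact Or.inl ⟨h.1, h.2.1⟩
    · right
      have hm : (⊤ : Subgroup H).map H.subtype = H := by
        rw [← MonoidHom.range_eq_map, Subgroup.range_subtype]
      have h1 := (h H H.subtype ⊤ (by rw [hm]; exact hA _)).1
      obtain ⟨⟨s, hs, h5⟩, h6⟩ := h1.1 Q ε (relKazhdan_top hKQ)
      refine ⟨⟨s, hs, h5.trans ?_⟩, h6⟩
      refine mul_le_mul_of_nonneg_left ?_ (four_nonneg p)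
      have h7 : ε ^ 2 / (4 * Q.card) ≤ ε ^ 2 / 2 := by
        gcongr
        linarith
      linarith

/-- Groups of rational matrices commensurable with `SL_N(ℤ)`. -/
theorem slq {N : ℕ} (hN : 3 ≤ N) {Γ : Type} [Group Γ] (hS : SubAll Γ)
    (j : Γ →* Matrix.SpecialLinearGroup (Fin N) ℚ)
    (hj : Function.Injective j) (hfi : (j.range.comap (SArith.inc N)).FiniteIndex)
    (hΓ : ∀ g, (j g : Matrix (Fin N) (Fin N) ℚ) ≠ -1) :
    (∀ t, Sg.Adm (SArith.HZ j) t) ∧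
    ∀ Q : Finset (SArith.HZ j), Q.Nonempty → Subgroup.closure (Q : Set (SArith.HZ j)) = ⊤ →
      ∃ δ : ℝ, 0 < δ ∧ δ < 1 ∧ Mt.UGapH Γ (SArith.HZ j) Q δ :=
  ⟨adm_SL (by omega) hj hfi hΓ, fun Q hQ hgen =>
    uniformH hS (adm_SL (by omega) hj hfi hΓ) (SArith.kazhdan j hN hj hfi) hQ hgen⟩

/-- Groups of rational matrices commensurable with `Sp_{2N}(ℤ)`. -/
theorem spq {N : ℕ} (hN : 3 ≤ N) {Γ : Type} [Group Γ] (hS : SubAll Γ)
    (j : Γ →* Matrix.symplecticGroup (Fin N) ℚ)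
    (hj : Function.Injective j) (hfi : (j.range.comap (SpArith.inc N)).FiniteIndex)
    (hΓ : ∀ g, (j g : Matrix (Fin N ⊕ Fin N) (Fin N ⊕ Fin N) ℚ) ≠ -1) :
    (∀ t, Sg.Adm (SpArith.HZ j) t) ∧
    ∀ Q : Finset (SpArith.HZ j), Q.Nonempty → Subgroup.closure (Q : Set (SpArith.HZ j)) = ⊤ →
      ∃ δ : ℝ, 0 < δ ∧ δ < 1 ∧ Mt.UGapH Γ (SpArith.HZ j) Q δ :=
  ⟨adm_Sp hj hfi hΓ, fun Q hQ hgen =>
    uniformH hS (adm_Sp hj hfi hΓ) (SpArith.kazhdan j hN hj hfi) hQ hgen⟩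

end Vale.Agent.P092.H367
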