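import Vale.Agent.P092.R3.H367.Adm
import Vale.Agent.P092.R3.H367.UnifH
import Vale.Agent.P092.R3.H367.StProj

/-!
Subgroups `Γ` of `G(ℚ)` modulo its centre, `G = SL_N` or `Sp_{2N}`, containing a finite index
subgroup of the image of `G(ℤ)`: the subgroup of the elements represented by integral matrices is
admissible and has Kazhdan pairs.
-/

set_option linter.all false

open Matrix

namespace Vale.Agent.P092.H367.Proj

open Vale.Agent.P092.H381.Sg Vale.Agent.P092.H885

section general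

variable {G GZ Γ : Type} [Group G] [Group GZ] [Group Γ] (i : GZ →* G)
  (horb : ∀ (L : Subgroup GZ) [L.FiniteIndex] (X : G), X ∉ Subgroup.center G →
    {y | ∃ l ∈ L, y = i l * X * (i l)⁻¹}.Infinite)
  (hcen : (Subgroup.center G : Set G).Finite)
  (hconj : ∀ g : G, ∃ C : Subgroup GZ, C.FiniteIndex ∧ ∀ l ∈ C, g⁻¹ * i l * g ∈ i.range)
  (q : Γ →* G ⧸ Subgroup.center G) (hq : Function.Injective q)
  (hfi : (q.range.comap ((QuotientGroup.mk' (Subgroup.center G)).comp i)).FiniteIndex)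

include horb hcen hconj hq hfi in
theorem rel_icc (S : Finset Γ) (x : Γ) (hx : x ≠ 1) :
    {y : Γ | ∃ k : Γ, (∀ g ∈ S, g⁻¹ * k * g ∈ HP i q) ∧ y = k * x * k⁻¹}.Infinite := by
  have hlift : ∀ g : Γ, ∃ X : G, QuotientGroup.mk' (Subgroup.center G) X = q g := fun g =>
    QuotientGroup.mk'_surjective _ _
  choose lf hlf using hlift
  have hC : ∀ g : Γ, ∃ C : Subgroup GZ, C.FiniteIndex ∧
      ∀ l ∈ C, (lf g)⁻¹ * i l * lf g ∈ i.range := fun g => hconj _
  choose C hCf hC using hC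
  haveI : (⨅ g : S, C g).FiniteIndex := Subgroup.finiteIndex_iInf fun g => hCf g
  haveI := hfi
  have hX : lf x ∉ Subgroup.center G := by
    intro h
    apply hx
    apply hq
    rw [map_one, ← hlf x]
    exact (QuotientGroup.eq_one_iff _).mpr h
  have h := horb ((q.range.comap ((QuotientGroup.mk' (Subgroup.center G)).comp i)) ⊓ ⨅ g : S, C g)
    (lf x) hX
  intro hfin
  refine h ?_
  -- the preimage of a finite set in `G` is finite
  have h1 : ((QuotientGroup.mk' (Subgroup.center G)) ⁻¹' (q '' {y : Γ | ∃ k : Γ,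
      (∀ g ∈ S, g⁻¹ * k * g ∈ HP i q) ∧ y = k * x * k⁻¹})).Finite := by
    refine Set.Finite.preimage' (hfin.image q) ?_
    intro b hb
    obtain ⟨B, rfl⟩ := QuotientGroup.mk'_surjective (Subgroup.center G) b
    refine (hcen.image fun z => B * z).subset ?_
    intro y hy
    have h2 : QuotientGroup.mk' (Subgroup.center G) y = QuotientGroup.mk' (Subgroup.center G) B := hy
    refine ⟨B⁻¹ * y, ?_, mul_inv_cancel_left B y⟩
    exact QuotientGroup.eq.mp h2.symm
  refine h1.subset ?_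
  rintro y ⟨l, hl, rfl⟩
  obtain ⟨k, hk⟩ := (Subgroup.mem_inf.mp hl).1
  have hl2 := (Subgroup.mem_inf.mp hl).2
  refine ⟨k * x * k⁻¹, ⟨k, fun g hg => ?_, rfl⟩, ?_⟩
  · obtain ⟨l', hl'⟩ := hC g l (Subgroup.mem_iInf.mp hl2 ⟨g, hg⟩)
    change q (g⁻¹ * k * g) ∈ ((QuotientGroup.mk' (Subgroup.center G)).comp i).range
    refine ⟨l', ?_⟩
    rw [MonoidHom.comp_apply, hl', map_mul, map_mul, map_inv, hlf, map_mul, map_mul, map_inv, hk]
    rfl
  · change q (k * x * k⁻¹) = QuotientGroup.mk' (Subgroup.center G) (i l * lf x * (i l)⁻¹)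
    rw [map_mul, map_mul, map_inv, hk, map_mul, map_mul, map_inv, hlf]
    rfl

include horb hcen hconj hq hfi in
theorem adm (t : ℝ) : Adm (HP i q) t := by
  classical
  exact adm_of_set (rel_icc i horb hcen hconj q hq hfi) t

include hq hfi in
theorem kazhdan (hK : ∃ (Q : Finset GZ) (ε : ℝ), IsKazhdanPair GZ Q ε) :
    ∃ (Q : Finset (HP i q)) (ε : ℝ), IsKazhdanPair (HP i q) Q ε := by
  have hex : ∀ l : q.range.comap ((QuotientGroup.mk' (Subgroup.center G)).comp i),
      ∃ k : Γ, q k = ((QuotientGroup.mk' (Subgroup.center G)).comp i) l := fun l => l.2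
  choose k hk using hex
  let f : q.range.comap ((QuotientGroup.mk' (Subgroup.center G)).comp i) →* HP i q :=
    { toFun := fun l => ⟨k l, ⟨l.1, (hk l).symm⟩⟩
      map_one' := by
        apply Subtype.ext
        apply hq
        change q (k 1) = q 1
        rw [hk, map_one]
        exact map_one ((QuotientGroup.mk' (Subgroup.center G)).comp i)
      map_mul' := fun a b => by
        apply Subtype.ext
        apply hq
        change q (k (a * b)) = q (k a * k b)
        rw [map_mul, hk, hk, hk]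
        exact map_mul ((QuotientGroup.mk' (Subgroup.center G)).comp i) _ _ }
  haveI := hfi
  refine kazhdan_quot f ?_ (H423.kazhdan_fi hK
    (q.range.comap ((QuotientGroup.mk' (Subgroup.center G)).comp i)))
  rintro ⟨h, ⟨l, hl⟩⟩
  refine ⟨⟨l, ⟨h, hl.symm⟩⟩, ?_⟩
  apply Subtype.ext
  apply hq
  change q (k _) = q h
  rw [hk]
  exact hl

end general

section SL

variable {N : ℕ}

theorem neg_one_central_SL {X : SpecialLinearGroup (Fin N) ℚ}
    (h : (X : Matrix (Fin N) (Fin N) ℚ) = -1) :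
    X ∈ Subgroup.center (SpecialLinearGroup (Fin N) ℚ) := by
  rw [Subgroup.mem_center_iff]
  intro g
  apply Subtype.ext
  change (g : Matrix (Fin N) (Fin N) ℚ) * (X : Matrix (Fin N) (Fin N) ℚ) =
    (X : Matrix (Fin N) (Fin N) ℚ) * (g : Matrix (Fin N) (Fin N) ℚ)
  rw [h, Matrix.mul_neg, Matrix.neg_mul, Matrix.mul_one, Matrix.one_mul]

theorem orb_SL (hN : 2 ≤ N) (L : Subgroup (SpecialLinearGroup (Fin N) ℤ)) [L.FiniteIndex]
    (X : SpecialLinearGroup (Fin N) ℚ) (hX : X ∉ Subgroup.center (SpecialLinearGroup (Fin N) ℚ)) :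
    {y | ∃ l ∈ L, y = SArith.inc N l * X * (SArith.inc N l)⁻¹}.Infinite :=
  SArith.orbit_infinite hN L (fun h => hX (by rw [h]; exact Subgroup.one_mem _))
    (fun h => hX (neg_one_central_SL h))

theorem cen_SL (hN : 2 ≤ N) :
    (Subgroup.center (SpecialLinearGroup (Fin N) ℚ) : Set (SpecialLinearGroup (Fin N) ℚ)).Finite := by
  have hsub : (Subgroup.center (SpecialLinearGroup (Fin N) ℚ) :
      Set (SpecialLinearGroup (Fin N) ℚ)) ⊆ {X | X = 1 ∨ (X : Matrix (Fin N) (Fin N) ℚ) = -1} := by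
    intro X hX
    by_contra hcon
    rw [Set.mem_setOf_eq, not_or] at hcon
    refine SArith.orbit_infinite hN (⊤ : Subgroup (SpecialLinearGroup (Fin N) ℤ)) hcon.1 hcon.2
      ((Set.finite_singleton X).subset ?_)
    rintro y ⟨l, -, rfl⟩
    rw [Set.mem_singleton_iff]
    have := (Subgroup.mem_center_iff.mp hX) (SArith.inc N l)
    rw [this, mul_inv_cancel_right]
  refine Set.Finite.subset ?_ hsub
  have : {X : SpecialLinearGroup (Fin N) ℚ | X = 1 ∨ (X : Matrix (Fin N) (Fin N) ℚ) = -1} ⊆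
      (fun X : SpecialLinearGroup (Fin N) ℚ => (X : Matrix (Fin N) (Fin N) ℚ)) ⁻¹' {1, -1} := by
    rintro X (rfl | h)
    · left; rfl
    · right; exact h
  refine Set.Finite.subset (Set.Finite.preimage ?_ (Set.toFinite _)) this
  intro a _ b _ h
  exact Subtype.ext h

theorem conj_SL (g : SpecialLinearGroup (Fin N) ℚ) :
    ∃ C : Subgroup (SpecialLinearGroup (Fin N) ℤ), C.FiniteIndex ∧
      ∀ l ∈ C, g⁻¹ * SArith.inc N l * g ∈ (SArith.inc N).range := by
  obtain ⟨n, hn, h⟩ := SArith.conj_mem g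
  haveI : NeZero n := ⟨hn.ne'⟩
  exact ⟨SArith.cong N n, inferInstance, h⟩

/-- Groups of rational matrices modulo the centre. -/
theorem pslq (hN : 3 ≤ N) {Γ : Type} [Group Γ] (hS : SubAll Γ)
    (q : Γ →* SpecialLinearGroup (Fin N) ℚ ⧸ Subgroup.center (SpecialLinearGroup (Fin N) ℚ))
    (hq : Function.Injective q)
    (hfi : (q.range.comap ((QuotientGroup.mk' (Subgroup.center
      (SpecialLinearGroup (Fin N) ℚ))).comp (SArith.inc N))).FiniteIndex) :
    (∀ t, Adm (HP (SArith.inc N) q) t) ∧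
    ∀ Q : Finset (HP (SArith.inc N) q), Q.Nonempty →
      Subgroup.closure (Q : Set (HP (SArith.inc N) q)) = ⊤ →
      ∃ δ : ℝ, 0 < δ ∧ δ < 1 ∧ Mt.UGapH Γ (HP (SArith.inc N) q) Q δ := by
  have hA := adm (SArith.inc N) (orb_SL (by omega)) (cen_SL (by omega)) conj_SL q hq hfi
  exact ⟨hA, fun Q hQ hgen =>
    uniformH hS hA (kazhdan (SArith.inc N) q hq hfi (kazhdan_sln hN)) hQ hgen⟩

end SL

section Sp

variable {N : ℕ}

theorem neg_one_central_Sp {X : symplecticGroup (Fin N) ℚ}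
    (h : (X : Matrix (Fin N ⊕ Fin N) (Fin N ⊕ Fin N) ℚ) = -1) :
    X ∈ Subgroup.center (symplecticGroup (Fin N) ℚ) := by
  rw [Subgroup.mem_center_iff]
  intro g
  apply Subtype.ext
  change (g : Matrix (Fin N ⊕ Fin N) (Fin N ⊕ Fin N) ℚ) *
      (X : Matrix (Fin N ⊕ Fin N) (Fin N ⊕ Fin N) ℚ) =
    (X : Matrix (Fin N ⊕ Fin N) (Fin N ⊕ Fin N) ℚ) *
      (g : Matrix (Fin N ⊕ Fin N) (Fin N ⊕ Fin N) ℚ)
  rw [h, Matrix.mul_neg, Matrix.neg_mul, Matrix.mul_one, Matrix.one_mul]

theorem orb_Sp (L : Subgroup (symplecticGroup (Fin N) ℤ)) [L.FiniteIndex]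
    (X : symplecticGroup (Fin N) ℚ) (hX : X ∉ Subgroup.center (symplecticGroup (Fin N) ℚ)) :
    {y | ∃ l ∈ L, y = SpArith.inc N l * X * (SpArith.inc N l)⁻¹}.Infinite :=
  SpArith.orbit_infinite L (fun h => hX (by rw [h]; exact Subgroup.one_mem _))
    (fun h => hX (neg_one_central_Sp h))

theorem cen_Sp :
    (Subgroup.center (symplecticGroup (Fin N) ℚ) : Set (symplecticGroup (Fin N) ℚ)).Finite := by
  have hsub : (Subgroup.center (symplecticGroup (Fin N) ℚ) :
      Set (symplecticGroup (Fin N) ℚ)) ⊆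
        {X | X = 1 ∨ (X : Matrix (Fin N ⊕ Fin N) (Fin N ⊕ Fin N) ℚ) = -1} := by
    intro X hX
    by_contra hcon
    rw [Set.mem_setOf_eq, not_or] at hcon
    refine SpArith.orbit_infinite (⊤ : Subgroup (symplecticGroup (Fin N) ℤ)) hcon.1 hcon.2
      ((Set.finite_singleton X).subset ?_)
    rintro y ⟨l, -, rfl⟩
    rw [Set.mem_singleton_iff]
    have := (Subgroup.mem_center_iff.mp hX) (SpArith.inc N l)
    rw [this, mul_inv_cancel_right]
  refine Set.Finite.subset ?_ hsub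
  have : {X : symplecticGroup (Fin N) ℚ | X = 1 ∨
      (X : Matrix (Fin N ⊕ Fin N) (Fin N ⊕ Fin N) ℚ) = -1} ⊆
      (fun X : symplecticGroup (Fin N) ℚ =>
        (X : Matrix (Fin N ⊕ Fin N) (Fin N ⊕ Fin N) ℚ)) ⁻¹' {1, -1} := by
    rintro X (rfl | h)
    · left; rfl
    · right; exact h
  refine Set.Finite.subset (Set.Finite.preimage ?_ (Set.toFinite _)) this
  intro a _ b _ h
  exact Subtype.ext h

theorem conj_Sp (g : symplecticGroup (Fin N) ℚ) :
    ∃ C : Subgroup (symplecticGroup (Fin N) ℤ), C.FiniteIndex ∧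
      ∀ l ∈ C, g⁻¹ * SpArith.inc N l * g ∈ (SpArith.inc N).range := by
  obtain ⟨n, hn, h⟩ := SpArith.conj_mem g
  haveI : NeZero n := ⟨hn.ne'⟩
  exact ⟨SpArith.cong N n, inferInstance, h⟩

/-- Groups of rational symplectic matrices modulo the centre. -/
theorem pspq (hN : 3 ≤ N) {Γ : Type} [Group Γ] (hS : SubAll Γ)
    (q : Γ →* symplecticGroup (Fin N) ℚ ⧸ Subgroup.center (symplecticGroup (Fin N) ℚ))
    (hq : Function.Injective q)
    (hfi : (q.range.comap ((QuotientGroup.mk' (Subgroup.center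
      (symplecticGroup (Fin N) ℚ))).comp (SpArith.inc N))).FiniteIndex) :
    (∀ t, Adm (HP (SpArith.inc N) q) t) ∧
    ∀ Q : Finset (HP (SpArith.inc N) q), Q.Nonempty →
      Subgroup.closure (Q : Set (HP (SpArith.inc N) q)) = ⊤ →
      ∃ δ : ℝ, 0 < δ ∧ δ < 1 ∧ Mt.UGapH Γ (HP (SpArith.inc N) q) Q δ := by
  have hA := adm (SpArith.inc N) orb_Sp cen_Sp conj_Sp q hq hfi
  exact ⟨hA, fun Q hQ hgen =>
    uniformH hS hA (kazhdan (SpArith.inc N) q hq hfi (kazhdan_sp hN)) hQ hgen⟩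

end Sp

end Vale.Agent.P092.H367.Proj
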