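import Vale.Agent.P092.R3.H367.ArithAux

/-!
The elements with integral entries of groups of rational matrices.
-/

open Matrix

namespace Vale.Agent.P092.H367.SArith

/-- The inclusion `SL_N(ℤ) → SL_N(ℚ)`. -/
abbrev inc (N : ℕ) : SpecialLinearGroup (Fin N) ℤ →* SpecialLinearGroup (Fin N) ℚ :=
  SpecialLinearGroup.map (Int.castRingHom ℚ)

/-- The subgroup of the elements of `Γ` which are mapped into `SL_N(ℤ)`. -/
abbrev HZ {N : ℕ} {Γ : Type} [Group Γ] (j : Γ →* SpecialLinearGroup (Fin N) ℚ) : Subgroup Γ :=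
  (inc N).range.comap j

end Vale.Agent.P092.H367.SArith

namespace Vale.Agent.P092.H367.SpArith

/-- The homomorphism `Sp_{2N}(R) → Sp_{2N}(S)` of a homomorphism `R → S`. -/
def mapSp {N : ℕ} {R S : Type} [CommRing R] [CommRing S] (f : R →+* S) :
    symplecticGroup (Fin N) R →* symplecticGroup (Fin N) S where
  toFun A := ⟨(A : Matrix (Fin N ⊕ Fin N) (Fin N ⊕ Fin N) R).map f, map_mem f A.2⟩
  map_one' := Subtype.ext (Matrix.map_one f (map_zero f) (map_one f))
  map_mul' _ _ := Subtype.ext Matrix.map_mul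

/-- The inclusion `Sp_{2N}(ℤ) → Sp_{2N}(ℚ)`. -/
abbrev inc (N : ℕ) : symplecticGroup (Fin N) ℤ →* symplecticGroup (Fin N) ℚ :=
  mapSp (Int.castRingHom ℚ)

/-- The subgroup of the elements of `Γ` which are mapped into `Sp_{2N}(ℤ)`. -/
abbrev HZ {N : ℕ} {Γ : Type} [Group Γ] (j : Γ →* symplecticGroup (Fin N) ℚ) : Subgroup Γ :=
  (inc N).range.comap j

end Vale.Agent.P092.H367.SpArith
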