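import Vale.Agent.P092.R3.H381.SlnT
import Vale.Agent.P092.R3.H381.SpT
import Vale.Agent.P092.R3.H381.Gen
import Vale.Agent.P092.R3.H423.FinInd
import Vale.Agent.P092.R3.H367.StArith

/-!
Subgroups `Γ` of `SL_N(ℚ)`, `N ≥ 3`, containing a finite index subgroup of `SL_N(ℤ)`, without `-1`
(for example the `S`-arithmetic lattices `SL_N(ℤ[1/m])`, `N` odd, and finite index subgroups of
them), given by an injective homomorphism `j`, and the subgroup `H = Γ ∩ SL_N(ℤ)`: finite
intersections of conjugates of `H` have infinite orbits on `Γ ∖ {1}`, and `H` has Kazhdan pairs.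
-/

set_option linter.all false

open Matrix

namespace Vale.Agent.P092.H367.SArith

open Vale.Agent.P092.H885

variable {N : ℕ}

theorem inc_val (l : SpecialLinearGroup (Fin N) ℤ) :
    ((inc N l : SpecialLinearGroup (Fin N) ℚ) : Matrix (Fin N) (Fin N) ℚ) =
      (l : Matrix (Fin N) (Fin N) ℤ).map (Int.cast : ℤ → ℚ) := rfl

theorem map_inj {A B : Matrix (Fin N) (Fin N) ℤ}
    (h : A.map (Int.cast : ℤ → ℚ) = B.map (Int.cast : ℤ → ℚ)) : A = B := by
  ext i j
  have := congrFun (congrFun h i) j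
  simpa using this

/-- Orbits under conjugation by finite index subgroups of `SL_N(ℤ)` are infinite. -/
theorem orbit_infinite (hN : 2 ≤ N) (L : Subgroup (SpecialLinearGroup (Fin N) ℤ)) [L.FiniteIndex]
    {x : SpecialLinearGroup (Fin N) ℚ} (h1 : x ≠ 1)
    (h2 : (x : Matrix (Fin N) (Fin N) ℚ) ≠ -1) :
    {y | ∃ l ∈ L, y = inc N l * x * (inc N l)⁻¹}.Infinite := by
  intro hfin
  set A : Matrix (Fin N) (Fin N) ℚ := (x : Matrix (Fin N) (Fin N) ℚ) with hA
  have hcom : ∀ i j : Fin N, i ≠ j → ∃ c : ℚ, c ≠ 0 ∧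
      A * transvection i j c = transvection i j c * A := by
    intro i j hij
    obtain ⟨d, hd0, -, hd⟩ := Subgroup.exists_pow_mem_of_index_ne_zero
      (Subgroup.FiniteIndex.index_ne_zero (H := L)) (SlnT.es i j hij 1)
    set h : ℕ → SpecialLinearGroup (Fin N) ℤ := fun k => (SlnT.es i j hij 1 ^ d) ^ k with hh
    have hmaps : ∀ k : ℕ, inc N (h k) * x * (inc N (h k))⁻¹ ∈
        {y | ∃ l ∈ L, y = inc N l * x * (inc N l)⁻¹} := fun k => ⟨h k, L.pow_mem hd k, rfl⟩
    obtain ⟨k, -, l, -, hkl, heq⟩ := Set.infinite_univ.exists_ne_map_eq_of_mapsTo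
      (f := fun k : ℕ => inc N (h k) * x * (inc N (h k))⁻¹) (fun k _ => hmaps k) hfin
    wlog hlt : k < l generalizing k l
    · exact this l k hkl.symm heq.symm (lt_of_le_of_ne (not_lt.mp hlt) hkl.symm)
    obtain ⟨m, hm0, rfl⟩ : ∃ m, 0 < m ∧ l = k + m := ⟨l - k, by omega, by omega⟩
    have h1 : x * inc N (h m) = inc N (h m) * x := by
      have h2 : h (k + m) = h k * h m := pow_add _ _ _
      change inc N (h k) * x * (inc N (h k))⁻¹ = inc N (h (k + m)) * x * (inc N (h (k + m)))⁻¹ at heq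
      rw [h2, map_mul] at heq
      have h3 : x = inc N (h m) * x * (inc N (h m))⁻¹ := by
        have h4 : (inc N (h k))⁻¹ * (inc N (h k) * x * (inc N (h k))⁻¹) * inc N (h k) =
            (inc N (h k))⁻¹ * (inc N (h k) * inc N (h m) * x * (inc N (h k) * inc N (h m))⁻¹) *
              inc N (h k) := by rw [heq]
        have h5 : (inc N (h k))⁻¹ * (inc N (h k) * x * (inc N (h k))⁻¹) * inc N (h k) = x := by
          group
        have h6 : (inc N (h k))⁻¹ * (inc N (h k) * inc N (h m) * x *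
            (inc N (h k) * inc N (h m))⁻¹) * inc N (h k) =
            inc N (h m) * x * (inc N (h m))⁻¹ := by group
        rw [h5, h6] at h4
        exact h4
      calc x * inc N (h m) = (inc N (h m) * x * (inc N (h m))⁻¹) * inc N (h m) := by rw [← h3]
        _ = inc N (h m) * x := by group
    have h7 : h m = SlnT.es i j hij ((d * m : ℕ) : ℤ) := by
      rw [hh]
      change (SlnT.es i j hij 1 ^ d) ^ m = _
      rw [← pow_mul, SlnT.es_pow, mul_one]
    have h8 : ((inc N (h m) : SpecialLinearGroup (Fin N) ℚ) : Matrix (Fin N) (Fin N) ℚ) =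
        transvection i j ((d * m : ℕ) : ℚ) := by
      rw [h7, inc_val, SlnT.es_val, transvection, transvection]
      ext a b
      simp [Matrix.single_apply, Matrix.one_apply]
    have h5 : A * ((inc N (h m) : SpecialLinearGroup (Fin N) ℚ) : Matrix (Fin N) (Fin N) ℚ) =
        ((inc N (h m) : SpecialLinearGroup (Fin N) ℚ) : Matrix (Fin N) (Fin N) ℚ) * A :=
      congrArg (fun y : SpecialLinearGroup (Fin N) ℚ => (y : Matrix (Fin N) (Fin N) ℚ)) h1
    rw [h8] at h5
    exact ⟨((d * m : ℕ) : ℚ), by positivity, h5⟩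
  have hs : ∀ i j : Fin N, i ≠ j → ∃ c : ℚ, c ≠ 0 ∧
      A * Matrix.single i j c = Matrix.single i j c * A := by
    intro i j hij
    obtain ⟨c, hc, h⟩ := hcom i j hij
    refine ⟨c, hc, ?_⟩
    rw [transvection, Matrix.mul_add, Matrix.add_mul, Matrix.mul_one, Matrix.one_mul,
      add_right_inj] at h
    exact h
  have hoff : ∀ a i : Fin N, a ≠ i → A a i = 0 := by
    intro a i hai
    obtain ⟨c, hc, h⟩ := hs i a hai.symm
    have h3 := congrFun (congrFun h a) a
    rw [Matrix.mul_single_apply_same, Matrix.single_mul_apply_of_ne _ _ _ _ _ hai] at h3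
    exact (mul_eq_zero.mp h3).resolve_right hc
  have hdiag : ∀ i j : Fin N, A i i = A j j := by
    intro i j
    by_cases hij : i = j
    · rw [hij]
    obtain ⟨c, hc, h⟩ := hs i j hij
    have h3 := congrFun (congrFun h i) j
    rw [Matrix.mul_single_apply_same, Matrix.single_mul_apply_same] at h3
    have h4 : c * (A i i - A j j) = 0 := by rw [mul_sub, ← h3]; ring
    exact sub_eq_zero.mp ((mul_eq_zero.mp h4).resolve_left hc)
  have i0 : Fin N := ⟨0, by omega⟩
  have hsc : A = A i0 i0 • (1 : Matrix (Fin N) (Fin N) ℚ) := by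
    ext i j
    by_cases hij : i = j
    · subst hij
      rw [Matrix.smul_apply, Matrix.one_apply_eq, smul_eq_mul, mul_one]
      exact hdiag _ _
    · rw [Matrix.smul_apply, Matrix.one_apply_ne hij, smul_zero]
      exact hoff _ _ hij
  have hdet : A i0 i0 ^ N = 1 := by
    have h3 : A.det = 1 := x.2
    rw [hsc, Matrix.det_smul, Matrix.det_one, mul_one, Fintype.card_fin] at h3
    simpa using h3
  have habs : |A i0 i0| = 1 := by
    have h3 : |A i0 i0| ^ N = 1 := by rw [← abs_pow, hdet, abs_one]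
    exact (pow_eq_one_iff_of_nonneg (abs_nonneg _) (by omega)).mp h3
  rcases (abs_eq zero_le_one).mp habs with h3 | h3
  · apply h1
    apply Subtype.ext
    change A = 1
    rw [hsc, h3, one_smul]
  · apply h2
    rw [hsc, h3, neg_one_smul]

/-- A common denominator. -/
theorem exists_denom (A : Matrix (Fin N) (Fin N) ℚ) :
    ∃ d : ℕ, 0 < d ∧ ∃ B : Matrix (Fin N) (Fin N) ℤ, B.map (Int.cast : ℤ → ℚ) = (d : ℚ) • A := by
  have hd : ∀ i j : Fin N, (A i j).den ∣ ∏ i : Fin N, ∏ j : Fin N, (A i j).den := fun i j =>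
    (Finset.dvd_prod_of_mem (fun j => (A i j).den) (Finset.mem_univ j)).trans
      (Finset.dvd_prod_of_mem (fun i => ∏ j : Fin N, (A i j).den) (Finset.mem_univ i))
  refine ⟨∏ i : Fin N, ∏ j : Fin N, (A i j).den,
    Finset.prod_pos fun i _ => Finset.prod_pos fun j _ => (A i j).den_pos, ?_⟩
  choose c hc using hd
  refine ⟨Matrix.of fun i j => c i j * (A i j).num, ?_⟩
  ext i j
  rw [Matrix.map_apply, Matrix.of_apply, Matrix.smul_apply, smul_eq_mul]
  conv_rhs => rw [hc i j]
  have h1 : ((A i j).den : ℚ) ≠ 0 := by exact_mod_cast (A i j).den_nz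
  have h2 : (A i j) * (A i j).den = (A i j).num := Rat.mul_den_eq_num _
  push_cast
  rw [← h2]
  ring

/-- The congruence subgroup of level `n`. -/
def cong (N n : ℕ) : Subgroup (SpecialLinearGroup (Fin N) ℤ) :=
  (SpecialLinearGroup.map (n := Fin N) (Int.castRingHom (ZMod n))).ker

instance cong_fi (N n : ℕ) [NeZero n] : (cong N n).FiniteIndex := by
  unfold cong
  haveI : Finite (SpecialLinearGroup (Fin N) (ZMod n)) := Subtype.finite
  haveI : Finite (SpecialLinearGroup.map (n := Fin N) (Int.castRingHom (ZMod n))).range :=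
    Subtype.finite
  exact Subgroup.finiteIndex_ker _

theorem mem_cong {n : ℕ} {l : SpecialLinearGroup (Fin N) ℤ} (h : l ∈ cong N n) :
    ∃ B : Matrix (Fin N) (Fin N) ℤ, (l : Matrix (Fin N) (Fin N) ℤ) = 1 + (n : ℤ) • B := by
  have h1 : SpecialLinearGroup.map (n := Fin N) (Int.castRingHom (ZMod n)) l = 1 := h
  have h2 : ∀ i j, (n : ℤ) ∣ ((l : Matrix (Fin N) (Fin N) ℤ) - 1) i j := by
    intro i j
    have h3 := congrArg (fun y : SpecialLinearGroup (Fin N) (ZMod n) =>
      (y : Matrix (Fin N) (Fin N) (ZMod n)) i j) h1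
    change (((l : Matrix (Fin N) (Fin N) ℤ) i j : ℤ) : ZMod n) =
      (1 : Matrix (Fin N) (Fin N) (ZMod n)) i j at h3
    rw [← CharP.intCast_eq_zero_iff (ZMod n) n, Matrix.sub_apply, Int.cast_sub, h3]
    by_cases hij : i = j
    · subst hij
      simp
    · simp [Matrix.one_apply_ne hij]
  choose B hB using h2
  refine ⟨Matrix.of B, ?_⟩
  ext i j
  have := hB i j
  rw [Matrix.add_apply, Matrix.smul_apply, Matrix.of_apply, smul_eq_mul, ← this,
    Matrix.sub_apply]
  ring

/-- `g⁻¹ l g` is integral for `l` in a congruence subgroup. -/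
theorem conj_mem (g : SpecialLinearGroup (Fin N) ℚ) : ∃ n : ℕ, 0 < n ∧
    ∀ l ∈ cong N n, g⁻¹ * inc N l * g ∈ (inc N).range := by
  obtain ⟨d, hd, A, hA⟩ := exists_denom (g : Matrix (Fin N) (Fin N) ℚ)
  obtain ⟨e, he, A', hA'⟩ := exists_denom ((g⁻¹ : SpecialLinearGroup (Fin N) ℚ) :
    Matrix (Fin N) (Fin N) ℚ)
  refine ⟨d * e, Nat.mul_pos hd he, fun l hl => ?_⟩
  obtain ⟨B, hB⟩ := mem_cong hl
  have hgg : ((g⁻¹ : SpecialLinearGroup (Fin N) ℚ) : Matrix (Fin N) (Fin N) ℚ) *
      (g : Matrix (Fin N) (Fin N) ℚ) = 1 := by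
    have := congrArg (fun y : SpecialLinearGroup (Fin N) ℚ => (y : Matrix (Fin N) (Fin N) ℚ))
      (inv_mul_cancel g)
    exact this
  have key : (1 + A' * B * A).map (Int.cast : ℤ → ℚ) =
      ((g⁻¹ * inc N l * g : SpecialLinearGroup (Fin N) ℚ) : Matrix (Fin N) (Fin N) ℚ) := by
    have e1 : ((g⁻¹ * inc N l * g : SpecialLinearGroup (Fin N) ℚ) : Matrix (Fin N) (Fin N) ℚ) =
        ((g⁻¹ : SpecialLinearGroup (Fin N) ℚ) : Matrix (Fin N) (Fin N) ℚ) *
          (l : Matrix (Fin N) (Fin N) ℤ).map (Int.cast : ℤ → ℚ) *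
          (g : Matrix (Fin N) (Fin N) ℚ) := rfl
    have e2 : (l : Matrix (Fin N) (Fin N) ℤ).map (Int.cast : ℤ → ℚ) =
        1 + ((d : ℚ) * e) • B.map (Int.cast : ℤ → ℚ) := by
      rw [hB]
      ext i j
      rw [Matrix.map_apply, Matrix.add_apply, Matrix.smul_apply, Matrix.add_apply,
        Matrix.smul_apply, Matrix.map_apply, smul_eq_mul, smul_eq_mul, Int.cast_add, Int.cast_mul]
      push_cast
      congr 1
      by_cases hij : i = j
      · subst hij
        simp
      · simp [Matrix.one_apply_ne hij]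
    have e3 : (1 + A' * B * A).map (Int.cast : ℤ → ℚ) =
        1 + A'.map (Int.cast : ℤ → ℚ) * B.map (Int.cast : ℤ → ℚ) *
          A.map (Int.cast : ℤ → ℚ) := by
      have := (RingHom.mapMatrix (m := Fin N) (Int.castRingHom ℚ)).map_add 1 (A' * B * A)
      rw [map_one, map_mul, map_mul] at this
      exact this
    rw [e1, e2, e3, hA, hA', Matrix.mul_add, Matrix.add_mul, Matrix.mul_one, hgg]
    congr 1
    simp only [Matrix.smul_mul, Matrix.mul_smul, smul_smul]
  have hdet : (1 + A' * B * A).det = 1 := by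
    have h1 : ((1 + A' * B * A).det : ℚ) = 1 := by
      have h2 := (RingHom.map_det (Int.castRingHom ℚ) (1 + A' * B * A))
      have h3 : (RingHom.mapMatrix (m := Fin N) (Int.castRingHom ℚ)) (1 + A' * B * A) =
          (1 + A' * B * A).map (Int.cast : ℤ → ℚ) := rfl
      rw [h3, key] at h2
      have h4 : ((g⁻¹ * inc N l * g : SpecialLinearGroup (Fin N) ℚ) :
        Matrix (Fin N) (Fin N) ℚ).det = 1 := (g⁻¹ * inc N l * g).2
      rw [h4] at h2
      exact h2
    exact_mod_cast h1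
  refine ⟨⟨1 + A' * B * A, hdet⟩, ?_⟩
  apply Subtype.ext
  exact key

variable {Γ : Type} [Group Γ] (j : Γ →* SpecialLinearGroup (Fin N) ℚ)

/-- All orbits on `Γ ∖ {1}` under finite intersections of conjugates of `Γ ∩ SL_N(ℤ)` are
infinite. -/
theorem rel_icc (hN : 2 ≤ N) (hj : Function.Injective j) (hfi : (j.range.comap (inc N)).FiniteIndex)
    (hΓ : ∀ g, (j g : Matrix (Fin N) (Fin N) ℚ) ≠ -1) (S : Finset Γ) (x : Γ) (hx : x ≠ 1) :
    {y : Γ | ∃ k : Γ, (∀ g ∈ S, g⁻¹ * k * g ∈ HZ j) ∧ y = k * x * k⁻¹}.Infinite := by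
  have hc : ∀ g : S, ∃ n : ℕ, 0 < n ∧ ∀ l ∈ cong N n,
      (j (g : Γ))⁻¹ * inc N l * j (g : Γ) ∈ (inc N).range := fun g => conj_mem _
  choose n hn hc using hc
  haveI : ∀ g : S, (cong N (n g)).FiniteIndex := fun g => by
    haveI : NeZero (n g) := ⟨(hn g).ne'⟩
    infer_instance
  haveI : (⨅ g : S, cong N (n g)).FiniteIndex := Subgroup.finiteIndex_iInf fun g => this g
  haveI := hfi
  have h := orbit_infinite hN (j.range.comap (inc N) ⊓ ⨅ g : S, cong N (n g)) (x := j x)
    (fun h => hx (hj (h.trans (map_one j).symm))) (hΓ x)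
  intro hfin
  refine h ((hfin.image j).subset ?_)
  rintro y ⟨l, hl, rfl⟩
  obtain ⟨k, hk⟩ : inc N l ∈ j.range := (Subgroup.mem_inf.mp hl).1
  have hl2 := (Subgroup.mem_inf.mp hl).2
  refine ⟨k * x * k⁻¹, ⟨k, fun g hg => ?_, rfl⟩, ?_⟩
  · have h1 := hc ⟨g, hg⟩ l (Subgroup.mem_iInf.mp hl2 ⟨g, hg⟩)
    rw [Subgroup.mem_comap, map_mul, map_mul, map_inv, hk]
    exact h1
  · rw [map_mul, map_mul, map_inv, hk]

/-- `Γ` is ICC. -/
theorem icc (hN : 2 ≤ N) (hj : Function.Injective j) (hfi : (j.range.comap (inc N)).FiniteIndex)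
    (hΓ : ∀ g, (j g : Matrix (Fin N) (Fin N) ℚ) ≠ -1) (x : Γ) (hx : x ≠ 1) :
    {y : Γ | ∃ k, y = k * x * k⁻¹}.Infinite := by
  refine (rel_icc j hN hj hfi hΓ ∅ x hx).mono ?_
  rintro y ⟨k, -, h⟩
  exact ⟨k, h⟩

/-- `H = Γ ∩ SL_N(ℤ)` has property (T). -/
theorem kazhdan (hN : 3 ≤ N) (hj : Function.Injective j)
    (hfi : (j.range.comap (inc N)).FiniteIndex) :
    ∃ (Q : Finset (HZ j)) (ε : ℝ), IsKazhdanPair (HZ j) Q ε := by
  have hex : ∀ l : j.range.comap (inc N), ∃ k : Γ, j k = inc N l := fun l => l.2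
  choose k hk using hex
  let f : j.range.comap (inc N) →* HZ j :=
    { toFun := fun l => ⟨k l, ⟨l.1, (hk l).symm⟩⟩
      map_one' := by
        apply Subtype.ext
        apply hj
        change j (k 1) = j 1
        rw [hk, map_one]
        exact map_one (inc N)
      map_mul' := fun a b => by
        apply Subtype.ext
        apply hj
        change j (k (a * b)) = j (k a * k b)
        rw [map_mul, hk, hk, hk]
        exact map_mul (inc N) _ _ }
  refine kazhdan_quot f ?_ (H423.kazhdan_fi (kazhdan_sln hN) (j.range.comap (inc N)))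
  rintro ⟨h, ⟨l, hl⟩⟩
  refine ⟨⟨l, ⟨h, hl.symm⟩⟩, ?_⟩
  apply Subtype.ext
  apply hj
  change j (k _) = j h
  rw [hk]
  exact hl

end Vale.Agent.P092.H367.SArith
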