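import Vale.Agent.P092.H885.StDefs2
import Vale.Agent.P092.H160.Tensor

/-!
Definitions used in the statement for amplifications (P092), in elementary form: matrices over
`L(Λ)` as operators on `ℓ²({0,…,n} × Λ)`, corners, `*`-isomorphisms from `L(Γ)` onto a corner.
-/

namespace Vale.Agent.P092.H367.St

open Vale.Agent.P092.H160 Vale.Agent.P092.H160.St

variable {Γ Λ : Type} [Group Γ] [Group Λ] {n : ℕ}

/-- The isometry `ξ ↦ δ_j ⊗ ξ` from `ℓ²(Λ)` onto the `j`-th copy of `ℓ²(Λ)` in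
`ℓ²({0,…,n} × Λ)`. -/
noncomputable def row (j : Fin (n + 1)) : Ell2 Λ →L[ℂ] Ell2 (Fin (n + 1) × Λ) := tvr (dl j)

/-- The `(i,j)` entry of an operator on `ℓ²({0,…,n} × Λ)`. -/
noncomputable def ent (T : Op (Fin (n + 1) × Λ)) (i j : Fin (n + 1)) : Op Λ :=
  ContinuousLinearMap.adjoint (row i) ∘L T ∘L row j

/-- The matrix with `(0,0)` entry `A` and all other entries `0`. -/
noncomputable def corner (n : ℕ) (A : Op Λ) : Op (Fin (n + 1) × Λ) :=
  row 0 ∘L A ∘L ContinuousLinearMap.adjoint (row 0)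

/-- Membership in `M_{n+1}(L(Λ))`: all entries are in `L(Λ)`. -/
def InM (T : Op (Fin (n + 1) × Λ)) : Prop := ∀ i j, InL (ent T i j)

/-- The trace `Tr ⊗ τ` of `M_{n+1}(L(Λ))`. -/
noncomputable def trM (T : Op (Fin (n + 1) × Λ)) : ℂ := ∑ i, St.tr (ent T i i)

/-- The sum of the fourth powers of the absolute values of all the coefficients:
`∑_{i,j} ∑_s |τ(T_ij u_s*)|⁴`. -/
noncomputable def four (T : Op (Fin (n + 1) × Λ)) : ℝ := ∑ i, ∑ j, H885.fourth (ent T i j)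

/-- `p` is a nonzero projection of `M_{n+1}(L(Λ))`. -/
structure IsProj (p : Op (Fin (n + 1) × Λ)) : Prop where
  mem : InM p
  adj : IsAdj p p
  idem : mul p p = p
  ne : p ≠ 0

/-- Membership in the corner `p M_{n+1}(L(Λ)) p`. -/
def InC (p T : Op (Fin (n + 1) × Λ)) : Prop := InM T ∧ mul p T = T ∧ mul T p = T

/-- A `*`-isomorphism from `L(Γ)` onto the corner `p M_{n+1}(L(Λ)) p`. -/
structure AmpIso (Γ Λ : Type) [Group Γ] [Group Λ] (n : ℕ) (p : Op (Fin (n + 1) × Λ)) where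
  /-- the map (only its values on `L(Γ)` matter) -/
  toFun : Op Γ → Op (Fin (n + 1) × Λ)
  /-- the inverse map (only its values on the corner matter) -/
  invFun : Op (Fin (n + 1) × Λ) → Op Γ
  map_mem : ∀ T, InL T → InC p (toFun T)
  inv_mem : ∀ T, InC p T → InL (invFun T)
  left_inv : ∀ T, InL T → invFun (toFun T) = T
  right_inv : ∀ T, InC p T → toFun (invFun T) = T
  map_add : ∀ S T, InL S → InL T → toFun (add S T) = add (toFun S) (toFun T)
  map_smul : ∀ c S T, InL S → InL T → IsSmul c S T → IsSmul c (toFun S) (toFun T)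
  map_mul : ∀ S T, InL S → InL T → toFun (mul S T) = mul (toFun S) (toFun T)
  map_adj : ∀ S T, InL S → InL T → IsAdj S T → IsAdj (toFun S) (toFun T)

/-- `p` is the matrix unit `e_00` (so the corner is `L(Λ)`), and `θ` is canonical:
`θ(u_g) = χ(g) e_00 ⊗ (w v_{δ(g)} w*)` for a group isomorphism `δ : Γ → Λ`, a character
`χ : Γ → 𝕋` and a unitary `w ∈ L(Λ)` (with inverse and adjoint `w'`). -/
def CanonicalAmp {p : Op (Fin (n + 1) × Λ)} (θ : AmpIso Γ Λ n p) : Prop :=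
  p = corner n (u 1) ∧
  ∃ (δ : Γ ≃* Λ) (χ : Γ →* Circle) (w w' : Op Λ), InL w ∧ IsAdj w w' ∧ mul w w' = u 1 ∧
    mul w' w = u 1 ∧
    ∀ g : Γ, IsSmul (χ g) (corner n (mul (mul w (u (δ g))) w')) (θ.toFun (u g))

/-- `θ : L(Γ) → p M_{n+1}(L(Λ)) p` is canonical: for a group isomorphism `δ : Γ → Λ`, a character
`χ : Γ → 𝕋` and a column `w = (w_0,…,w_n)` over `L(Λ)` (with adjoint entries `w' i = w_i*`),
`w* w = ∑_i w_i* w_i = 1`, `w w* = p` and `θ(u_g) = χ(g) w v_{δ(g)} w*`, entry by entry. -/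
def CanonAmp {p : Op (Fin (n + 1) × Λ)} (θ : AmpIso Γ Λ n p) : Prop :=
  ∃ (δ : Γ ≃* Λ) (χ : Γ →* Circle) (w w' : Fin (n + 1) → Op Λ),
    (∀ i, InL (w i)) ∧ (∀ i, IsAdj (w i) (w' i)) ∧ (∑ i, mul (w' i) (w i)) = u 1 ∧
    (∀ i j, ent p i j = mul (w i) (w' j)) ∧
    ∀ (g : Γ) (i j : Fin (n + 1)),
      IsSmul (χ g) (mul (mul (w i) (u (δ g))) (w' j)) (ent (θ.toFun (u g)) i j)

end Vale.Agent.P092.H367.St
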