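import Vale.Agent.P092.R3.H423.StHt

/-!
Vanishing along an element.
-/

namespace Vale.Agent.P092.H367.Mt

/-- Vanishing along `x`: the heights of the `θ(u_{x^M})` tend to zero on average (`HV`), the fourth
power sums decay along every group `H → Γ` relative to every subgroup `A` of `H` whose image
contains `x` (`SubDecay`), and with explicit constants along the quadruples of two translations and
two shears which contain `x` (`ShearDecay`). -/
def Van {Γ Λ : Type} [Group Γ] [Group Λ] {n : ℕ} {p : Mat n Λ} (θ : AmpIso Γ Λ n p) (x : Γ) :
    Prop :=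
  HV θ x ∧ (∀ (H : Type) [Group H] (φ : H →* Γ) (A : Subgroup H), x ∈ A.map φ →
    SubDecay θ φ A) ∧ ShearDecay θ x

end Vale.Agent.P092.H367.Mt
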